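import Mathlib.Analysis.Calculus.ContDiff.Basic
import Mathlib.Analysis.Calculus.ContDiff.FTaylorSeries
import Mathlib.Analysis.Calculus.FDeriv.Symmetric
import Mathlib.Analysis.Calculus.Deriv.Comp
import Mathlib.Analysis.Calculus.Deriv.Mul
import Mathlib.Analysis.Calculus.FDeriv.Mul
import Mathlib.Analysis.Calculus.ContDiff.FiniteDimension
import Mathlib.Topology.Algebra.Module.FiniteDimension
import Mathlib.Tactic

open Set Filter
open scoped Topology ContDiff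

set_option maxSynthPendingDepth 3

namespace Vale.Agent.P210.R2.H265

variable {E : Type} [NormedAddCommGroup E] [NormedSpace ℝ E]
  {F : Type} [NormedAddCommGroup F] [NormedSpace ℝ F]

lemma two_le_inf : (2 : WithTop ℕ∞) ≤ ∞ := by
  show ((2 : ℕ∞) : WithTop ℕ∞) ≤ ((⊤ : ℕ∞) : WithTop ℕ∞)
  exact WithTop.coe_le_coe.mpr le_top

lemma hline {f : E → F} {y : E} (hf : DifferentiableAt ℝ f y) (s : E) :
    HasDerivAt (fun t : ℝ => f (y + t • s)) (fderiv ℝ f y s) 0 := by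
  have h1 : HasDerivAt (fun t : ℝ => y + t • s) s 0 := by
    simpa using ((hasDerivAt_id (0 : ℝ)).smul_const s).const_add y
  have h2 : HasFDerivAt f (fderiv ℝ f y) (y + (0 : ℝ) • s) := by
    simpa using hf.hasFDerivAt
  exact h2.comp_hasDerivAt (0 : ℝ) h1

lemma line_tendsto (y s : E) : Tendsto (fun t : ℝ => y + t • s) (𝓝 0) (𝓝 y) := by
  have : Continuous (fun t : ℝ => y + t • s) := by fun_prop
  simpa using this.tendsto 0

/-- first derivative of the pulled back metric -/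
lemma inv_F1 {G G' : E → E →L[ℝ] E →L[ℝ] ℝ} {τ : E → E} {y : E}
    (hτ : DifferentiableAt ℝ τ y) (hA : DifferentiableAt ℝ (fderiv ℝ τ) y)
    (hG : DifferentiableAt ℝ G (τ y)) (hG' : DifferentiableAt ℝ G' y)
    (he : ∀ᶠ x in 𝓝 y, ∀ v w, G' x v w = G (τ x) (fderiv ℝ τ x v) (fderiv ℝ τ x w))
    (u v w : E) :
    fderiv ℝ G' y u v w = fderiv ℝ G (τ y) (fderiv ℝ τ y u) (fderiv ℝ τ y v) (fderiv ℝ τ y w)
      + G (τ y) (fderiv ℝ (fderiv ℝ τ) y u v) (fderiv ℝ τ y w)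
      + G (τ y) (fderiv ℝ τ y v) (fderiv ℝ (fderiv ℝ τ) y u w) := by
  have h1 : HasDerivAt (fun t : ℝ => G' (y + t • u) v w) (fderiv ℝ G' y u v w) 0 := by
    have := ((hline hG' u).clm_apply (hasDerivAt_const (0 : ℝ) v)).clm_apply
      (hasDerivAt_const (0 : ℝ) w)
    simpa using this
  have hGt : HasDerivAt (fun t : ℝ => G (τ (y + t • u)))
      (fderiv ℝ G (τ y) (fderiv ℝ τ y u)) 0 := by
    have h2 : HasFDerivAt G (fderiv ℝ G (τ y)) (τ (y + (0 : ℝ) • u)) := by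
      simpa using hG.hasFDerivAt
    exact h2.comp_hasDerivAt (0 : ℝ) (hline hτ u)
  have hAv : ∀ v, HasDerivAt (fun t : ℝ => fderiv ℝ τ (y + t • u) v)
      (fderiv ℝ (fderiv ℝ τ) y u v) 0 := by
    intro v
    have := (hline hA u).clm_apply (hasDerivAt_const (0 : ℝ) v)
    simpa using this
  have h3 := (hGt.clm_apply (hAv v)).clm_apply (hAv w)
  have h4 : (fun t : ℝ => G' (y + t • u) v w) =ᶠ[𝓝 0]
      fun t : ℝ => G (τ (y + t • u)) (fderiv ℝ τ (y + t • u) v) (fderiv ℝ τ (y + t • u) w) :=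
    ((line_tendsto y u).eventually he).mono fun t ht => ht v w
  have h5 := h1.unique (h3.congr_of_eventuallyEq h4)
  rw [h5]
  simp only [zero_smul, add_zero, _root_.add_apply]

/-- second derivative of the pulled back metric -/
lemma inv_F2 {G G' : E → E →L[ℝ] E →L[ℝ] ℝ} {τ : E → E} {z : E}
    (hτ : ContDiffAt ℝ ∞ τ z) (hG : ContDiffAt ℝ ∞ G (τ z)) (hG' : ContDiffAt ℝ ∞ G' z)
    (he : ∀ᶠ y in 𝓝 z, ∀ v w, G' y v w = G (τ y) (fderiv ℝ τ y v) (fderiv ℝ τ y w))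
    (s u v w : E) :
    fderiv ℝ (fderiv ℝ G') z s u v w =
      fderiv ℝ (fderiv ℝ G) (τ z) (fderiv ℝ τ z s) (fderiv ℝ τ z u) (fderiv ℝ τ z v)
        (fderiv ℝ τ z w)
      + fderiv ℝ G (τ z) (fderiv ℝ (fderiv ℝ τ) z s u) (fderiv ℝ τ z v) (fderiv ℝ τ z w)
      + fderiv ℝ G (τ z) (fderiv ℝ τ z u) (fderiv ℝ (fderiv ℝ τ) z s v) (fderiv ℝ τ z w)
      + fderiv ℝ G (τ z) (fderiv ℝ τ z u) (fderiv ℝ τ z v) (fderiv ℝ (fderiv ℝ τ) z s w)
      + (fderiv ℝ G (τ z) (fderiv ℝ τ z s) (fderiv ℝ (fderiv ℝ τ) z u v) (fderiv ℝ τ z w)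
        + G (τ z) (fderiv ℝ (fderiv ℝ (fderiv ℝ τ)) z s u v) (fderiv ℝ τ z w)
        + G (τ z) (fderiv ℝ (fderiv ℝ τ) z u v) (fderiv ℝ (fderiv ℝ τ) z s w))
      + (fderiv ℝ G (τ z) (fderiv ℝ τ z s) (fderiv ℝ τ z v) (fderiv ℝ (fderiv ℝ τ) z u w)
        + G (τ z) (fderiv ℝ (fderiv ℝ τ) z s v) (fderiv ℝ (fderiv ℝ τ) z u w)
        + G (τ z) (fderiv ℝ τ z v) (fderiv ℝ (fderiv ℝ (fderiv ℝ τ)) z s u w)) := by
  have hτA : ContDiffAt ℝ ∞ (fderiv ℝ τ) z := hτ.fderiv_right (m := ∞) (by simp)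
  have hτ2 : ContDiffAt ℝ ∞ (fderiv ℝ (fderiv ℝ τ)) z := hτA.fderiv_right (m := ∞) (by simp)
  have hDG : ContDiffAt ℝ ∞ (fderiv ℝ G) (τ z) := hG.fderiv_right (m := ∞) (by simp)
  have hDG' : ContDiffAt ℝ ∞ (fderiv ℝ G') z := hG'.fderiv_right (m := ∞) (by simp)
  have ev : ∀ {X : Type} [NormedAddCommGroup X] [NormedSpace ℝ X] {f : E → X} {x : E},
      ContDiffAt ℝ ∞ f x → ∀ᶠ y in 𝓝 x, DifferentiableAt ℝ f y := by
    intro X _ _ f x hf
    have h1 : ContDiffAt ℝ 1 f x := hf.of_le (by exact_mod_cast le_top)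
    exact (h1.eventually (by simp)).mono fun y hy => hy.differentiableAt (by simp)
  have da : ∀ {X : Type} [NormedAddCommGroup X] [NormedSpace ℝ X] {f : E → X} {x : E},
      ContDiffAt ℝ ∞ f x → DifferentiableAt ℝ f x := by
    intro X _ _ f x hf
    exact hf.differentiableAt (by simp)
  have hF1 : ∀ᶠ y in 𝓝 z, fderiv ℝ G' y u v w =
      fderiv ℝ G (τ y) (fderiv ℝ τ y u) (fderiv ℝ τ y v) (fderiv ℝ τ y w)
      + G (τ y) (fderiv ℝ (fderiv ℝ τ) y u v) (fderiv ℝ τ y w)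
      + G (τ y) (fderiv ℝ τ y v) (fderiv ℝ (fderiv ℝ τ) y u w) := by
    have c : Tendsto τ (𝓝 z) (𝓝 (τ z)) := (da hτ).continuousAt
    filter_upwards [ev hτ, ev hτA, c.eventually (ev hG), ev hG', he.eventually_nhds]
      with y h1 h2 h3 h4 h5
    exact inv_F1 h1 h2 h3 h4 h5 u v w
  have h1 : HasDerivAt (fun t : ℝ => fderiv ℝ G' (z + t • s) u v w)
      (fderiv ℝ (fderiv ℝ G') z s u v w) 0 := by
    have := (((hline (da hDG') s).clm_apply (hasDerivAt_const (0 : ℝ) u)).clm_apply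
      (hasDerivAt_const (0 : ℝ) v)).clm_apply (hasDerivAt_const (0 : ℝ) w)
    simpa using this
  have hGt : HasDerivAt (fun t : ℝ => G (τ (z + t • s)))
      (fderiv ℝ G (τ z) (fderiv ℝ τ z s)) 0 := by
    have h2 : HasFDerivAt G (fderiv ℝ G (τ z)) (τ (z + (0 : ℝ) • s)) := by
      simpa using (da hG).hasFDerivAt
    exact h2.comp_hasDerivAt (0 : ℝ) (hline (da hτ) s)
  have hDGt : HasDerivAt (fun t : ℝ => fderiv ℝ G (τ (z + t • s)))
      (fderiv ℝ (fderiv ℝ G) (τ z) (fderiv ℝ τ z s)) 0 := by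
    have h2 : HasFDerivAt (fderiv ℝ G) (fderiv ℝ (fderiv ℝ G) (τ z)) (τ (z + (0 : ℝ) • s)) := by
      simpa using (da hDG).hasFDerivAt
    exact h2.comp_hasDerivAt (0 : ℝ) (hline (da hτ) s)
  have hAv : ∀ v, HasDerivAt (fun t : ℝ => fderiv ℝ τ (z + t • s) v)
      (fderiv ℝ (fderiv ℝ τ) z s v) 0 := by
    intro v
    have := (hline (da hτA) s).clm_apply (hasDerivAt_const (0 : ℝ) v)
    simpa using this
  have hTv : ∀ u v, HasDerivAt (fun t : ℝ => fderiv ℝ (fderiv ℝ τ) (z + t • s) u v)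
      (fderiv ℝ (fderiv ℝ (fderiv ℝ τ)) z s u v) 0 := by
    intro u v
    have := ((hline (da hτ2) s).clm_apply (hasDerivAt_const (0 : ℝ) u)).clm_apply
      (hasDerivAt_const (0 : ℝ) v)
    simpa using this
  have h3 := ((((hDGt.clm_apply (hAv u)).clm_apply (hAv v)).clm_apply (hAv w)).add
    ((hGt.clm_apply (hTv u v)).clm_apply (hAv w))).add
    ((hGt.clm_apply (hAv v)).clm_apply (hTv u w))
  have h4 := (line_tendsto z s).eventually hF1
  have h5 := h1.unique (h3.congr_of_eventuallyEq (h4.mono fun t ht => ht))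
  rw [h5]
  simp only [zero_smul, add_zero, _root_.add_apply]

theorem inv_main [FiniteDimensional ℝ E]
    (G G' : E → E →L[ℝ] E →L[ℝ] ℝ) (τ : E → E) (z : E) (Γ Γ' : E → E → E)
    (hτ : ContDiffAt ℝ ∞ τ z) (hG : ContDiffAt ℝ ∞ G (τ z)) (hG' : ContDiffAt ℝ ∞ G' z)
    (hsym : ∀ᶠ y in 𝓝 (τ z), ∀ v w, G y v w = G y w v)
    (hpos : ∀ v, v ≠ 0 → 0 < G (τ z) v v)
    (hbij : Function.Bijective (fderiv ℝ τ z))
    (he : ∀ᶠ y in 𝓝 z, ∀ v w, G' y v w = G (τ y) (fderiv ℝ τ y v) (fderiv ℝ τ y w))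
    (hΓ' : ∀ u v w, 2 * G' z (Γ' u v) w =
      fderiv ℝ G' z u v w + fderiv ℝ G' z v u w - fderiv ℝ G' z w u v)
    (hΓ : ∀ u v w, 2 * G (τ z) (Γ u v) w =
      fderiv ℝ G (τ z) u v w + fderiv ℝ G (τ z) v u w - fderiv ℝ G (τ z) w u v) :
    (∀ u v, fderiv ℝ τ z (Γ' u v) =
      fderiv ℝ (fderiv ℝ τ) z u v + Γ (fderiv ℝ τ z u) (fderiv ℝ τ z v)) ∧
    ∀ a b,
      -(fderiv ℝ (fderiv ℝ G') z a a b b + fderiv ℝ (fderiv ℝ G') z b b a a
        - 2 * fderiv ℝ (fderiv ℝ G') z b a a b) / 2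
        + G' z (Γ' a b) (Γ' a b) - G' z (Γ' a a) (Γ' b b) =
      -(fderiv ℝ (fderiv ℝ G) (τ z) (fderiv ℝ τ z a) (fderiv ℝ τ z a) (fderiv ℝ τ z b)
            (fderiv ℝ τ z b)
          + fderiv ℝ (fderiv ℝ G) (τ z) (fderiv ℝ τ z b) (fderiv ℝ τ z b) (fderiv ℝ τ z a)
            (fderiv ℝ τ z a)
        - 2 * fderiv ℝ (fderiv ℝ G) (τ z) (fderiv ℝ τ z b) (fderiv ℝ τ z a) (fderiv ℝ τ z a)
            (fderiv ℝ τ z b)) / 2
        + G (τ z) (Γ (fderiv ℝ τ z a) (fderiv ℝ τ z b)) (Γ (fderiv ℝ τ z a) (fderiv ℝ τ z b))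
        - G (τ z) (Γ (fderiv ℝ τ z a) (fderiv ℝ τ z a)) (Γ (fderiv ℝ τ z b) (fderiv ℝ τ z b)) := by
  have da : ∀ {X : Type} [NormedAddCommGroup X] [NormedSpace ℝ X] {f : E → X} {x : E},
      ContDiffAt ℝ ∞ f x → DifferentiableAt ℝ f x := by
    intro X _ _ f x hf
    exact hf.differentiableAt (by simp)
  have hτA : ContDiffAt ℝ ∞ (fderiv ℝ τ) z := hτ.fderiv_right (m := ∞) (by simp)
  have hτ2 : ContDiffAt ℝ ∞ (fderiv ℝ (fderiv ℝ τ)) z := hτA.fderiv_right (m := ∞) (by simp)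
  -- symmetries
  have gs : ∀ v w, G (τ z) v w = G (τ z) w v := hsym.self_of_nhds
  have DGs : ∀ p v w, fderiv ℝ G (τ z) p v w = fderiv ℝ G (τ z) p w v := by
    intro p v w
    have h1 : ∀ v w, HasDerivAt (fun t : ℝ => G (τ z + t • p) v w) (fderiv ℝ G (τ z) p v w) 0 := by
      intro v w
      have := ((hline (da hG) p).clm_apply (hasDerivAt_const (0 : ℝ) v)).clm_apply
        (hasDerivAt_const (0 : ℝ) w)
      simpa using this
    exact (h1 v w).unique ((h1 w v).congr_of_eventuallyEq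
      (((line_tendsto (τ z) p).eventually hsym).mono fun t ht => ht v w))
  have Ts : ∀ u v, fderiv ℝ (fderiv ℝ τ) z u v = fderiv ℝ (fderiv ℝ τ) z v u := by
    intro u v
    exact (hτ.isSymmSndFDerivAt (by simp [two_le_inf])).eq u v
  have Tse : ∀ᶠ y in 𝓝 z, ∀ u v, fderiv ℝ (fderiv ℝ τ) y u v = fderiv ℝ (fderiv ℝ τ) y v u := by
    have h2 : ContDiffAt ℝ 2 τ z := hτ.of_le two_le_inf
    filter_upwards [h2.eventually (by simp)] with y hy u v
    exact (hy.isSymmSndFDerivAt (by simp)).eq u v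
  have T3a : ∀ s u v, fderiv ℝ (fderiv ℝ (fderiv ℝ τ)) z s u v =
      fderiv ℝ (fderiv ℝ (fderiv ℝ τ)) z s v u := by
    intro s u v
    have h1 : ∀ u v, HasDerivAt (fun t : ℝ => fderiv ℝ (fderiv ℝ τ) (z + t • s) u v)
        (fderiv ℝ (fderiv ℝ (fderiv ℝ τ)) z s u v) 0 := by
      intro u v
      have := ((hline (da hτ2) s).clm_apply (hasDerivAt_const (0 : ℝ) u)).clm_apply
        (hasDerivAt_const (0 : ℝ) v)
      simpa using this
    exact (h1 u v).unique ((h1 v u).congr_of_eventuallyEq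
      (((line_tendsto z s).eventually Tse).mono fun t ht => ht u v))
  have T3b : ∀ s u v, fderiv ℝ (fderiv ℝ (fderiv ℝ τ)) z s u v =
      fderiv ℝ (fderiv ℝ (fderiv ℝ τ)) z u s v := by
    intro s u v
    exact congrArg (fun L => L v) ((hτA.isSymmSndFDerivAt (by simp [two_le_inf])).eq s u)
  have G'z : ∀ v w, G' z v w = G (τ z) (fderiv ℝ τ z v) (fderiv ℝ τ z w) := he.self_of_nhds
  have F1 := inv_F1 (da hτ) (da hτA) (da hG) (da hG') he
  have F2 := inv_F2 hτ hG hG' he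
  -- Christoffel
  have hC : ∀ u v, fderiv ℝ τ z (Γ' u v) =
      fderiv ℝ (fderiv ℝ τ) z u v + Γ (fderiv ℝ τ z u) (fderiv ℝ τ z v) := by
    intro u v
    by_contra hne
    set D := fderiv ℝ τ z (Γ' u v) -
      (fderiv ℝ (fderiv ℝ τ) z u v + Γ (fderiv ℝ τ z u) (fderiv ℝ τ z v)) with hD
    have hD0 : D ≠ 0 := sub_ne_zero.mpr hne
    obtain ⟨w, hw⟩ := hbij.2 D
    have h1 := hΓ' u v w
    have h2 := hΓ (fderiv ℝ τ z u) (fderiv ℝ τ z v) (fderiv ℝ τ z w)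
    rw [G'z, F1, F1, F1] at h1
    have h3 : G (τ z) D D = 0 := by
      have : G (τ z) D (fderiv ℝ τ z w) = 0 := by
        rw [hD]
        simp only [map_sub, map_add, _root_.sub_apply, _root_.add_apply]
        have e1 := gs (fderiv ℝ τ z v) (fderiv ℝ (fderiv ℝ τ) z u w)
        have e2 := gs (fderiv ℝ τ z u) (fderiv ℝ (fderiv ℝ τ) z v w)
        have e3 := gs (fderiv ℝ τ z v) (fderiv ℝ (fderiv ℝ τ) z w u)
        rw [Ts w u, Ts w v, Ts v u] at h1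
        linarith
      rwa [hw] at this
    exact absurd h3 (hpos D hD0).ne'
  refine ⟨hC, fun a b => ?_⟩
  have v1 : fderiv ℝ (fderiv ℝ (fderiv ℝ τ)) z b a a = fderiv ℝ (fderiv ℝ (fderiv ℝ τ)) z a a b :=
    (T3b b a a).trans (T3a a b a)
  have v2 : fderiv ℝ (fderiv ℝ (fderiv ℝ τ)) z b a b = fderiv ℝ (fderiv ℝ (fderiv ℝ τ)) z b b a :=
    T3a b a b
  rw [G'z, G'z, hC, hC, hC, F2, F2, F2, v1, v2, Ts b a]
  simp only [map_add, _root_.add_apply]
  generalize fderiv ℝ (fderiv ℝ (fderiv ℝ τ)) z a a b = X1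
  generalize fderiv ℝ (fderiv ℝ (fderiv ℝ τ)) z b b a = X2
  generalize fderiv ℝ τ z a = α
  generalize fderiv ℝ τ z b = β
  generalize fderiv ℝ (fderiv ℝ τ) z a a = Taa
  generalize fderiv ℝ (fderiv ℝ τ) z a b = Tab
  generalize fderiv ℝ (fderiv ℝ τ) z b b = Tbb
  have k1 := hΓ α β Tab
  have k2 := hΓ α α Tbb
  have k3 := hΓ β β Taa
  linarith [gs Tab (Γ α β), gs Taa (Γ β β), gs β X1, gs α X2, DGs α Tab β, DGs β Tab α,
    DGs β Taa β, DGs α Tbb α, DGs Tab α β]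

end Vale.Agent.P210.R2.H265
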