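import Mathlib.Analysis.Calculus.ContDiff.Basic
import Mathlib.Analysis.Calculus.FDeriv.Symmetric
import Mathlib.Analysis.Calculus.MeanValue
import Mathlib.Analysis.Calculus.Deriv.Mul
import Mathlib.Analysis.Normed.Module.FiniteDimension
import Mathlib.Tactic

open Set Filter Asymptotics Metric
open scoped Topology ContDiff

set_option maxSynthPendingDepth 3

namespace Vale.Agent.P210.R2.H265

section
variable {E F : Type*} [NormedAddCommGroup E] [NormedSpace ℝ E]
  [NormedAddCommGroup F] [NormedSpace ℝ F]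

/-- integration of a little-o bound of the derivative along a curve -/
lemma isLittleO_sq_of_deriv {g g' : ℝ → F} (hg : ∀ᶠ t in 𝓝 (0 : ℝ), HasDerivAt g (g' t) t)
    (h0 : g 0 = 0) (h : g' =o[𝓝 0] fun t : ℝ => t) : g =o[𝓝 0] fun t : ℝ => t ^ 2 := by
  rw [isLittleO_iff]
  intro η hη
  have h1 := (isLittleO_iff.1 h) hη
  obtain ⟨δ, hδ, hb⟩ := Metric.eventually_nhds_iff.1 (hg.and h1)
  refine Metric.eventually_nhds_iff.2 ⟨δ, hδ, fun t ht => ?_⟩
  have ht' : |t| < δ := by simpa using ht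
  have hcv : Convex ℝ (Icc (-|t|) |t|) := convex_Icc _ _
  have hmem : ∀ s ∈ Icc (-|t|) |t|, dist s 0 < δ := by
    intro s hs
    have : |s| ≤ |t| := abs_le.2 hs
    simpa using this.trans_lt ht'
  have := hcv.norm_image_sub_le_of_norm_hasDerivWithin_le (f := g) (f' := g') (C := η * |t|)
    (fun s hs => (hb (hmem s hs)).1.hasDerivWithinAt)
    (fun s hs => by
      have h2 := (hb (hmem s hs)).2
      have h3 : |s| ≤ |t| := abs_le.2 hs
      calc ‖g' s‖ ≤ η * ‖s‖ := h2
        _ ≤ η * |t| := by rw [Real.norm_eq_abs]; gcongr) (x := 0) (y := t)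
    ⟨by simp, by simp⟩ ⟨neg_abs_le t, le_abs_self t⟩
  simp only [h0, sub_zero] at this
  calc ‖g t‖ ≤ η * |t| * ‖t‖ := this
    _ = η * ‖t ^ 2‖ := by
        rw [Real.norm_eq_abs, Real.norm_eq_abs, abs_pow, sq]; ring

/-- second order Taylor expansion at a point -/
lemma taylor2 {f : E → F} {z : E} (hf : ContDiffAt ℝ 2 f z) :
    (fun h : E => f (z + h) - f z - fderiv ℝ f z h
      - (1 / 2 : ℝ) • fderiv ℝ (fderiv ℝ f) z h h) =o[𝓝 0] fun h : E => ‖h‖ ^ 2 := by
  have hsym : IsSymmSndFDerivAt ℝ f z := hf.isSymmSndFDerivAt (by simp)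
  have hd : DifferentiableAt ℝ (fderiv ℝ f) z :=
    (hf.fderiv_right (m := 1) (by norm_num)).differentiableAt (by simp)
  have hev : ∀ᶠ y in 𝓝 z, DifferentiableAt ℝ f y :=
    (hf.eventually (by simp)).mono fun y hy => hy.differentiableAt (by simp)
  have h1 := hd.hasFDerivAt.isLittleO
  rw [isLittleO_iff]
  intro η hη
  have h2 := (isLittleO_iff.1 h1) hη
  obtain ⟨δ, hδ, hb⟩ := Metric.eventually_nhds_iff.1 (hev.and h2)
  refine Metric.eventually_nhds_iff.2 ⟨δ, hδ, fun h hh => ?_⟩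
  have hh' : ‖h‖ < δ := by simpa using hh
  have hconv : Convex ℝ (closedBall (0 : E) ‖h‖) := convex_closedBall _ _
  have hder : ∀ k ∈ closedBall (0 : E) ‖h‖, HasFDerivWithinAt
      (fun k => f (z + k) - f z - fderiv ℝ f z k - (1 / 2 : ℝ) • fderiv ℝ (fderiv ℝ f) z k k)
      (fderiv ℝ f (z + k) - fderiv ℝ f z - fderiv ℝ (fderiv ℝ f) z k)
      (closedBall (0 : E) ‖h‖) k := by
    intro k hk
    have hkn : ‖k‖ ≤ ‖h‖ := by simpa using hk
    have h3 : DifferentiableAt ℝ f (z + k) := (hb (by simpa using hkn.trans_lt hh')).1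
    have h4 : HasFDerivAt (fun k => f (z + k)) (fderiv ℝ f (z + k)) k := by
      have := h3.hasFDerivAt.comp k ((hasFDerivAt_id k).const_add z)
      rwa [ContinuousLinearMap.comp_id] at this
    have h5 : HasFDerivAt (fun k => (1 / 2 : ℝ) • fderiv ℝ (fderiv ℝ f) z k k)
        (fderiv ℝ (fderiv ℝ f) z k) k := by
      have := ((fderiv ℝ (fderiv ℝ f) z).hasFDerivAt (x := k)).clm_apply (hasFDerivAt_id k)
      have h6 := this.const_smul (1 / 2 : ℝ)
      convert! h6 using 1
      ext l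
      simp only [ContinuousLinearMap.comp_id, id, smul_apply, add_apply,
        ContinuousLinearMap.flip_apply]
      rw [hsym.eq l k, ← two_smul ℝ (fderiv ℝ (fderiv ℝ f) z k l), smul_smul]
      norm_num
    exact (((h4.sub_const _).sub (fderiv ℝ f z).hasFDerivAt).sub h5).hasFDerivWithinAt
  have := hconv.norm_image_sub_le_of_norm_hasFDerivWithin_le hder (C := η * ‖h‖) (fun k hk => by
    have hkn : ‖k‖ ≤ ‖h‖ := by simpa using hk
    have h3 := (hb (y := z + k) (by simpa using hkn.trans_lt hh')).2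
    have e1 : z + k - z = k := by abel
    rw [e1] at h3
    exact h3.trans (by gcongr)) (x := 0) (y := h) (by simp) (by simp)
  simp only [add_zero, map_zero, smul_zero, sub_zero, sub_self] at this
  calc _ ≤ η * ‖h‖ * ‖h‖ := this
    _ = η * ‖‖h‖ ^ 2‖ := by rw [norm_pow, norm_norm]; ring

end

/-- a positive definite form is bounded below -/
lemma exists_lower {E : Type*} [NormedAddCommGroup E] [NormedSpace ℝ E] [FiniteDimensional ℝ E]
    (B : E →L[ℝ] E →L[ℝ] ℝ) (hpos : ∀ v, v ≠ 0 → 0 < B v v) :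
    ∃ m > 0, ∀ v, m * ‖v‖ ^ 2 ≤ B v v := by
  have : ProperSpace E := FiniteDimensional.proper ℝ E
  rcases subsingleton_or_nontrivial E with hs | hn
  · exact ⟨1, one_pos, fun v => by simp [Subsingleton.elim v 0]⟩
  · have hc : IsCompact (sphere (0 : E) 1) := isCompact_sphere _ _
    obtain ⟨v₀, hv₀, hmin⟩ := hc.exists_isMinOn (f := fun v => B v v)
      (NormedSpace.sphere_nonempty.2 zero_le_one) (by fun_prop)
    have hv₀n : ‖v₀‖ = 1 := by simpa using hv₀
    have hv₀0 : v₀ ≠ 0 := by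
      intro h
      rw [h, norm_zero] at hv₀n
      exact zero_ne_one hv₀n
    refine ⟨B v₀ v₀, hpos v₀ hv₀0, fun v => ?_⟩
    by_cases hv : v = 0
    · simp [hv]
    · have hvn : 0 < ‖v‖ := norm_pos_iff.2 hv
      have h1 : ‖v‖⁻¹ • v ∈ sphere (0 : E) 1 := by
        simp [norm_smul, inv_mul_cancel₀ hvn.ne']
      have h2 := hmin h1
      simp only [map_smul, smul_apply, smul_eq_mul, mem_ofPred_eq] at h2
      have h3 : B v v = ‖v‖ ^ 2 * (‖v‖⁻¹ * (‖v‖⁻¹ * B v v)) := by
        field_simp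
      rw [h3, mul_comm]
      gcongr

end Vale.Agent.P210.R2.H265
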