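import Vale.Agent.P210.R2.H53.SpecR
import Vale.Agent.P210.R2.H265.Inv
import Vale.Agent.P210.R2.H265.Tay

open scoped Manifold ContDiff Topology Bundle
open Set Metric Filter Bundle IsManifold MeasureTheory Manifold Asymptotics

set_option maxSynthPendingDepth 3

noncomputable section

namespace Vale.Agent.P210.R2.H265

open H53

variable {E : Type} [NormedAddCommGroup E] [NormedSpace ℝ E] [FiniteDimensional ℝ E]
  {M : Type} [MetricSpace M] [ChartedSpace E M]
  [RiemannianBundle (fun x : M => TangentSpace 𝓘(ℝ, E) x)]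
  [IsManifold 𝓘(ℝ, E) ∞ M]
  [IsContMDiffRiemannianBundle 𝓘(ℝ, E) ∞ E (fun x : M => TangentSpace 𝓘(ℝ, E) x)]

/-- Christoffel symbols under a change of charts -/
theorem chris_change {e e' : OpenPartialHomeomorph M E}
    (he : e ∈ maximalAtlas 𝓘(ℝ, E) ∞ M) (he' : e' ∈ maximalAtlas 𝓘(ℝ, E) ∞ M) {z : E}
    (hz : z ∈ e.target) (hz' : e.symm z ∈ e'.source) (u v : E) :
    fderiv ℝ (e' ∘ e.symm) z (chris (chartG e) z u v) =
      fderiv ℝ (fderiv ℝ (e' ∘ e.symm)) z u v +
        chris (chartG e') (e' (e.symm z)) (fderiv ℝ (e' ∘ e.symm) z u)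
          (fderiv ℝ (e' ∘ e.symm) z v) := by
  have hzV : z ∈ (e.symm ≫ₕ e').source := by simp [hz, hz']
  have hV : IsOpen (e.symm ≫ₕ e').source := (e.symm ≫ₕ e').open_source
  have hτ : ContDiffAt ℝ ∞ (e' ∘ e.symm) z :=
    (transition_real he he').contDiffAt (hV.mem_nhds hzV)
  have hτz : (e' ∘ e.symm) z ∈ e'.target := e'.map_source hz'
  have hG : ContDiffAt ℝ ∞ (chartG e') ((e' ∘ e.symm) z) :=
    (contDiffOn_chartG he').contDiffAt (e'.open_target.mem_nhds hτz)
  have hG' : ContDiffAt ℝ ∞ (chartG e) z :=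
    (contDiffOn_chartG he).contDiffAt (e.open_target.mem_nhds hz)
  have hbij : Function.Bijective (fderiv ℝ (e' ∘ e.symm) z) := by
    have hinj : Function.Injective (fderiv ℝ (e' ∘ e.symm) z : E →ₗ[ℝ] E) := by
      rw [injective_iff_map_eq_zero]
      intro w hw
      by_contra hne
      have h1 := chartG_pos he hz w hne
      have h2 := chartG_change he he' (x := e.symm z) (e.map_target hz) hz' w w
      rw [e.right_inv hz] at h2
      have h3 : fderiv ℝ (e' ∘ e.symm) z w = 0 := hw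
      rw [h3] at h2
      simp only [map_zero] at h2
      linarith
    exact ⟨hinj, (LinearMap.injective_iff_surjective.1 hinj)⟩
  exact (inv_main (chartG e') (chartG e) (e' ∘ e.symm) z
    (fun u v => chris (chartG e') ((e' ∘ e.symm) z) u v) (fun u v => chris (chartG e) z u v)
    hτ hG hG' (Eventually.of_forall fun y v w => chartG_symm e' y v w)
    (fun v hv => chartG_pos he' hτz v hv) hbij
    (by
      filter_upwards [hV.mem_nhds hzV] with y hy v w
      have hy1 : y ∈ e.target := by simpa using hy.1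
      have hy2 : e.symm y ∈ e'.source := by simpa using hy.2
      have h2 := chartG_change he he' (x := e.symm y) (e.map_target hy1) hy2 v w
      rw [e.right_inv hy1] at h2
      exact h2.symm)
    (fun u v w => chris_spec_of_pos (fun v hv => chartG_pos he hz v hv) u v w)
    (fun u v w => chris_spec_of_pos (fun v hv => chartG_pos he' hτz v hv) u v w)).1 u v

omit [FiniteDimensional ℝ E] [IsManifold 𝓘(ℝ, E) ∞ M]
  [IsContMDiffRiemannianBundle 𝓘(ℝ, E) ∞ E (fun x : M => TangentSpace 𝓘(ℝ, E) x)] in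
theorem isJet_source {e : OpenPartialHomeomorph M E} {z v : E} {p : ℝ → M}
    (h : IsJet e z v p) (hz : z ∈ e.target) : ∀ᶠ r in 𝓝 (0 : ℝ), p r ∈ e.source := by
  have h1 : p 0 ∈ e.source := by rw [h.2.1]; exact e.map_target hz
  exact h.1.eventually (e.open_source.mem_nhds h1)

omit [FiniteDimensional ℝ E] [IsManifold 𝓘(ℝ, E) ∞ M]
  [IsContMDiffRiemannianBundle 𝓘(ℝ, E) ∞ E (fun x : M => TangentSpace 𝓘(ℝ, E) x)] in
theorem isJet_tendsto {e : OpenPartialHomeomorph M E} {z v : E} {p : ℝ → M}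
    (h : IsJet e z v p) (hz : z ∈ e.target) : Tendsto (fun r => e (p r)) (𝓝 0) (𝓝 z) := by
  have h1 : p 0 ∈ e.source := by rw [h.2.1]; exact e.map_target hz
  have h2 : ContinuousAt e (p 0) := e.continuousAt h1
  have h3 : Tendsto (fun r => e (p r)) (𝓝 0) (𝓝 (e (p 0))) := h2.comp h.1
  rwa [h.2.1, e.right_inv hz] at h3

omit [FiniteDimensional ℝ E] [IsManifold 𝓘(ℝ, E) ∞ M]
  [IsContMDiffRiemannianBundle 𝓘(ℝ, E) ∞ E (fun x : M => TangentSpace 𝓘(ℝ, E) x)] in
theorem isJet_bigO {e : OpenPartialHomeomorph M E} {z v : E} {p : ℝ → M}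
    (h : IsJet e z v p) : (fun r => e (p r) - z) =O[𝓝 0] fun r : ℝ => r := by
  have h1 : (fun r : ℝ => r ^ 2) =O[𝓝 0] fun r : ℝ => r := by
    have : (fun r : ℝ => r ^ 2) =o[𝓝 0] fun r : ℝ => r ^ 1 := isLittleO_pow_pow one_lt_two
    simpa using this.isBigO
  have h2 : (fun r : ℝ => r • v) =O[𝓝 0] fun r : ℝ => r := by
    refine isBigO_of_le' (c := ‖v‖) _ fun r => ?_
    rw [norm_smul, mul_comm]
  have h3 : (fun r : ℝ => (r ^ 2 / 2) • chris (chartG e) z v v) =O[𝓝 0] fun r : ℝ => r := by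
    refine IsBigO.trans ?_ h1
    refine isBigO_of_le' (c := ‖chris (chartG e) z v v‖) _ fun r => ?_
    rw [norm_smul, mul_comm]
    gcongr
    rw [norm_div]
    exact div_le_self (norm_nonneg _) (by norm_num)
  have h4 := ((h.2.2.isBigO.trans h1).add h2).sub h3
  refine h4.congr_left fun r => ?_
  abel

theorem jet1 {e e' : OpenPartialHomeomorph M E}
    (he : e ∈ maximalAtlas 𝓘(ℝ, E) ∞ M) (he' : e' ∈ maximalAtlas 𝓘(ℝ, E) ∞ M) {z : E}
    (hz : z ∈ e.target) (hz' : e.symm z ∈ e'.source) {v : E} {p : ℝ → M}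
    (h : IsJet e z v p) :
    IsJet e' (e' (e.symm z)) (fderiv ℝ (e' ∘ e.symm) z v) p := by
  refine ⟨h.1, by rw [h.2.1, e'.left_inv hz'], ?_⟩
  have hzV : z ∈ (e.symm ≫ₕ e').source := by simp [hz, hz']
  have hV : IsOpen (e.symm ≫ₕ e').source := (e.symm ≫ₕ e').open_source
  have hτ : ContDiffAt ℝ ∞ (e' ∘ e.symm) z :=
    (transition_real he he').contDiffAt (hV.mem_nhds hzV)
  set τ := e' ∘ e.symm with hτd
  have hT := taylor2 (hτ.of_le two_le_inf)
  -- the displacement
  set H : ℝ → E := fun r => e (p r) - z with hH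
  have hH0 : Tendsto H (𝓝 0) (𝓝 0) := by
    have := (isJet_tendsto h hz).sub_const z
    simpa using this
  have hHO : H =O[𝓝 0] fun r : ℝ => r := isJet_bigO h
  have hHO2 : (fun r => ‖H r‖ ^ 2) =O[𝓝 0] fun r : ℝ => r ^ 2 := hHO.norm_left.pow 2
  have t1 := (hT.comp_tendsto hH0).trans_isBigO hHO2
  -- remainder
  set R : ℝ → E := fun r => e (p r) - (z + r • v - (r ^ 2 / 2) • chris (chartG e) z v v) with hR
  have hRo : R =o[𝓝 0] fun r : ℝ => r ^ 2 := h.2.2
  have hHR : ∀ r, H r = r • v - (r ^ 2 / 2) • chris (chartG e) z v v + R r := by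
    intro r; simp only [hH, hR]; abel
  have t2 : (fun r => fderiv ℝ τ z (R r)) =o[𝓝 0] fun r : ℝ => r ^ 2 :=
    ((fderiv ℝ τ z).isBigO_comp R (𝓝 0)).trans_isLittleO hRo
  -- quadratic term
  have hHv : (fun r => H r - r • v) =o[𝓝 0] fun r : ℝ => r := by
    have a1 : (fun r : ℝ => r ^ 2) =o[𝓝 0] fun r : ℝ => r := by
      have : (fun r : ℝ => r ^ 2) =o[𝓝 0] fun r : ℝ => r ^ 1 := isLittleO_pow_pow one_lt_two
      simpa using this
    have a2 : (fun r : ℝ => (r ^ 2 / 2) • chris (chartG e) z v v) =O[𝓝 0] fun r : ℝ => r ^ 2 := by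
      refine isBigO_of_le' (c := ‖chris (chartG e) z v v‖) _ fun r => ?_
      rw [norm_smul, mul_comm]
      gcongr
      rw [norm_div]
      exact div_le_self (norm_nonneg _) (by norm_num)
    have a3 := (hRo.trans a1).sub (a2.trans_isLittleO a1)
    refine a3.congr_left fun r => ?_
    rw [hHR]; abel
  have hvO : (fun r : ℝ => r • v) =O[𝓝 0] fun r : ℝ => r := by
    refine isBigO_of_le' (c := ‖v‖) _ fun r => ?_
    rw [norm_smul, mul_comm]
  have t3 : (fun r => fderiv ℝ (fderiv ℝ τ) z (H r) (H r)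
      - fderiv ℝ (fderiv ℝ τ) z (r • v) (r • v)) =o[𝓝 0] fun r : ℝ => r ^ 2 := by
    set Q := fderiv ℝ (fderiv ℝ τ) z
    have b : ∀ {f g : ℝ → E}, f =o[𝓝 0] (fun r : ℝ => r) → g =O[𝓝 0] (fun r : ℝ => r) →
        (fun r => Q (f r) (g r)) =o[𝓝 0] (fun r : ℝ => r ^ 2) ∧
        (fun r => Q (g r) (f r)) =o[𝓝 0] (fun r : ℝ => r ^ 2) := by
      intro f g hf hg
      have c1 : (fun r => ‖Q‖ * ‖f r‖ * ‖g r‖) =o[𝓝 0] fun r : ℝ => r ^ 2 := by
        have := (hf.norm_left.const_mul_left ‖Q‖).mul_isBigO hg.norm_left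
        refine this.congr_right fun r => ?_
        rw [sq]
      have c2 : (fun r => ‖Q‖ * ‖g r‖ * ‖f r‖) =o[𝓝 0] fun r : ℝ => r ^ 2 := by
        refine c1.congr_left fun r => ?_
        ring
      constructor
      · refine IsBigO.trans_isLittleO (isBigO_of_le _ fun r => ?_) c1
        exact (Q.le_opNorm₂ _ _).trans (le_abs_self _)
      · refine IsBigO.trans_isLittleO (isBigO_of_le _ fun r => ?_) c2
        exact (Q.le_opNorm₂ _ _).trans (le_abs_self _)
    have c1 := (b hHv hHO).1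
    have c2 := (b hHv hvO).2
    refine (c1.add c2).congr_left fun r => ?_
    simp only [map_sub, sub_apply]
    abel
  have t4 := (t1.add t2).add (t3.const_smul_left (1 / 2 : ℝ))
  have hev : ∀ᶠ r in 𝓝 (0 : ℝ), e' (p r) = τ (z + H r) := by
    filter_upwards [isJet_source h hz] with r hr
    simp only [hH, hτd, Function.comp_apply, add_sub_cancel]
    rw [e.left_inv hr]
  refine t4.congr' ?_ EventuallyEq.rfl
  filter_upwards [hev] with r hr
  have hc := chris_change he he' hz hz' v v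
  rw [← hτd] at hc
  have hτz : e' (e.symm z) = τ z := rfl
  rw [hr, hτz]
  simp only [Function.comp_apply, Pi.smul_apply]
  rw [hHR r]
  simp only [map_add, map_sub, map_smul, add_apply, sub_apply, smul_apply]
  rw [hτz] at hc
  rw [hc]
  module

/-- first order comparison of the distance with the metric of a chart -/
theorem jet3 [IsRiemannianManifold 𝓘(ℝ, E) M] {e : OpenPartialHomeomorph M E}
    (he : e ∈ maximalAtlas 𝓘(ℝ, E) ∞ M) {z : E} (hz : z ∈ e.target) {ε : ℝ} (hε : 0 < ε) :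
    ∀ᶠ y in 𝓝 (z, z), dist (e.symm y.1) (e.symm y.2) ≤
      (1 + ε) * √(chartG e z (y.1 - y.2) (y.1 - y.2)) := by
  obtain ⟨m, hm, hlow⟩ := exists_lower (chartG e z) (fun v hv => chartG_pos he hz v hv)
  have hcont : ContinuousAt (chartG e) z :=
    (contDiffOn_chartG he).continuousOn.continuousAt (e.open_target.mem_nhds hz)
  have hη : 0 < m * ε := by positivity
  obtain ⟨δ, hδ, hb⟩ := Metric.eventually_nhds_iff.1
    ((Metric.continuousAt_iff'.1 hcont (m * ε) hη).and (e.open_target.mem_nhds hz))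
  have hnear : ∀ x, dist x z < δ → ∀ v, chartG e x v v ≤ (1 + ε) ^ 2 * chartG e z v v := by
    intro x hx v
    have h1 := (hb hx).1
    rw [dist_eq_norm] at h1
    have h2 : chartG e x v v - chartG e z v v ≤ m * ε * ‖v‖ ^ 2 := by
      have : chartG e x v v - chartG e z v v = (chartG e x - chartG e z) v v := rfl
      rw [this]
      calc _ ≤ ‖(chartG e x - chartG e z) v v‖ := Real.le_norm_self _
        _ ≤ ‖chartG e x - chartG e z‖ * ‖v‖ * ‖v‖ := ContinuousLinearMap.le_opNorm₂ _ _ _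
        _ ≤ m * ε * ‖v‖ * ‖v‖ := by gcongr
        _ = _ := by ring
    have h3 : m * ε * ‖v‖ ^ 2 ≤ ε * chartG e z v v := by
      have := mul_le_mul_of_nonneg_left (hlow v) hε.le
      linarith
    have h4 : 0 ≤ chartG e z v v := (by positivity : (0:ℝ) ≤ m * ‖v‖ ^ 2).trans (hlow v)
    nlinarith [mul_nonneg (sq_nonneg ε) h4, mul_nonneg hε.le h4]
  have hball : ball z δ ×ˢ ball z δ ∈ 𝓝 (z, z) :=
    prod_mem_nhds (ball_mem_nhds z hδ) (ball_mem_nhds z hδ)
  filter_upwards [hball] with y hy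
  set c : ℝ → E := fun t => y.1 + t • (y.2 - y.1) with hc
  have hcd : ∀ t ∈ Icc (0:ℝ) 1, HasDerivWithinAt c (y.2 - y.1) (Icc 0 1) t := by
    intro t _
    have := (((hasDerivAt_id t).smul_const (y.2 - y.1)).const_add y.1).hasDerivWithinAt
      (s := Icc 0 1)
    simpa [hc] using this
  have hcball : ∀ t ∈ Icc (0:ℝ) 1, c t ∈ ball z δ := by
    intro t ht
    have hcv := (convex_ball z δ) hy.1 hy.2 (a := 1 - t) (b := t) (by linarith [ht.2]) ht.1
      (by ring)
    convert hcv using 1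
    simp only [hc]
    module
  have h1 := dist_le_chart he zero_le_one hcd continuousOn_const
    (fun t ht => (hb (mem_ball.1 (hcball t ht))).2)
  have h2 : ∫ t in (0:ℝ)..1, √(chartG e (c t) (y.2 - y.1) (y.2 - y.1)) ≤
      (1 + ε) * √(chartG e z (y.1 - y.2) (y.1 - y.2)) := by
    have hcc : ContinuousOn c (Icc 0 1) := fun t ht => (hcd t ht).continuousWithinAt
    have hGc : ContinuousOn (fun t => chartG e (c t)) (Icc 0 1) :=
      (contDiffOn_chartG he).continuousOn.comp hcc
        (fun t ht => (hb (mem_ball.1 (hcball t ht))).2)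
    have hint : IntervalIntegrable (fun t => √(chartG e (c t) (y.2 - y.1) (y.2 - y.1)))
        volume 0 1 := by
      refine ContinuousOn.intervalIntegrable_of_Icc zero_le_one ?_
      exact ((hGc.clm_apply continuousOn_const).clm_apply continuousOn_const).sqrt
    have h3 := intervalIntegral.integral_mono_on zero_le_one hint
      (_root_.intervalIntegrable_const (c := (1 + ε) * √(chartG e z (y.1 - y.2) (y.1 - y.2))))
      (fun t ht => by
        have h4 := hnear (c t) (mem_ball.1 (hcball t ht)) (y.2 - y.1)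
        have h5 : chartG e z (y.2 - y.1) (y.2 - y.1) = chartG e z (y.1 - y.2) (y.1 - y.2) := by
          have e1 : y.2 - y.1 = -(y.1 - y.2) := by abel
          rw [e1, map_neg, map_neg, neg_apply, neg_neg]
        rw [h5] at h4
        calc √(chartG e (c t) (y.2 - y.1) (y.2 - y.1))
            ≤ √((1 + ε) ^ 2 * chartG e z (y.1 - y.2) (y.1 - y.2)) := Real.sqrt_le_sqrt h4
          _ = _ := by rw [Real.sqrt_mul (by positivity), Real.sqrt_sq (by positivity)])
    simpa using h3
  have e0 : c 0 = y.1 := by simp [hc]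
  have e1 : c 1 = y.2 := by simp [hc]
  rw [e0, e1] at h1
  exact h1.trans h2

theorem jet2 [IsRiemannianManifold 𝓘(ℝ, E) M] {e : OpenPartialHomeomorph M E}
    (he : e ∈ maximalAtlas 𝓘(ℝ, E) ∞ M) {z : E} (hz : z ∈ e.target) {v : E} {p p' : ℝ → M}
    (h : IsJet e z v p) (h' : IsJet e z v p') :
    (fun r : ℝ => dist (p r) (p' r)) =o[𝓝 0] fun r : ℝ => r ^ 2 := by
  have h3 := jet3 he hz one_pos
  have ht : Tendsto (fun r => (e (p r), e (p' r))) (𝓝 0) (𝓝 (z, z)) :=
    (isJet_tendsto h hz).prodMk_nhds (isJet_tendsto h' hz)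
  have hd : (fun r => e (p r) - e (p' r)) =o[𝓝 0] fun r : ℝ => r ^ 2 := by
    refine (h.2.2.sub h'.2.2).congr_left fun r => ?_
    abel
  have hbd : ∀ w, √(chartG e z w w) ≤ √‖chartG e z‖ * ‖w‖ := by
    intro w
    rw [← Real.sqrt_sq (norm_nonneg w), ← Real.sqrt_mul (norm_nonneg _)]
    apply Real.sqrt_le_sqrt
    calc chartG e z w w ≤ ‖chartG e z w w‖ := Real.le_norm_self _
      _ ≤ ‖chartG e z‖ * ‖w‖ * ‖w‖ := ContinuousLinearMap.le_opNorm₂ _ _ _
      _ = _ := by ring
  have hO : (fun r : ℝ => dist (p r) (p' r)) =O[𝓝 0] fun r => e (p r) - e (p' r) := by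
    refine IsBigO.of_bound ((1 + 1) * √‖chartG e z‖) ?_
    filter_upwards [ht.eventually h3, isJet_source h hz, isJet_source h' hz] with r h1 h2 h4
    rw [e.left_inv h2, e.left_inv h4] at h1
    rw [Real.norm_of_nonneg dist_nonneg]
    calc dist (p r) (p' r) ≤ _ := h1
      _ ≤ (1 + 1) * (√‖chartG e z‖ * ‖e (p r) - e (p' r)‖) := by
          gcongr
          exact hbd _
      _ = _ := by ring
  exact hO.trans_isLittleO hd

omit [FiniteDimensional ℝ E] [IsManifold 𝓘(ℝ, E) ∞ M]
  [IsContMDiffRiemannianBundle 𝓘(ℝ, E) ∞ E (fun x : M => TangentSpace 𝓘(ℝ, E) x)] in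
theorem jet4 {e : OpenPartialHomeomorph M E} {c c' : ℝ → E}
    (h : ∀ᶠ t in 𝓝 0, GeoAt e c c' t) : IsJet e (c 0) (c' 0) (fun r => e.symm (c r)) := by
  have h0 := h.self_of_nhds
  have hc0 : ContinuousAt c 0 := h0.1.continuousAt
  refine ⟨(e.continuousAt_symm h0.2.2.1).comp hc0, rfl, ?_⟩
  set g : ℝ → E := fun r => c r - (c 0 + r • c' 0 - (r ^ 2 / 2) •
    chris (chartG e) (c 0) (c' 0) (c' 0)) with hg
  have h1 : g =o[𝓝 0] fun r : ℝ => r ^ 2 := by
    refine isLittleO_sq_of_deriv (g' := fun t => c' t - (c' 0 - t •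
      chris (chartG e) (c 0) (c' 0) (c' 0))) ?_ (by simp [hg]) ?_
    · filter_upwards [h] with t ht
      have a1 : HasDerivAt (fun r : ℝ => r • c' 0) (c' 0) t := by
        simpa using (hasDerivAt_id t).smul_const (c' 0)
      have a2 : HasDerivAt (fun r : ℝ => (r ^ 2 / 2) • chris (chartG e) (c 0) (c' 0) (c' 0))
          (t • chris (chartG e) (c 0) (c' 0) (c' 0)) t := by
        have := ((hasDerivAt_pow 2 t).div_const 2).smul_const
          (chris (chartG e) (c 0) (c' 0) (c' 0))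
        simpa using this
      exact ht.1.sub ((a1.const_add (c 0)).sub a2)
    · have := h0.2.1.isLittleO
      simp only [sub_zero] at this
      refine this.congr_left fun t => ?_
      simp only [smul_neg]
      abel
  refine h1.congr' ?_ EventuallyEq.rfl
  filter_upwards [h] with t ht
  rw [e.right_inv ht.2.2.1]

theorem jet_holds : Stmt.JET := by
  intro E _ _ _ M _ _ _ _ _ _
  refine ⟨?_, ?_, ?_, ?_⟩
  · intro e he e' he' z hz hz' v p hp
    exact jet1 he he' hz hz' hp
  · intro e he z hz v p p' hp hp'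
    exact jet2 he hz hp hp'
  · intro e he z hz ε hε
    exact jet3 he hz hε
  · intro e he c c' h
    exact jet4 h

end Vale.Agent.P210.R2.H265
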