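import Vale.Agent.P210.R2.H204.Svi

/-!
# LAP, part A: second variation of the distance as a quadratic form
-/

open scoped Manifold ContDiff Topology Bundle
open Set Metric Filter Bundle IsManifold MeasureTheory Manifold Asymptotics

set_option maxSynthPendingDepth 3
set_option linter.all false

noncomputable section

namespace Vale.Agent.P210.R2.H265

open Vale.Agent.P210.R2.H53 Vale.Agent.P210.H204

section Alg

variable {E : Type*} [NormedAddCommGroup E] [NormedSpace ℝ E]

/-- polarised curvature numerator -/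
def secL (G : E → E →L[ℝ] E →L[ℝ] ℝ) (z b : E) : E →ₗ[ℝ] E →ₗ[ℝ] ℝ :=
  LinearMap.mk₂ ℝ (fun a a' => -(fderiv ℝ (fderiv ℝ G) z a a' b b +
      fderiv ℝ (fderiv ℝ G) z b b a a' - 2 * fderiv ℝ (fderiv ℝ G) z b a a' b) / 2
    + G z (chris G z a b) (chris G z a' b) - G z (chris G z a a') (chris G z b b))
    (by intro a a' c; simp only [map_add, _root_.add_apply]; ring)
    (by intro r a c; simp only [map_smul, _root_.smul_apply, smul_eq_mul]; ring)
    (by intro a c c'; simp only [map_add, _root_.add_apply]; ring)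
    (by intro r a c; simp only [map_smul, _root_.smul_apply, smul_eq_mul]; ring)

theorem secL_apply (G : E → E →L[ℝ] E →L[ℝ] ℝ) (z b a a' : E) :
    secL G z b a a' = -(fderiv ℝ (fderiv ℝ G) z a a' b b +
      fderiv ℝ (fderiv ℝ G) z b b a a' - 2 * fderiv ℝ (fderiv ℝ G) z b a a' b) / 2
    + G z (chris G z a b) (chris G z a' b) - G z (chris G z a a') (chris G z b b) := rfl

theorem secL_self (G : E → E →L[ℝ] E →L[ℝ] ℝ) (z b a : E) : secL G z b a a = secG G z a b := rfl

theorem bilin_sum {n : ℕ} (B : E →ₗ[ℝ] E →ₗ[ℝ] ℝ) (Y : Fin n → E) (a : Fin n → ℝ) :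
    B (∑ i, a i • Y i) (∑ i, a i • Y i) = ∑ i, ∑ j, a i * a j * B (Y i) (Y j) := by
  simp only [map_sum, LinearMap.sum_apply, map_smul, LinearMap.smul_apply, smul_eq_mul]
  rw [Finset.sum_comm]
  refine Finset.sum_congr rfl fun i _ => ?_
  first
    | (rw [Finset.mul_sum]
       refine Finset.sum_congr rfl fun j _ => ?_
       ring)
    | (refine Finset.sum_congr rfl fun j _ => ?_
       ring)

end Alg

variable {E : Type} [NormedAddCommGroup E] [NormedSpace ℝ E] [FiniteDimensional ℝ E]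
  {M : Type} [MetricSpace M] [ChartedSpace E M]
  [RiemannianBundle (fun x : M => TangentSpace 𝓘(ℝ, E) x)]
  [IsManifold 𝓘(ℝ, E) ∞ M]
  [IsContMDiffRiemannianBundle 𝓘(ℝ, E) ∞ E (fun x : M => TangentSpace 𝓘(ℝ, E) x)]
  [IsRiemannianManifold 𝓘(ℝ, E) M]

variable (E) in
/-- There is an orthonormal frame at `c t` with a quadratic second order bound with trace at most
`S` and size at most `T`. -/
def Qr (q : M) (c : ℝ → M) (t x S T : ℝ) : Prop :=
  ∃ e ∈ maximalAtlas 𝓘(ℝ, E) ∞ M, c t ∈ e.source ∧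
    ∃ b : Module.Basis (Fin (Module.finrank ℝ E)) ℝ E, ON (chartG e (e (c t))) b ∧
      ∃ A : Fin (Module.finrank ℝ E) → Fin (Module.finrank ℝ E) → ℝ,
        (∀ a : Fin (Module.finrank ℝ E) → ℝ,
          SecUB q e (e (c t)) (x • ∑ i, a i • b i) (∑ i, ∑ j, a i * a j * A i j)) ∧
        ∑ i, A i i ≤ S ∧
        ∀ a : Fin (Module.finrank ℝ E) → ℝ, ∑ i, ∑ j, a i * a j * A i j ≤ T * ∑ i, a i ^ 2

/-- Change of charts for `Qr`. -/
theorem Qr.change (hJ : ∀ e ∈ maximalAtlas 𝓘(ℝ, E) ∞ M, ∀ e' ∈ maximalAtlas 𝓘(ℝ, E) ∞ M,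
      ∀ z ∈ e.target, e.symm z ∈ e'.source → ∀ (v : E) (p : ℝ → M), IsJet e z v p →
      IsJet e' (e' (e.symm z)) (fderiv ℝ (e' ∘ e.symm) z v) p)
    {q : M} {c : ℝ → M} {t x S T : ℝ} (h : Qr E q c t x S T) {e' : OpenPartialHomeomorph M E}
    (he' : e' ∈ maximalAtlas 𝓘(ℝ, E) ∞ M) (hx' : c t ∈ e'.source) :
    ∃ b : Module.Basis (Fin (Module.finrank ℝ E)) ℝ E, ON (chartG e' (e' (c t))) b ∧
      ∃ A : Fin (Module.finrank ℝ E) → Fin (Module.finrank ℝ E) → ℝ,
        (∀ a : Fin (Module.finrank ℝ E) → ℝ,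
          SecUB q e' (e' (c t)) (x • ∑ i, a i • b i) (∑ i, ∑ j, a i * a j * A i j)) ∧
        ∑ i, A i i ≤ S ∧
        ∀ a : Fin (Module.finrank ℝ E) → ℝ,
          ∑ i, ∑ j, a i * a j * A i j ≤ T * ∑ i, a i ^ 2 := by
  obtain ⟨e, he, hx, b, hb, A, hA, hS⟩ := h
  have hon : ON (chartG e' (e' (c t))) (fun i => fderiv ℝ (e' ∘ e.symm) (e (c t)) (b i)) := by
    intro i j
    rw [chartG_change he he' hx hx']
    exact hb i j
  obtain ⟨b', hb'⟩ := basis_of_on hon
  refine ⟨b', by rw [hb']; exact hon, A, fun a => ?_, hS⟩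
  have h1 := SecUB.change hJ he he' hx hx' (hA a)
  simp only [map_smul, map_sum] at h1
  rw [hb']
  exact h1

/-- Propagation of the quadratic second order bound along a geodesic. -/
theorem Qr.propagate (hJET : Stmt.JET) (hGEO : Stmt.GEO) (hSTEP : Stmt.STEP)
    {c : ℝ → M} {ℓ : ℝ} (hℓ : 0 < ℓ) (hc : MinGeo c 0 ℓ) {a b α β S T κ : ℝ} (ha : 0 ≤ a)
    (hab : a ≤ b) (hb : b ≤ ℓ) {g : ℝ → ℝ} (hg : ContinuousOn g (Icc a b))
    (H : ∀ t ∈ Ioo a b, ∀ e ∈ maximalAtlas 𝓘(ℝ, E) ∞ M, c t ∈ e.source → ∀ v : E,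
      HasDerivAt (fun s => e (c s)) v t → chartG e (e (c t)) v v = 1 →
      ∀ Y : Module.Basis (Fin (Module.finrank ℝ E)) ℝ E, ON (chartG e (e (c t))) Y →
        β ^ 2 * (Module.finrank ℝ E - 1) -
          (α + β * t) ^ 2 * ∑ i, secG (chartG e) (e (c t)) (Y i) v ≤ g t)
    (H2 : ∀ t ∈ Ioo a b, ∀ e ∈ maximalAtlas 𝓘(ℝ, E) ∞ M, c t ∈ e.source → ∀ v : E,
      HasDerivAt (fun s => e (c s)) v t → chartG e (e (c t)) v v = 1 → ∀ y : E,
        -(κ ^ 2 * chartG e (e (c t)) y y) ≤ secG (chartG e) (e (c t)) y v)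
    (h : Qr E (c 0) c a (α + β * a) S T) :
    Qr E (c 0) c b (α + β * b) (S + ∫ t in a..b, g t)
      (T + ∫ t in a..b, (β ^ 2 + (α + β * t) ^ 2 * κ ^ 2)) := by
  have hJ := (hJET E M).1
  have hG2 := (hGEO E M).2.1
  have hgi : ∀ s ∈ Icc a b, ∀ s' ∈ Icc a b, IntervalIntegrable g volume s s' := fun s hs s' hs' =>
    (hg.mono (uIcc_subset_Icc hs hs')).intervalIntegrable
  have hTi : ∀ s s' : ℝ, IntervalIntegrable
      (fun t : ℝ => β ^ 2 + (α + β * t) ^ 2 * κ ^ 2) volume s s' := fun s s' =>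
    (by fun_prop : Continuous fun t : ℝ => β ^ 2 + (α + β * t) ^ 2 * κ ^ 2).intervalIntegrable _ _
  refine interval_propagate (P := fun t => Qr E (c 0) c t (α + β * t) (S + ∫ r in a..t, g r)
    (T + ∫ r in a..t, (β ^ 2 + (α + β * r) ^ 2 * κ ^ 2))) hab ?_ (by simpa using h)
  intro t ht
  have htℓ : t ∈ Icc 0 ℓ := ⟨ha.trans ht.1, ht.2.trans hb⟩
  obtain ⟨δ, hδ, w, w', hgeo, hcw⟩ := hG2 c 0 ℓ t hℓ hc htℓ (chartAt E (c t))
    (chart_mem_maximalAtlas (c t)) (mem_chart_source E (c t))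
  set e := chartAt E (c t) with he
  have hem : e ∈ maximalAtlas 𝓘(ℝ, E) ∞ M := chart_mem_maximalAtlas (c t)
  refine ⟨δ, hδ, fun s hs s' hs' hst hs't hss hP => ?_⟩
  rcases hss.eq_or_lt with heq | hlt
  · rw [← heq]; exact hP
  have hsℓ : ∀ r ∈ Icc s s', r ∈ Icc 0 ℓ ∧ |r - t| < δ ∧ r ∈ Icc a b := by
    intro r hr
    refine ⟨⟨(ha.trans hs.1).trans hr.1, (hr.2.trans hs'.2).trans hb⟩, ?_,
      ⟨hs.1.trans hr.1, hr.2.trans hs'.2⟩⟩
    rw [abs_lt] at hst hs't ⊢
    exact ⟨by linarith [hr.1, hst.1], by linarith [hr.2, hs't.2]⟩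
  have hmem : s ∈ Icc s s' := ⟨le_rfl, hss⟩
  have hmem' : s' ∈ Icc s s' := ⟨hss, le_rfl⟩
  have hsrc : ∀ r ∈ Icc s s', c r ∈ e.source ∧ e (c r) = w r := fun r hr =>
    hcw r (hsℓ r hr).1 (hsℓ r hr).2.1
  have hG : ∀ r ∈ Icc s s', GeoAt e w w' r := fun r hr => hgeo r (hsℓ r hr).2.1
  have hLR : LocalRiem (chartG e) e.target := localRiem_chartG hem
  have hwU : ∀ r ∈ Icc s s', w r ∈ e.target := fun r hr => (hG r hr).2.2.1
  have hwc : ContinuousOn w (Icc s s') := fun r hr =>
    (hG r hr).1.continuousAt.continuousWithinAt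
  have hw'c : ContinuousOn w' (Icc s s') := fun r hr =>
    (hG r hr).2.1.continuousAt.continuousWithinAt
  obtain ⟨b₀, hb₀, A, hA, hAS, hAT⟩ := Qr.change hJ hP hem (hsrc s hmem).1
  rw [(hsrc s hmem).2] at hb₀ hA
  obtain ⟨Y, hYs, hYd, hYon⟩ := exists_frame hLR hlt (fun r hr => (hG r hr).1) hw'c hwU b₀ hb₀
  set φ : ℝ → ℝ := fun r => α + β * r with hφ
  have hφd : ∀ r, HasDerivAt φ β r := by
    intro r
    have := ((hasDerivAt_id r).const_mul β).const_add α
    simpa [hφ] using this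
  have hYc : ∀ i, ContinuousOn (Y i) (Icc s s') := fun i r hr => (hYd i r hr).continuousWithinAt
  have hGc : ContinuousOn (fun r => chartG e (w r)) (Icc s s') :=
    hLR.smooth.continuousOn.comp hwc hwU
  have hΓc : ContinuousOn (fun r => chris (chartG e) (w r)) (Icc s s') :=
    hLR.contDiffOn_chris.continuousOn.comp hwc hwU
  have hφc : ContinuousOn φ (Icc s s') := fun r _ => (hφd r).continuousAt.continuousWithinAt
  -- linear combinations
  set Z : (Fin (Module.finrank ℝ E) → ℝ) → ℝ → E := fun a r => ∑ i, a i • Y i r with hZ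
  have hZc : ∀ a, ContinuousOn (Z a) (Icc s s') := fun a =>
    continuousOn_finset_sum _ fun i _ => (hYc i).const_smul (a i)
  have hZd : ∀ a, ∀ r ∈ Icc s s',
      HasDerivWithinAt (Z a) (-(chris (chartG e) (w r) (w' r) (Z a r))) (Icc s s') r := by
    intro a r hr
    have h1 : HasDerivWithinAt (fun r => ∑ i, a i • Y i r)
        (∑ i, a i • (-(chris (chartG e) (w r) (w' r) (Y i r)))) (Icc s s') r := by
      have := HasDerivWithinAt.fun_sum (u := Finset.univ) (A := fun i r => a i • Y i r)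
        (A' := fun i => a i • (-(chris (chartG e) (w r) (w' r) (Y i r)))) (s := Icc s s') (x := r)
        (fun i _ => (hYd i r hr).const_smul (a i))
      exact this
    convert h1 using 1
    simp only [hZ, map_sum, map_smul, smul_neg, Finset.sum_neg_distrib]
  set X : (Fin (Module.finrank ℝ E) → ℝ) → ℝ → E := fun a r => φ r • Z a r with hX
  set X' : (Fin (Module.finrank ℝ E) → ℝ) → ℝ → E := fun a r =>
    β • Z a r + φ r • (-(chris (chartG e) (w r) (w' r) (Z a r))) with hX'
  have hXd : ∀ a, ∀ r ∈ Icc s s', HasDerivWithinAt (X a) (X' a r) (Icc s s') r := by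
    intro a r hr
    have h1 := ((hφd r).hasDerivWithinAt (s := Icc s s')).smul (hZd a r hr)
    rw [hX']
    simp only
    rw [add_comm]
    exact h1
  have hX'c : ∀ a, ContinuousOn (X' a) (Icc s s') := by
    intro a
    exact (continuousOn_const.smul (hZc a)).add
      (hφc.smul ((hΓc.clm_apply hw'c).clm_apply (hZc a)).neg)
  have hcov : ∀ a, ∀ r, X' a r + chris (chartG e) (w r) (w' r) (X a r) = β • Z a r := by
    intro a r
    simp only [hX', hX, map_smul, smul_neg]
    abel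
  have hdist : dist (c 0) (e.symm (w s')) = dist (c 0) (e.symm (w s)) + (s' - s) := by
    rw [← (hsrc s' hmem').2, ← (hsrc s hmem).2, e.left_inv (hsrc s' hmem').1,
      e.left_inv (hsrc s hmem).1,
      hc 0 ⟨le_rfl, hℓ.le⟩ s' (hsℓ s' hmem').1, hc 0 ⟨le_rfl, hℓ.le⟩ s (hsℓ s hmem).1,
      zero_sub, zero_sub, abs_neg, abs_neg, abs_of_nonneg (hsℓ s' hmem').1.1,
      abs_of_nonneg (hsℓ s hmem).1.1]
    ring
  set Ψ : Fin (Module.finrank ℝ E) → Fin (Module.finrank ℝ E) → ℝ → ℝ := fun i j r =>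
    β ^ 2 * ((if i = j then 1 else 0) -
      chartG e (w r) (w' r) (Y i r) * chartG e (w r) (w' r) (Y j r)) -
      φ r ^ 2 * secL (chartG e) (w r) (w' r) (Y i r) (Y j r) with hΨ
  have hΨc : ∀ i j, ContinuousOn (Ψ i j) (Icc s s') := by
    intro i j
    have hsecc : ContinuousOn (fun r => secL (chartG e) (w r) (w' r) (Y i r) (Y j r))
        (Icc s s') := by
      have hd2 : ContinuousOn (fun r => fderiv ℝ (fderiv ℝ (chartG e)) (w r)) (Icc s s') :=
        ((hLR.contDiffOn_fderiv).fderiv_of_isOpen hLR.isOpen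
          (m := ∞) (by simp)).continuousOn.comp hwc hwU
      have hy := hYc i
      have hy' := hYc j
      simp only [secL_apply]
      refine ((((((hd2.clm_apply hy).clm_apply hy').clm_apply hw'c).clm_apply hw'c).add
        ((((hd2.clm_apply hw'c).clm_apply hw'c).clm_apply hy).clm_apply hy')).sub
        (continuousOn_const.mul
          ((((hd2.clm_apply hw'c).clm_apply hy).clm_apply hy').clm_apply hw'c))).neg.div_const 2
        |>.add ?_ |>.sub ?_
      · exact (hGc.clm_apply ((hΓc.clm_apply hy).clm_apply hw'c)).clm_apply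
          ((hΓc.clm_apply hy').clm_apply hw'c)
      · exact (hGc.clm_apply ((hΓc.clm_apply hy).clm_apply hy')).clm_apply
          ((hΓc.clm_apply hw'c).clm_apply hw'c)
    exact (continuousOn_const.mul (continuousOn_const.sub
      (((hGc.clm_apply hw'c).clm_apply (hYc i)).mul
        ((hGc.clm_apply hw'c).clm_apply (hYc j))))).sub ((hφc.pow 2).mul hsecc)
  have hΨi : ∀ i j, IntervalIntegrable (Ψ i j) volume s s' := fun i j =>
    ContinuousOn.intervalIntegrable (by rw [uIcc_of_le hss]; exact hΨc i j)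
  -- the integrand as a quadratic form
  have hquad : ∀ a : Fin (Module.finrank ℝ E) → ℝ, ∀ r ∈ Icc s s',
      chartG e (w r) (X' a r + chris (chartG e) (w r) (w' r) (X a r))
          (X' a r + chris (chartG e) (w r) (w' r) (X a r))
        - chartG e (w r) (w' r) (X' a r + chris (chartG e) (w r) (w' r) (X a r)) ^ 2
        - secG (chartG e) (w r) (X a r) (w' r) = ∑ i, ∑ j, a i * a j * Ψ i j r := by
    intro a r hr
    rw [hcov a r]
    have e1 : chartG e (w r) (Z a r) (Z a r) =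
        ∑ i, ∑ j, a i * a j * (if i = j then 1 else 0) := by
      simp only [hZ, map_sum, map_smul, _root_.sum_apply, _root_.smul_apply, smul_eq_mul]
      rw [Finset.sum_comm]
      refine Finset.sum_congr rfl fun i _ => ?_
      rw [Finset.mul_sum]
      refine Finset.sum_congr rfl fun j _ => ?_
      rw [hYon r hr j i]
      ring
    have e2 : chartG e (w r) (w' r) (Z a r) ^ 2 = ∑ i, ∑ j, a i * a j *
        (chartG e (w r) (w' r) (Y i r) * chartG e (w r) (w' r) (Y j r)) := by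
      simp only [hZ, map_sum, map_smul, smul_eq_mul]
      rw [sq, Finset.sum_mul_sum]
      refine Finset.sum_congr rfl fun i _ => Finset.sum_congr rfl fun j _ => ?_
      ring
    have e3 : secG (chartG e) (w r) (Z a r) (w' r) = ∑ i, ∑ j, a i * a j *
        secL (chartG e) (w r) (w' r) (Y i r) (Y j r) := by
      rw [← secL_self, hZ]
      exact bilin_sum _ _ _
    have e4 : secG (chartG e) (w r) (X a r) (w' r) =
        φ r ^ 2 * secG (chartG e) (w r) (Z a r) (w' r) := secG_smul_left _ _ _ _ _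
    rw [e4, e3]
    simp only [map_smul, _root_.smul_apply, smul_eq_mul]
    rw [show β * (β * chartG e (w r) (Z a r) (Z a r)) - (β * chartG e (w r) (w' r) (Z a r)) ^ 2 =
      β ^ 2 * chartG e (w r) (Z a r) (Z a r) - β ^ 2 * chartG e (w r) (w' r) (Z a r) ^ 2 by ring,
      e1, e2, Finset.mul_sum, Finset.mul_sum, Finset.mul_sum, ← Finset.sum_sub_distrib,
      ← Finset.sum_sub_distrib]
    refine Finset.sum_congr rfl fun i _ => ?_
    rw [Finset.mul_sum, Finset.mul_sum, Finset.mul_sum, ← Finset.sum_sub_distrib,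
      ← Finset.sum_sub_distrib]
    refine Finset.sum_congr rfl fun j _ => ?_
    simp only [hΨ]
    ring
  have hsumint : ∀ a : Fin (Module.finrank ℝ E) → ℝ,
      ∫ r in s..s', ∑ i, ∑ j, a i * a j * Ψ i j r =
        ∑ i, ∑ j, a i * a j * ∫ r in s..s', Ψ i j r := by
    intro a
    rw [intervalIntegral.integral_finset_sum (fun i _ => by
      have : IntervalIntegrable (∑ j, fun r => a i * a j * Ψ i j r) volume s s' :=
        IntervalIntegrable.sum _ (fun j _ => (hΨi i j).const_mul (a i * a j))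
      simpa [Finset.sum_fn] using this)]
    refine Finset.sum_congr rfl fun i _ => ?_
    rw [intervalIntegral.integral_finset_sum (fun j _ => (hΨi i j).const_mul (a i * a j))]
    refine Finset.sum_congr rfl fun j _ => ?_
    rw [intervalIntegral.integral_const_mul]
  have hstep : ∀ a : Fin (Module.finrank ℝ E) → ℝ,
      SecUB (c 0) e (w s') (X a s') (∑ i, ∑ j, a i * a j * (A i j + ∫ r in s..s', Ψ i j r)) := by
    intro a
    have h1 := (hSTEP E M e hem (c 0) w w' (X a) (X' a) s s' hlt hG (hXd a) (hX'c a) hdist).1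
      (∑ i, ∑ j, a i * a j * A i j) (by
        have : X a s = (α + β * s) • ∑ i, a i • b₀ i := by
          simp only [hX, hZ, hφ, hYs]
        rw [this]; exact hA a)
    have h2 : ∑ i, ∑ j, a i * a j * (A i j + ∫ r in s..s', Ψ i j r) =
        ∑ i, ∑ j, a i * a j * A i j + ∫ r in s..s', ∑ i, ∑ j, a i * a j * Ψ i j r := by
      rw [hsumint a, ← Finset.sum_add_distrib]
      refine Finset.sum_congr rfl fun i _ => ?_
      rw [← Finset.sum_add_distrib]
      refine Finset.sum_congr rfl fun j _ => ?_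
      ring
    rw [h2]
    convert h1 using 2
    apply intervalIntegral.integral_congr
    intro r hr
    rw [uIcc_of_le hss] at hr
    exact (hquad a r hr).symm
  have hder : ∀ r ∈ Ioo s s', HasDerivAt (fun s => e (c s)) (w' r) r := by
    intro r hr
    refine (hG r ⟨hr.1.le, hr.2.le⟩).1.congr_of_eventuallyEq ?_
    filter_upwards [Ioo_mem_nhds hr.1 hr.2] with y hy
    exact (hsrc y ⟨hy.1.le, hy.2.le⟩).2
  have hΨtr : ContinuousOn (fun r => ∑ i, Ψ i i r) (Icc s s') :=
    continuousOn_finset_sum _ (fun i _ => hΨc i i)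
  have hS' : ∑ i, (A i i + ∫ r in s..s', Ψ i i r) ≤ S + ∫ r in a..s', g r := by
    rw [Finset.sum_add_distrib, ← intervalIntegral.integral_finset_sum (fun i _ => hΨi i i)]
    have h1 : ∫ r in s..s', ∑ i, Ψ i i r ≤ ∫ r in s..s', g r := by
      apply intervalIntegral.integral_mono_on_of_le_Ioo hss
      · apply ContinuousOn.intervalIntegrable
        rw [uIcc_of_le hss]
        exact hΨtr
      · exact hgi s hs s' hs'
      intro r hr
      have hrI : r ∈ Icc s s' := ⟨hr.1.le, hr.2.le⟩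
      have hrab : r ∈ Ioo a b := ⟨hs.1.trans_lt hr.1, hr.2.trans_le hs'.2⟩
      obtain ⟨Yb, hYb⟩ := basis_of_on (hYon r hrI)
      have h2 := H r hrab e hem (hsrc r hrI).1 (w' r) (hder r hr)
        (by rw [(hsrc r hrI).2]; exact (hG r hrI).2.2.2) Yb
        (by rw [(hsrc r hrI).2, hYb]; exact hYon r hrI)
      rw [(hsrc r hrI).2, hYb] at h2
      refine le_trans (le_of_eq ?_) h2
      have h3 := parseval Yb (by rw [hYb]; exact hYon r hrI) (w' r)
      rw [hYb, (hG r hrI).2.2.2] at h3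
      simp only [hΨ, secL_self, if_true]
      rw [Finset.sum_sub_distrib, ← Finset.mul_sum, ← Finset.mul_sum, Finset.sum_sub_distrib]
      simp only [← sq]
      rw [h3]
      simp [hφ]
    have h4 : ∫ r in a..s', g r = (∫ r in a..s, g r) + ∫ r in s..s', g r :=
      (intervalIntegral.integral_add_adjacent_intervals
        (hgi a ⟨le_rfl, hab⟩ s hs) (hgi s hs s' hs')).symm
    rw [h4]
    linarith
  have hT' : ∀ a' : Fin (Module.finrank ℝ E) → ℝ,
      ∑ i, ∑ j, a' i * a' j * (A i j + ∫ r in s..s', Ψ i j r) ≤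
        (T + ∫ r in a..s', (β ^ 2 + (α + β * r) ^ 2 * κ ^ 2)) * ∑ i, a' i ^ 2 := by
    intro a'
    have h2 : ∑ i, ∑ j, a' i * a' j * (A i j + ∫ r in s..s', Ψ i j r) =
        ∑ i, ∑ j, a' i * a' j * A i j + ∫ r in s..s', ∑ i, ∑ j, a' i * a' j * Ψ i j r := by
      rw [hsumint a', ← Finset.sum_add_distrib]
      refine Finset.sum_congr rfl fun i _ => ?_
      rw [← Finset.sum_add_distrib]
      refine Finset.sum_congr rfl fun j _ => ?_
      ring
    have h1 : ∫ r in s..s', ∑ i, ∑ j, a' i * a' j * Ψ i j r ≤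
        ∫ r in s..s', (β ^ 2 + (α + β * r) ^ 2 * κ ^ 2) * ∑ i, a' i ^ 2 := by
      apply intervalIntegral.integral_mono_on_of_le_Ioo hss
      · apply ContinuousOn.intervalIntegrable
        rw [uIcc_of_le hss]
        exact continuousOn_finset_sum _ fun i _ => continuousOn_finset_sum _ fun j _ =>
          continuousOn_const.mul (hΨc i j)
      · exact (hTi s s').mul_const _
      intro r hr
      have hrI : r ∈ Icc s s' := ⟨hr.1.le, hr.2.le⟩
      have hrab : r ∈ Ioo a b := ⟨hs.1.trans_lt hr.1, hr.2.trans_le hs'.2⟩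
      rw [← hquad a' r hrI, hcov a' r]
      have h3 := H2 r hrab e hem (hsrc r hrI).1 (w' r) (hder r hr)
        (by rw [(hsrc r hrI).2]; exact (hG r hrI).2.2.2) (Z a' r)
      rw [(hsrc r hrI).2] at h3
      have h4 : secG (chartG e) (w r) (X a' r) (w' r) =
        φ r ^ 2 * secG (chartG e) (w r) (Z a' r) (w' r) := secG_smul_left _ _ _ _ _
      have h5 : chartG e (w r) (Z a' r) (Z a' r) = ∑ i, a' i ^ 2 := by
        simp only [hZ, map_sum, map_smul, _root_.sum_apply, _root_.smul_apply, smul_eq_mul]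
        refine Finset.sum_congr rfl fun i _ => ?_
        rw [Finset.sum_eq_single i]
        · rw [hYon r hrI i i, if_pos rfl]; ring
        · intro j _ hj
          rw [hYon r hrI j i, if_neg hj]; ring
        · simp
      rw [h4]
      rw [h5] at h3
      simp only [map_smul, _root_.smul_apply, smul_eq_mul]
      rw [h5]
      have h6 : 0 ≤ φ r ^ 2 := sq_nonneg _
      have h7 := mul_le_mul_of_nonneg_left h3 h6
      have h8 : 0 ≤ (β * chartG e (w r) (w' r) (Z a' r)) ^ 2 := sq_nonneg _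
      have h9 : φ r = α + β * r := rfl
      rw [← h9]
      nlinarith only [h7, h8]
    have h4 : ∫ r in a..s', (β ^ 2 + (α + β * r) ^ 2 * κ ^ 2) =
        (∫ r in a..s, (β ^ 2 + (α + β * r) ^ 2 * κ ^ 2)) +
          ∫ r in s..s', (β ^ 2 + (α + β * r) ^ 2 * κ ^ 2) :=
      (intervalIntegral.integral_add_adjacent_intervals (hTi a s) (hTi s s')).symm
    rw [intervalIntegral.integral_mul_const] at h1
    rw [h2, h4]
    have h5 := hAT a'
    nlinarith only [h1, h5]
  obtain ⟨Yb, hYb⟩ := basis_of_on (hYon s' hmem')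
  refine ⟨e, hem, (hsrc s' hmem').1, Yb, ?_, fun i j => A i j + ∫ r in s..s', Ψ i j r,
    fun a => ?_, hS', hT'⟩
  · rw [(hsrc s' hmem').2, hYb]; exact hYon s' hmem'
  · rw [(hsrc s' hmem').2, hYb]
    exact hstep a

/-- Start of the propagation: the zero field. -/
theorem Qr.start (hJET : Stmt.JET) (q : M) (c : ℝ → M) (t : ℝ) : Qr E q c t 0 0 0 := by
  obtain ⟨e, he, hx, b, hb, B, hB, hS⟩ := Fr.start (E := E) hJET q c t
  have hz : e (c t) ∈ e.target := e.map_source hx
  refine ⟨e, he, hx, b, hb, fun _ _ => 0, fun a => ?_, by simp, by simp⟩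
  rw [zero_smul]
  simp only [mul_zero, Finset.sum_const_zero]
  -- constant curve
  have hconst : IsJet e (e (c t)) 0 (fun _ : ℝ => c t) := by
    refine ⟨continuousAt_const, (e.left_inv hx).symm, ?_⟩
    simp
  intro p hp η hη
  have h1 := (hJET E M).2.1 e he (e (c t)) hz 0 p (fun _ => c t) hp hconst
  rw [e.left_inv hx]
  have h2 := h1.def (show (0:ℝ) < η / 2 by positivity)
  have h3 : ∀ᶠ r in 𝓝 (0:ℝ), ‖dist (p (-r)) (c t)‖ ≤ η / 2 * ‖(-r) ^ 2‖ := by
    have : Tendsto (fun r : ℝ => -r) (𝓝 0) (𝓝 0) := by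
      have := (continuous_neg (G := ℝ)).tendsto 0
      simpa using this
    exact this.eventually h2
  filter_upwards [nhdsWithin_le_nhds h2, nhdsWithin_le_nhds h3] with r hr hr'
  have e1 := dist_triangle q (c t) (p r)
  have e2 := dist_triangle q (c t) (p (-r))
  rw [Real.norm_of_nonneg dist_nonneg, Real.norm_of_nonneg (by positivity),
    dist_comm] at hr hr'
  rw [neg_sq] at hr'
  linarith

end Vale.Agent.P210.R2.H265
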