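import Vale.Agent.P210.R2.H265.LapA
import Vale.Agent.P210.R2.H265.Tay
import Vale.Agent.P210.R2.H973.Ricf

/-!
# LAP, part B: local lower bound of the sectional curvature, pointwise second order bounds
-/

open scoped Manifold ContDiff Topology Bundle
open Set Metric Filter Bundle IsManifold MeasureTheory Manifold Asymptotics

set_option maxSynthPendingDepth 3
set_option linter.all false

noncomputable section

namespace Vale.Agent.P210.R2.H265

open Vale.Agent.P210.R2.H53 Vale.Agent.P210.H204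

variable {E : Type} [NormedAddCommGroup E] [NormedSpace ℝ E] [FiniteDimensional ℝ E]

section Loc

variable {G : E → E →L[ℝ] E →L[ℝ] ℝ} {U : Set E}

/-- local lower bound of the metric -/
theorem exists_lower_loc (h : LocalRiem G U) {z₀ : E} (hz₀ : z₀ ∈ U) :
    ∃ m > 0, ∀ᶠ z in 𝓝 z₀, ∀ v, m * ‖v‖ ^ 2 ≤ G z v v := by
  obtain ⟨m, hm, hm'⟩ := exists_lower (G z₀) (h.pos z₀ hz₀)
  refine ⟨m / 2, by positivity, ?_⟩
  have hc : ContinuousAt G z₀ :=
    (h.smooth.contDiffAt (h.isOpen.mem_nhds hz₀)).continuousAt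
  have h1 : ∀ᶠ z in 𝓝 z₀, ‖G z - G z₀‖ < m / 2 := by
    have := (Metric.continuousAt_iff.1 hc (m / 2) (by positivity))
    obtain ⟨δ, hδ, h2⟩ := this
    filter_upwards [Metric.ball_mem_nhds z₀ hδ] with z hz
    rw [← dist_eq_norm]
    exact h2 hz
  filter_upwards [h1] with z hz v
  have h2 : |(G z - G z₀) v v| ≤ m / 2 * ‖v‖ * ‖v‖ := by
    refine ((G z - G z₀).le_opNorm₂ v v).trans ?_
    gcongr
  have h3 : (G z - G z₀) v v = G z v v - G z₀ v v := by simp
  rw [h3] at h2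
  have h4 := (abs_le.1 h2).1
  nlinarith [hm' v]

set_option synthInstance.maxHeartbeats 400000 in
/-- local lower bound of the curvature -/
theorem secG_lower_loc (h : LocalRiem G U) {z₀ : E} (hz₀ : z₀ ∈ U) :
    ∃ κ : ℝ, 0 ≤ κ ∧ ∀ᶠ z in 𝓝 z₀, ∀ a b, -(κ * (G z a a * G z b b)) ≤ secG G z a b := by
  obtain ⟨m, hm, hm'⟩ := exists_lower_loc h hz₀
  have hc1 : ContinuousAt (fun z => ‖fderiv ℝ (fderiv ℝ G) z‖) z₀ :=
    (((h.contDiffOn_fderiv.fderiv_of_isOpen h.isOpen (m := ∞) (by simp)).contDiffAt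
      (h.isOpen.mem_nhds hz₀)).continuousAt).norm
  have hc2 : ContinuousAt (fun z => ‖chris G z‖) z₀ :=
    ((h.contDiffOn_chris.contDiffAt (h.isOpen.mem_nhds hz₀)).continuousAt).norm
  have hc3 : ContinuousAt (fun z => ‖G z‖) z₀ :=
    ((h.smooth.contDiffAt (h.isOpen.mem_nhds hz₀)).continuousAt).norm
  set A := ‖fderiv ℝ (fderiv ℝ G) z₀‖ + 1 with hA
  set B := ‖chris G z₀‖ + 1 with hB
  set C := ‖G z₀‖ + 1 with hC
  have hA0 : 0 ≤ A := by positivity
  have hB0 : 0 ≤ B := by positivity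
  have hC0 : 0 ≤ C := by positivity
  set D := 2 * A + 2 * C * B ^ 2 with hD
  have hD0 : 0 ≤ D := by positivity
  refine ⟨D / m ^ 2, by positivity, ?_⟩
  filter_upwards [hc1.eventually_lt_const (show ‖fderiv ℝ (fderiv ℝ G) z₀‖ < A by simp [hA]),
    hc2.eventually_lt_const (show ‖chris G z₀‖ < B by simp [hB]),
    hc3.eventually_lt_const (show ‖G z₀‖ < C by simp [hC]), hm'] with z h1 h2 h3 h4 a b
  have hT : ∀ x y v w : E, |fderiv ℝ (fderiv ℝ G) z x y v w| ≤ A * ‖x‖ * ‖y‖ * ‖v‖ * ‖w‖ := by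
    intro x y v w
    have e1 : ‖fderiv ℝ (fderiv ℝ G) z x y v w‖ ≤ ‖fderiv ℝ (fderiv ℝ G) z x y‖ * ‖v‖ * ‖w‖ :=
      ContinuousLinearMap.le_opNorm₂ _ v w
    have e2 : ‖fderiv ℝ (fderiv ℝ G) z x y‖ ≤ ‖fderiv ℝ (fderiv ℝ G) z‖ * ‖x‖ * ‖y‖ :=
      ContinuousLinearMap.le_opNorm₂ _ x y
    rw [Real.norm_eq_abs] at e1
    refine e1.trans ?_
    have e3 : ‖fderiv ℝ (fderiv ℝ G) z x y‖ ≤ A * ‖x‖ * ‖y‖ := e2.trans (by gcongr)
    gcongr
  have hΓ : ∀ x y : E, ‖chris G z x y‖ ≤ B * ‖x‖ * ‖y‖ := by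
    intro x y
    refine (ContinuousLinearMap.le_opNorm₂ _ x y).trans ?_
    gcongr
  have hGG : ∀ x y : E, |G z x y| ≤ C * ‖x‖ * ‖y‖ := by
    intro x y
    have : ‖G z x y‖ ≤ ‖G z‖ * ‖x‖ * ‖y‖ := ContinuousLinearMap.le_opNorm₂ _ x y
    rw [Real.norm_eq_abs] at this
    refine this.trans ?_
    gcongr
  have hna := norm_nonneg a
  have hnb := norm_nonneg b
  set x := ‖a‖ with hx
  set y := ‖b‖ with hy
  have e1 := (abs_le.1 (hT a a b b)).2
  have e2 := (abs_le.1 (hT b b a a)).2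
  have e3 := (abs_le.1 (hT b a a b)).1
  have e4 : 0 ≤ G z (chris G z a b) (chris G z a b) := by
    have := h4 (chris G z a b)
    have h5 : 0 ≤ m * ‖chris G z a b‖ ^ 2 := by positivity
    linarith
  have e5 : G z (chris G z a a) (chris G z b b) ≤ C * (B * x * x) * (B * y * y) := by
    refine ((abs_le.1 (hGG _ _)).2).trans ?_
    have h6 := hΓ a a
    have h7 := hΓ b b
    rw [← hx] at h6
    rw [← hy] at h7
    gcongr
  have e6 : -(D * x ^ 2 * y ^ 2) ≤ secG G z a b := by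
    have : secG G z a b = -(fderiv ℝ (fderiv ℝ G) z a a b b + fderiv ℝ (fderiv ℝ G) z b b a a
      - 2 * fderiv ℝ (fderiv ℝ G) z b a a b) / 2
      + G z (chris G z a b) (chris G z a b) - G z (chris G z a a) (chris G z b b) := rfl
    rw [this, hD]
    have h8 : 0 ≤ C * B ^ 2 * x ^ 2 * y ^ 2 := by positivity
    nlinarith only [e1, e2, e3, e4, e5, h8]
  have e7 : x ^ 2 * y ^ 2 ≤ (G z a a / m) * (G z b b / m) := by
    have h9 : x ^ 2 ≤ G z a a / m := by rw [le_div_iff₀ hm]; linarith [h4 a]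
    have h10 : y ^ 2 ≤ G z b b / m := by rw [le_div_iff₀ hm]; linarith [h4 b]
    exact mul_le_mul h9 h10 (by positivity) ((by positivity : (0:ℝ) ≤ x ^ 2).trans h9)
  have e8 : D / m ^ 2 * (G z a a * G z b b) = D * ((G z a a / m) * (G z b b / m)) := by
    field_simp
  rw [e8]
  have e9 := mul_le_mul_of_nonneg_left e7 hD0
  linarith

end Loc

variable {M : Type} [MetricSpace M] [ChartedSpace E M]
  [RiemannianBundle (fun x : M => TangentSpace 𝓘(ℝ, E) x)]
  [IsManifold 𝓘(ℝ, E) ∞ M]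
  [IsContMDiffRiemannianBundle 𝓘(ℝ, E) ∞ E (fun x : M => TangentSpace 𝓘(ℝ, E) x)]

/-- the curvature numerator does not depend on the chart -/
theorem sec_chart {e e' : OpenPartialHomeomorph M E} (he : e ∈ maximalAtlas 𝓘(ℝ, E) ∞ M)
    (he' : e' ∈ maximalAtlas 𝓘(ℝ, E) ∞ M) {x : M} (hx : x ∈ e.source) (hx' : x ∈ e'.source)
    (a b : E) :
    secG (chartG e) (e x) a b = secG (chartG e') (e' x) (fderiv ℝ (e' ∘ e.symm) (e x) a)
      (fderiv ℝ (e' ∘ e.symm) (e x) b) := by
  have hpt : (e' ∘ e.symm) (e x) = e' x := by simp [e.left_inv hx]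
  have hz : e x ∈ e.target := e.map_source hx
  have hz' : e' x ∈ e'.target := e'.map_source hx'
  have hzV : e x ∈ (e.symm ≫ₕ e').source := by simp [hx, hx']
  have hopen := (e.symm ≫ₕ e').open_source.mem_nhds hzV
  have hbij : Function.Bijective (fderiv ℝ (e' ∘ e.symm) (e x)) := by
    have hinj : Function.Injective (fderiv ℝ (e' ∘ e.symm) (e x) : E →ₗ[ℝ] E) := by
      rw [injective_iff_map_eq_zero]
      intro v hv
      by_contra hne
      have h1 := chartG_pos he hz v hne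
      have h2 := chartG_change he he' hx hx' v v
      have h3 : fderiv ℝ (e' ∘ e.symm) (e x) v = 0 := hv
      rw [h3] at h2
      simp at h2
      linarith
    exact ⟨hinj, LinearMap.injective_iff_surjective.1 hinj⟩
  have hpos : ∀ v, v ≠ 0 → 0 < chartG e' ((e' ∘ e.symm) (e x)) v v := by
    rw [hpt]; exact fun v hv => chartG_pos he' hz' v hv
  have hpos' : ∀ v, v ≠ 0 → 0 < chartG e (e x) v v := fun v hv => chartG_pos he hz v hv
  have := (inv_main (G := chartG e') (G' := chartG e) (τ := e' ∘ e.symm) (z := e x)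
    (fun u v => chris (chartG e') ((e' ∘ e.symm) (e x)) u v)
    (fun u v => chris (chartG e) (e x) u v)
    ((transition_real he he').contDiffAt hopen)
    (by rw [hpt]; exact (contDiffOn_chartG he').contDiffAt (e'.open_target.mem_nhds hz'))
    ((contDiffOn_chartG he).contDiffAt (e.open_target.mem_nhds hz))
    (Eventually.of_forall fun y v w => chartG_symm e' y v w)
    hpos hbij
    (by
      filter_upwards [hopen] with y hy v w
      have hy1 : y ∈ e.target := by
        have := hy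
        simp at this
        exact this.1
      have hy2 : e.symm y ∈ e'.source := by
        have := hy
        simp at this
        exact this.2
      have := chartG_change he he' (e.map_target hy1) hy2 v w
      rw [e.right_inv hy1] at this
      exact this.symm)
    (fun u v w => chris_spec_of_pos hpos' u v w)
    (fun u v w => chris_spec_of_pos hpos u v w)).2 a b
  rw [hpt] at this
  exact this

/-- uniform lower bound of the sectional curvature on a compact set -/
theorem sec_lower_compact {K : Set M} (hK : IsCompact K) : ∃ κ : ℝ, 0 ≤ κ ∧ ∀ x ∈ K,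
    ∀ e ∈ maximalAtlas 𝓘(ℝ, E) ∞ M, x ∈ e.source → ∀ a b : E,
      -(κ ^ 2 * (chartG e (e x) a a * chartG e (e x) b b)) ≤ secG (chartG e) (e x) a b := by
  have h1 : ∀ x : M, ∃ κ : ℝ, 0 ≤ κ ∧ ∀ᶠ y in 𝓝 x, ∀ e ∈ maximalAtlas 𝓘(ℝ, E) ∞ M,
      y ∈ e.source → ∀ a b : E,
      -(κ * (chartG e (e y) a a * chartG e (e y) b b)) ≤ secG (chartG e) (e y) a b := by
    intro x
    set e₀ := chartAt E x with he₀
    have hem₀ : e₀ ∈ maximalAtlas 𝓘(ℝ, E) ∞ M := chart_mem_maximalAtlas x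
    have hx₀ : x ∈ e₀.source := mem_chart_source E x
    obtain ⟨κ, hκ, h2⟩ := secG_lower_loc (H204.localRiem_chartG hem₀) (e₀.map_source hx₀)
    refine ⟨κ, hκ, ?_⟩
    have h3 := (e₀.continuousAt hx₀).eventually h2
    filter_upwards [h3, e₀.open_source.mem_nhds hx₀] with y hy hy₀ e he hye a b
    rw [sec_chart he hem₀ hye hy₀ a b, ← chartG_change he hem₀ hye hy₀ a a,
      ← chartG_change he hem₀ hye hy₀ b b]
    exact hy _ _
  choose κ hκ hκ' using h1
  obtain ⟨t, ht⟩ := hK.elim_nhds_subcover (fun x => {y | ∀ e ∈ maximalAtlas 𝓘(ℝ, E) ∞ M,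
      y ∈ e.source → ∀ a b : E,
      -(κ x * (chartG e (e y) a a * chartG e (e y) b b)) ≤ secG (chartG e) (e y) a b})
      (fun x _ => hκ' x)
  refine ⟨√(∑ x ∈ t, κ x), Real.sqrt_nonneg _, fun y hy e he hye a b => ?_⟩
  obtain ⟨x, hx, hyx⟩ := mem_iUnion₂.1 (ht.2 hy)
  have h2 := hyx e he hye a b
  refine le_trans ?_ h2
  rw [Real.sq_sqrt (Finset.sum_nonneg fun x _ => hκ x)]
  have h3 : κ x ≤ ∑ x ∈ t, κ x := Finset.single_le_sum (fun x _ => hκ x) hx
  have hz := e.map_source hye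
  have h4 : 0 ≤ chartG e (e y) a a := by
    rcases eq_or_ne a 0 with h | h
    · simp [h]
    · exact (chartG_pos he hz a h).le
  have h5 : 0 ≤ chartG e (e y) b b := by
    rcases eq_or_ne b 0 with h | h
    · simp [h]
    · exact (chartG_pos he hz b h).le
  have h6 := mul_le_mul_of_nonneg_right h3 (mul_nonneg h4 h5)
  linarith

variable [IsRiemannianManifold 𝓘(ℝ, E) M]

/-- Pointwise second order upper bound of the distance, as a quadratic form, with trace
controlled by the Ricci curvature. -/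
theorem lap_point (hJET : Stmt.JET) (hGEO : Stmt.GEO) (hSTEP : Stmt.STEP)
    {c : ℝ → M} {ℓ : ℝ} (hℓ : 0 < ℓ) (hc : MinGeo c 0 ℓ) {K κ : ℝ} (hK : 0 ≤ K)
    (hRic : ∀ t ∈ Ioo 0 ℓ, ∀ e ∈ maximalAtlas 𝓘(ℝ, E) ∞ M, c t ∈ e.source → ∀ v : E,
      chartG e (e (c t)) v v = 1 → -K ≤ H973.ric (chartG e) (e (c t)) v)
    (hSec : ∀ t ∈ Ioo 0 ℓ, ∀ e ∈ maximalAtlas 𝓘(ℝ, E) ∞ M, c t ∈ e.source → ∀ a b : E,
      -(κ ^ 2 * (chartG e (e (c t)) a a * chartG e (e (c t)) b b)) ≤
        secG (chartG e) (e (c t)) a b)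
    {e : OpenPartialHomeomorph M E} (he : e ∈ maximalAtlas 𝓘(ℝ, E) ∞ M)
    (hx : c ℓ ∈ e.source) :
    ∃ B : E →ₗ[ℝ] E →ₗ[ℝ] ℝ, (∀ v, SecUB (c 0) e (e (c ℓ)) v (B v v)) ∧
      (∀ v, B v v ≤ (1 / ℓ + κ ^ 2 * ℓ) * chartG e (e (c ℓ)) v v) ∧
      ∀ (ι : Type) [Fintype ι] (w : ι → E) (k : ι → ℝ),
        (∀ u v, ∑ l, k l * (chartG e (e (c ℓ)) (w l) u * chartG e (e (c ℓ)) (w l) v) =
          chartG e (e (c ℓ)) u v) →
        ∑ l, k l * B (w l) (w l) ≤ (Module.finrank ℝ E - 1) / ℓ + K * ℓ := by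
  set n := Module.finrank ℝ E with hn
  have hJ := (hJET E M).1
  have h1 := Qr.propagate (E := E) hJET hGEO hSTEP hℓ hc (a := 0) (b := ℓ) (α := 0) (β := 1 / ℓ)
    (S := 0) (T := 0) (κ := κ) le_rfl hℓ.le le_rfl
    (g := fun t => (1 / ℓ) ^ 2 * (n - 1) + (1 / ℓ * t) ^ 2 * K)
    (by fun_prop) (by
      intro t ht e' he' hct v hv hv1 Y hY
      have h2 : ∑ i, secG (chartG e') (e' (c t)) (Y i) v =
          H973.ric (chartG e') (e' (c t)) v := H973.ric_eq (b := Y) hY v
      rw [h2]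
      have h3 := hRic t ht e' he' hct v hv1
      have h4 : 0 ≤ (0 + 1 / ℓ * t) ^ 2 := sq_nonneg _
      have h5 := mul_le_mul_of_nonneg_left h3 h4
      rw [zero_add] at h5 ⊢
      linarith) (by
      intro t ht e' he' hct v hv hv1 y
      have h3 := hSec t ht e' he' hct y v
      rw [hv1, mul_one] at h3
      exact h3) (by
      rw [zero_add, mul_zero]
      exact Qr.start hJET (c 0) c 0)
  have hx1 : (0 : ℝ) + 1 / ℓ * ℓ = 1 := by field_simp; ring
  rw [hx1] at h1
  have hI1 : ∫ t in (0:ℝ)..ℓ, ((1 / ℓ) ^ 2 * ((n:ℝ) - 1) + (1 / ℓ * t) ^ 2 * K) =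
      (n - 1) / ℓ + K * ℓ / 3 := by
    have : ∀ t : ℝ, (1 / ℓ) ^ 2 * ((n:ℝ) - 1) + (1 / ℓ * t) ^ 2 * K =
        (1 / ℓ) ^ 2 * ((n:ℝ) - 1) + (K / ℓ ^ 2) * t ^ 2 := by intro t; field_simp
    simp_rw [this]
    rw [intervalIntegral.integral_add intervalIntegrable_const
      (by apply Continuous.intervalIntegrable; fun_prop), intervalIntegral.integral_const,
      intervalIntegral.integral_const_mul, integral_pow]
    simp only [sub_zero, smul_eq_mul]
    field_simp
    ring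
  have hI2 : ∫ t in (0:ℝ)..ℓ, ((1 / ℓ) ^ 2 + (0 + 1 / ℓ * t) ^ 2 * κ ^ 2) =
      1 / ℓ + κ ^ 2 * ℓ / 3 := by
    have : ∀ t : ℝ, (1 / ℓ) ^ 2 + (0 + 1 / ℓ * t) ^ 2 * κ ^ 2 =
        (1 / ℓ) ^ 2 + (κ ^ 2 / ℓ ^ 2) * t ^ 2 := by intro t; field_simp; ring
    simp_rw [this]
    rw [intervalIntegral.integral_add intervalIntegrable_const
      (by apply Continuous.intervalIntegrable; fun_prop), intervalIntegral.integral_const,
      intervalIntegral.integral_const_mul, integral_pow]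
    simp only [sub_zero, smul_eq_mul]
    field_simp
    ring
  rw [hI1, hI2, zero_add, zero_add] at h1
  obtain ⟨b, hb, A, hA, hS, hT⟩ := Qr.change hJ h1 he hx
  have hpars : ∀ v, ∑ i, b.repr v i ^ 2 = chartG e (e (c ℓ)) v v := by
    intro v
    have h2 := parseval b hb v
    rw [← h2]
    refine Finset.sum_congr rfl fun i _ => ?_
    congr 1
    conv_rhs => rw [← b.sum_repr v]
    rw [map_sum, _root_.sum_apply]
    simp only [map_smul, _root_.smul_apply, smul_eq_mul, hb _ i]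
    simp
  let B : E →ₗ[ℝ] E →ₗ[ℝ] ℝ := LinearMap.mk₂ ℝ
    (fun v w => ∑ i, ∑ j, b.repr v i * b.repr w j * A i j)
    (by
      intro v v' w
      simp only [map_add, Finsupp.add_apply, add_mul, Finset.sum_add_distrib])
    (by
      intro r v w
      simp only [map_smul, Finsupp.smul_apply, smul_eq_mul, Finset.mul_sum, mul_assoc])
    (by
      intro v w w'
      simp only [map_add, Finsupp.add_apply, add_mul, mul_add, Finset.sum_add_distrib])
    (by
      intro r v w
      simp only [map_smul, Finsupp.smul_apply, smul_eq_mul, Finset.mul_sum]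
      refine Finset.sum_congr rfl fun i _ => Finset.sum_congr rfl fun j _ => ?_
      ring)
  have hB : ∀ v w, B v w = ∑ i, ∑ j, b.repr v i * b.repr w j * A i j := fun v w => rfl
  refine ⟨B, fun v => ?_, fun v => ?_, fun ι _ w k hk => ?_⟩
  · have h2 := hA (fun i => b.repr v i)
    rw [one_smul, b.sum_repr v] at h2
    rw [hB]
    exact h2
  · rw [hB]
    refine (hT (fun i => b.repr v i)).trans ?_
    rw [hpars v]
    have hG0 : 0 ≤ chartG e (e (c ℓ)) v v := by
      rw [← hpars v]; positivity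
    apply mul_le_mul_of_nonneg_right _ hG0
    have : 0 ≤ κ ^ 2 * ℓ := by positivity
    linarith
  · have hrep : ∀ u i, b.repr u i = chartG e (e (c ℓ)) u (b i) := by
      intro u i
      conv_rhs => rw [← b.sum_repr u]
      rw [map_sum, _root_.sum_apply]
      simp only [map_smul, _root_.smul_apply, smul_eq_mul, hb _ i]
      simp
    have h2 : ∑ l, k l * B (w l) (w l) = ∑ i, A i i := by
      have h3 : ∑ l, k l * B (w l) (w l) = ∑ i, ∑ j, (∑ l, k l *
          (chartG e (e (c ℓ)) (w l) (b i) * chartG e (e (c ℓ)) (w l) (b j))) * A i j := by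
        simp only [hB, hrep, Finset.mul_sum, Finset.sum_mul]
        rw [Finset.sum_comm]
        refine Finset.sum_congr rfl fun i _ => ?_
        rw [Finset.sum_comm]
        refine Finset.sum_congr rfl fun j _ => Finset.sum_congr rfl fun l _ => ?_
        ring
      rw [h3]
      refine Finset.sum_congr rfl fun i _ => ?_
      rw [Finset.sum_eq_single i]
      · rw [hk, hb i i, if_pos rfl, one_mul]
      · intro j _ hj
        rw [hk, hb i j, if_neg (Ne.symm hj), zero_mul]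
      · simp
    rw [h2]
    refine hS.trans ?_
    have : 0 ≤ K * ℓ := by positivity
    linarith

end Vale.Agent.P210.R2.H265
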