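import Vale.Agent.P210.R2.H265.LapB

/-!
# LAP, part C: local semiconcavity of the squared distance in charts
-/

open scoped Manifold ContDiff Topology Bundle NNReal
open Set Metric Filter Bundle IsManifold MeasureTheory Manifold Asymptotics

set_option maxSynthPendingDepth 3
set_option linter.all false

noncomputable section

namespace Vale.Agent.P210.R2.H265

open Vale.Agent.P210.R2.H53 Vale.Agent.P210.H204

/-- a continuous function whose upper second symmetric derivative is at most `C` -/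
theorem three_point {g : ℝ → ℝ} {a b C : ℝ} (hg : ContinuousOn g (Icc a b))
    (h : ∀ t ∈ Ioo a b, ∀ η > 0, ∀ᶠ r in 𝓝[>] (0 : ℝ),
      g (t + r) + g (t - r) - 2 * g t ≤ (C + η) * r ^ 2)
    {x y z : ℝ} (hxy : x < y) (hyz : y < z) (hax : a ≤ x) (hzb : z ≤ b) :
    (z - y) * g x + (y - x) * g z ≤ (z - x) * g y + C * ((z - y) * (y - x) * (z - x)) / 2 := by
  by_contra hcon
  push Not at hcon
  have hxz : x < z := hxy.trans hyz
  set P : ℝ := (z - y) * (y - x) * (z - x) with hP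
  have hP0 : 0 < P := mul_pos (mul_pos (by linarith) (by linarith)) (by linarith)
  set D : ℝ := (z - y) * g x + (y - x) * g z - (z - x) * g y with hD
  obtain ⟨C', hC', hC''⟩ : ∃ C', C < C' ∧ C' * P / 2 < D := by
    refine ⟨(C + 2 * D / P) / 2, ?_, ?_⟩
    · have : C < 2 * D / P := by
        rw [lt_div_iff₀ hP0]; linarith
      linarith
    · have : C < 2 * D / P := by
        rw [lt_div_iff₀ hP0]; linarith
      have h3 : (C + 2 * D / P) / 2 < 2 * D / P := by linarith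
      calc _ < 2 * D / P * P / 2 := by gcongr
        _ = _ := by field_simp
  -- subtract the parabola and the chord
  set q : ℝ → ℝ := fun s => g s - C' * s ^ 2 / 2 with hq
  set m : ℝ := (q z - q x) / (z - x) with hm
  set F : ℝ → ℝ := fun s => q s - m * (s - x) with hF
  have hFc : ContinuousOn F (Icc x z) := by
    have : ContinuousOn g (Icc x z) := hg.mono (Icc_subset_Icc hax hzb)
    fun_prop
  obtain ⟨s, hs, hmin⟩ := isCompact_Icc.exists_isMinOn (nonempty_Icc.2 hxz.le) hFc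
  have hzx : z - x ≠ 0 := by linarith
  have hF1 : F z = F x := by
    simp only [hF, hm]
    field_simp
    ring
  have hFx : F x = q x := by simp [hF]
  have hFy : F y < F x := by
    have e1 : (z - x) * F y = (z - x) * q y - (y - x) * (q z - q x) := by
      simp only [hF, hm]; field_simp
    have e2 : (z - x) * q y - (y - x) * (q z - q x) - (z - x) * q x = -D + C' * P / 2 := by
      simp only [hq, hD, hP]; ring
    have e3 : (z - x) * F y < (z - x) * F x := by rw [hFx]; linarith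
    exact lt_of_mul_lt_mul_left e3 (by linarith)
  have hst : F s ≤ F y := hmin ⟨hxy.le, hyz.le⟩
  have hs1 : s ≠ z := by
    intro h; rw [h] at hst; linarith
  have hs2 : s ≠ x := by
    intro h; rw [h] at hst; linarith
  have hs3 : x < s := lt_of_le_of_ne hs.1 (Ne.symm hs2)
  have hs4 : s < z := lt_of_le_of_ne hs.2 hs1
  have h3 := h s ⟨by linarith, by linarith⟩ ((C' - C) / 2) (by linarith)
  have h4 : ∀ᶠ ρ in 𝓝[>] (0 : ℝ), ρ < min (s - x) (z - s) := by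
    refine nhdsWithin_le_nhds (Iio_mem_nhds (lt_min (by linarith) (by linarith)))
  obtain ⟨ρ, ⟨hρ1, hρ2⟩, hρ3⟩ := ((h3.and h4).and self_mem_nhdsWithin).exists
  have hρ0 : 0 < ρ := hρ3
  have hρa := hρ2.trans_le (min_le_left _ _)
  have hρb := hρ2.trans_le (min_le_right _ _)
  have e1 : F s ≤ F (s + ρ) := hmin ⟨by linarith, by linarith⟩
  have e2 : F s ≤ F (s - ρ) := hmin ⟨by linarith, by linarith⟩
  have e3 : F (s + ρ) + F (s - ρ) - 2 * F s = g (s + ρ) + g (s - ρ) - 2 * g s - C' * ρ ^ 2 := by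
    simp only [hF, hq]; ring
  have e4 : 0 < (C' - C) / 2 * ρ ^ 2 := by
    have : 0 < C' - C := by linarith
    positivity
  linarith

/-- three point semiconcavity along the segments with endpoints in `S` -/
def SemiC {E : Type*} [NormedAddCommGroup E] [NormedSpace ℝ E] (f : E → ℝ) (C : ℝ) (S : Set E) :
    Prop :=
  ∀ (z v : E) (s t : ℝ), 0 < s → 0 < t → z - s • v ∈ S → z + t • v ∈ S →
    t * f (z - s • v) + s * f (z + t • v) ≤
      (s + t) * f z + C * ‖v‖ ^ 2 * (s * t * (s + t)) / 2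

variable {E : Type} [NormedAddCommGroup E] [NormedSpace ℝ E] [FiniteDimensional ℝ E]
variable {M : Type} [MetricSpace M] [ChartedSpace E M]
  [RiemannianBundle (fun x : M => TangentSpace 𝓘(ℝ, E) x)]
  [IsManifold 𝓘(ℝ, E) ∞ M]
  [IsContMDiffRiemannianBundle 𝓘(ℝ, E) ∞ E (fun x : M => TangentSpace 𝓘(ℝ, E) x)]
  [IsRiemannianManifold 𝓘(ℝ, E) M]

/-- half of the squared distance to `p`, in the chart `e` -/
def hsq (p : M) (e : OpenPartialHomeomorph M E) (z : E) : ℝ := dist p (e.symm z) ^ 2 / 2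

omit [FiniteDimensional ℝ E] [RiemannianBundle (fun x : M => TangentSpace 𝓘(ℝ, E) x)]
  [IsManifold 𝓘(ℝ, E) ∞ M]
  [IsContMDiffRiemannianBundle 𝓘(ℝ, E) ∞ E (fun x : M => TangentSpace 𝓘(ℝ, E) x)]
  [IsRiemannianManifold 𝓘(ℝ, E) M] in
theorem hsq_nonneg (p : M) (e : OpenPartialHomeomorph M E) (z : E) : 0 ≤ hsq p e z := by
  unfold hsq; positivity

/-- the chart is locally Lipschitz -/
theorem dist_lip_loc (hJET : Stmt.JET) {e : OpenPartialHomeomorph M E}
    (he : e ∈ maximalAtlas 𝓘(ℝ, E) ∞ M) {z₀ : E} (hz₀ : z₀ ∈ e.target) :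
    ∃ L : ℝ, 0 < L ∧ ∃ ρ > 0, ball z₀ ρ ⊆ e.target ∧ ∀ y₁ ∈ ball z₀ ρ, ∀ y₂ ∈ ball z₀ ρ,
      dist (e.symm y₁) (e.symm y₂) ≤ L * ‖y₁ - y₂‖ := by
  have h1 := (hJET E M).2.2.1 e he z₀ hz₀ 1 one_pos
  obtain ⟨ρ₁, hρ₁, h2⟩ := Metric.eventually_nhds_iff_ball.1 h1
  obtain ⟨ρ₂, hρ₂, h3⟩ := Metric.isOpen_iff.1 e.open_target z₀ hz₀
  refine ⟨2 * √(‖chartG e z₀‖) + 1, by positivity, min ρ₁ ρ₂, lt_min hρ₁ hρ₂,
    (ball_subset_ball (min_le_right _ _)).trans h3, fun y₁ hy₁ y₂ hy₂ => ?_⟩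
  have h4 : (y₁, y₂) ∈ ball (z₀, z₀) ρ₁ := by
    rw [mem_ball, Prod.dist_eq]
    exact max_lt ((mem_ball.1 hy₁).trans_le (min_le_left _ _))
      ((mem_ball.1 hy₂).trans_le (min_le_left _ _))
  refine (h2 _ h4).trans ?_
  simp only
  have h5 : chartG e z₀ (y₁ - y₂) (y₁ - y₂) ≤ ‖chartG e z₀‖ * ‖y₁ - y₂‖ ^ 2 := by
    have := (chartG e z₀).le_opNorm₂ (y₁ - y₂) (y₁ - y₂)
    rw [Real.norm_eq_abs] at this
    calc _ ≤ _ := le_abs_self _
      _ ≤ _ := this
      _ = _ := by ring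
  have h6 : √(chartG e z₀ (y₁ - y₂) (y₁ - y₂)) ≤ √(‖chartG e z₀‖) * ‖y₁ - y₂‖ := by
    rw [← Real.sqrt_sq (norm_nonneg (y₁ - y₂)), ← Real.sqrt_mul (norm_nonneg _)]
    exact Real.sqrt_le_sqrt h5
  have h7 : 0 ≤ ‖y₁ - y₂‖ := norm_nonneg _
  nlinarith

theorem isJet_line (e : OpenPartialHomeomorph M E) {z : E} (hz : z ∈ e.target) (v : E) :
    IsJet e z v (fun r : ℝ => e.symm (z + r • v - (r ^ 2 / 2) • chris (chartG e) z v v)) := by
  have hc : Continuous fun r : ℝ => z + r • v - (r ^ 2 / 2) • chris (chartG e) z v v := by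
    fun_prop
  have h0 : z + (0 : ℝ) • v - ((0 : ℝ) ^ 2 / 2) • chris (chartG e) z v v = z := by simp
  refine ⟨?_, by simp, ?_⟩
  · have h1 : ContinuousAt e.symm
        (z + (0 : ℝ) • v - ((0 : ℝ) ^ 2 / 2) • chris (chartG e) z v v) := by
      rw [h0]; exact e.continuousAt_symm hz
    exact ContinuousAt.comp (f := fun r : ℝ => z + r • v - (r ^ 2 / 2) •
      chris (chartG e) z v v) h1 hc.continuousAt
  · have h2 : ∀ᶠ r in 𝓝 (0 : ℝ), z + r • v - (r ^ 2 / 2) • chris (chartG e) z v v ∈ e.target := by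
      have := hc.continuousAt (x := 0)
      refine this.eventually (e.open_target.mem_nhds ?_)
      simpa using hz
    have h3 : (fun r : ℝ => e (e.symm (z + r • v - (r ^ 2 / 2) • chris (chartG e) z v v)) -
        (z + r • v - (r ^ 2 / 2) • chris (chartG e) z v v)) =ᶠ[𝓝 0] fun _ => 0 := by
      filter_upwards [h2] with r hr
      rw [e.right_inv hr, sub_self]
    exact h3.trans_isLittleO (isLittleO_zero _ _)

/-- assumptions along minimal geodesics from `p`: everything needed for the comparison -/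
structure RicHyp (E : Type) [NormedAddCommGroup E] [NormedSpace ℝ E] [FiniteDimensional ℝ E]
    (M : Type) [MetricSpace M] [ChartedSpace E M]
    [RiemannianBundle (fun x : M => TangentSpace 𝓘(ℝ, E) x)] [IsManifold 𝓘(ℝ, E) ∞ M]
    [IsContMDiffRiemannianBundle 𝓘(ℝ, E) ∞ E (fun x : M => TangentSpace 𝓘(ℝ, E) x)]
    (K : ℝ) : Prop where
  proper : ProperSpace M
  geod : ∀ x y : M, ∃ c : ℝ → M, MinGeo c 0 (dist x y) ∧ c 0 = x ∧ c (dist x y) = y
  ric : ∀ e ∈ maximalAtlas 𝓘(ℝ, E) ∞ M, ∀ z ∈ e.target, ∀ v : E,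
    chartG e z v v = 1 → -K ≤ H973.ric (chartG e) z v

/-- the scalar estimate -/
theorem sq_upper {up um u₀ a b s : ℝ} (hu : 0 ≤ u₀) (h1 : |up - u₀| ≤ a * s)
    (h2 : |um - u₀| ≤ a * s) (h3 : up + um ≤ 2 * u₀ + s ^ 2 * b) :
    up ^ 2 / 2 + um ^ 2 / 2 - 2 * (u₀ ^ 2 / 2) ≤ s ^ 2 * (u₀ * b + a ^ 2) := by
  have e5 : (up - u₀) ^ 2 ≤ (a * s) ^ 2 := sq_le_sq' (abs_le.1 h1).1 (abs_le.1 h1).2
  have e6 : (um - u₀) ^ 2 ≤ (a * s) ^ 2 := sq_le_sq' (abs_le.1 h2).1 (abs_le.1 h2).2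
  have e7 : up ^ 2 / 2 + um ^ 2 / 2 - 2 * (u₀ ^ 2 / 2) =
      u₀ * (up + um - 2 * u₀) + ((up - u₀) ^ 2 + (um - u₀) ^ 2) / 2 := by ring
  have e8 : u₀ * (up + um - 2 * u₀) ≤ u₀ * (s ^ 2 * b) :=
    mul_le_mul_of_nonneg_left (by linarith) hu
  rw [e7]
  have e9 : s ^ 2 * (u₀ * b + a ^ 2) = u₀ * (s ^ 2 * b) + ((a * s) ^ 2 + (a * s) ^ 2) / 2 := by
    ring
  rw [e9]
  linarith

/-- the points used near `y` stay in the ball -/
theorem near_ball {z₀ y v w : E} {ρ : ℝ} (hy : y ∈ ball z₀ ρ) :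
    ∀ᶠ s in 𝓝[>] (0 : ℝ), (y + s • v ∈ ball z₀ ρ ∧ y - s • v ∈ ball z₀ ρ) ∧
      (y + s • v - (s ^ 2 / 2) • w ∈ ball z₀ ρ ∧
        y + (-s) • v - ((-s) ^ 2 / 2) • w ∈ ball z₀ ρ) := by
  apply nhdsWithin_le_nhds
  have hO : IsOpen (ball z₀ ρ) := isOpen_ball
  have c1 : ContinuousAt (fun s : ℝ => y + s • v) 0 := by fun_prop
  have c2 : ContinuousAt (fun s : ℝ => y - s • v) 0 := by fun_prop
  have c3 : ContinuousAt (fun s : ℝ => y + s • v - (s ^ 2 / 2) • w) 0 := by fun_prop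
  have c4 : ContinuousAt (fun s : ℝ => y + (-s) • v - ((-s) ^ 2 / 2) • w) 0 := by fun_prop
  exact ((c1.eventually (hO.mem_nhds (by simpa using hy))).and
    (c2.eventually (hO.mem_nhds (by simpa using hy)))).and
    ((c3.eventually (hO.mem_nhds (by simpa using hy))).and
    (c4.eventually (hO.mem_nhds (by simpa using hy))))

omit [FiniteDimensional ℝ E] [RiemannianBundle (fun x : M => TangentSpace 𝓘(ℝ, E) x)]
  [IsManifold 𝓘(ℝ, E) ∞ M]
  [IsContMDiffRiemannianBundle 𝓘(ℝ, E) ∞ E (fun x : M => TangentSpace 𝓘(ℝ, E) x)]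
  [IsRiemannianManifold 𝓘(ℝ, E) M] in
/-- first order -/
theorem dist_first {p : M} {e : OpenPartialHomeomorph M E} {z₀ : E} {L ρ : ℝ}
    (hlip : ∀ y₁ ∈ ball z₀ ρ, ∀ y₂ ∈ ball z₀ ρ, dist (e.symm y₁) (e.symm y₂) ≤ L * ‖y₁ - y₂‖)
    {y v : E} {s : ℝ} (hs : 0 < s) (hy : y ∈ ball z₀ ρ) (h3 : y + s • v ∈ ball z₀ ρ)
    (h4 : y - s • v ∈ ball z₀ ρ) :
    |dist p (e.symm (y + s • v)) - dist p (e.symm y)| ≤ L * ‖v‖ * s ∧
        |dist p (e.symm (y - s • v)) - dist p (e.symm y)| ≤ L * ‖v‖ * s := by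
  constructor
  · rw [dist_comm p, dist_comm p]
    refine (abs_dist_sub_le _ _ _).trans ((hlip _ h3 _ hy).trans (le_of_eq ?_))
    rw [add_sub_cancel_left, norm_smul, Real.norm_of_nonneg hs.le]; ring
  · rw [dist_comm p, dist_comm p]
    refine (abs_dist_sub_le _ _ _).trans ((hlip _ h4 _ hy).trans (le_of_eq ?_))
    rw [sub_sub_cancel_left, norm_neg, norm_smul, Real.norm_of_nonneg hs.le]; ring

omit [FiniteDimensional ℝ E] [RiemannianBundle (fun x : M => TangentSpace 𝓘(ℝ, E) x)]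
  [IsManifold 𝓘(ℝ, E) ∞ M]
  [IsContMDiffRiemannianBundle 𝓘(ℝ, E) ∞ E (fun x : M => TangentSpace 𝓘(ℝ, E) x)]
  [IsRiemannianManifold 𝓘(ℝ, E) M] in
/-- from jets to lines, in Lipschitz form -/
theorem dist_line {p : M} {e : OpenPartialHomeomorph M E} {z₀ : E} {L ρ N : ℝ} (hL : 0 ≤ L)
    (hlip : ∀ y₁ ∈ ball z₀ ρ, ∀ y₂ ∈ ball z₀ ρ, dist (e.symm y₁) (e.symm y₂) ≤ L * ‖y₁ - y₂‖)
    {y v w : E} {s : ℝ} (hw : ‖w‖ ≤ N)
    (hs : (y + s • v ∈ ball z₀ ρ ∧ y - s • v ∈ ball z₀ ρ) ∧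
      (y + s • v - (s ^ 2 / 2) • w ∈ ball z₀ ρ ∧
        y + (-s) • v - ((-s) ^ 2 / 2) • w ∈ ball z₀ ρ)) :
    dist p (e.symm (y + s • v)) + dist p (e.symm (y - s • v)) ≤
      dist p (e.symm (y + s • v - (s ^ 2 / 2) • w)) +
        dist p (e.symm (y + (-s) • v - ((-s) ^ 2 / 2) • w)) + s ^ 2 * (L * N) := by
  have e1 : dist p (e.symm (y + s • v)) ≤
      dist p (e.symm (y + s • v - (s ^ 2 / 2) • w)) + L * (s ^ 2 / 2 * N) := by
    have e2 := dist_triangle p (e.symm (y + s • v - (s ^ 2 / 2) • w)) (e.symm (y + s • v))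
    have e3 := hlip _ hs.2.1 _ hs.1.1
    have e4 : ‖y + s • v - (s ^ 2 / 2) • w - (y + s • v)‖ ≤ s ^ 2 / 2 * N := by
      rw [sub_sub_cancel_left, norm_neg, norm_smul, Real.norm_of_nonneg (by positivity)]
      gcongr
    have e5 := mul_le_mul_of_nonneg_left e4 hL
    linarith
  have e2 : dist p (e.symm (y - s • v)) ≤
      dist p (e.symm (y + (-s) • v - ((-s) ^ 2 / 2) • w)) + L * (s ^ 2 / 2 * N) := by
    have e2 := dist_triangle p (e.symm (y + (-s) • v - ((-s) ^ 2 / 2) • w)) (e.symm (y - s • v))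
    have e3 := hlip _ hs.2.2 _ hs.1.2
    have e4 : ‖y + (-s) • v - ((-s) ^ 2 / 2) • w - (y - s • v)‖ ≤ s ^ 2 / 2 * N := by
      have : y + (-s) • v - ((-s) ^ 2 / 2) • w - (y - s • v) = -((s ^ 2 / 2) • w) := by
        rw [neg_sq]; module
      rw [this, norm_neg, norm_smul, Real.norm_of_nonneg (by positivity)]
      gcongr
    have e5 := mul_le_mul_of_nonneg_left e4 hL
    linarith
  linarith

/-- the pointwise second order estimate along lines -/
theorem semi_pt (hJET : Stmt.JET) (hGEO : Stmt.GEO) (hSTEP : Stmt.STEP) {K : ℝ}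
    (hK : 0 ≤ K) (hR : RicHyp E M K) (p : M) {e : OpenPartialHomeomorph M E}
    (he : e ∈ maximalAtlas 𝓘(ℝ, E) ∞ M) {z₀ : E} {L ρ Γb Gb U κ : ℝ} (hL : 0 < L) (hΓb : 0 ≤ Γb)
    (hGb : 0 ≤ Gb) (hU : 0 ≤ U) (hsub : ball z₀ ρ ⊆ e.target)
    (hlip : ∀ y₁ ∈ ball z₀ ρ, ∀ y₂ ∈ ball z₀ ρ, dist (e.symm y₁) (e.symm y₂) ≤ L * ‖y₁ - y₂‖)
    (hsec : ∀ x ∈ closedBall p U,
    ∀ e ∈ maximalAtlas 𝓘(ℝ, E) ∞ M, x ∈ e.source → ∀ a b : E,
      -(κ ^ 2 * (chartG e (e x) a a * chartG e (e x) b b)) ≤ secG (chartG e) (e x) a b)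
    {y : E} (hy : y ∈ ball z₀ ρ) (hb1 : ‖chris (chartG e) y‖ ≤ Γb) (hb2 : ‖chartG e y‖ ≤ Gb)
    (huU : dist p (e.symm y) ≤ U) (v : E) {η : ℝ} (hη : 0 < η) :
    ∀ᶠ s in 𝓝[>] (0 : ℝ), hsq p e (y + s • v) + hsq p e (y - s • v) - 2 * hsq p e y ≤
        ((U * (L * Γb) + (1 + κ ^ 2 * U ^ 2) * Gb + L ^ 2) * ‖v‖ ^ 2 + η) * s ^ 2 := by
  have hyT : y ∈ e.target := hsub hy
  set u₀ := dist p (e.symm y) with hu₀
  have hu0 : 0 ≤ u₀ := dist_nonneg
  have hΓv : ‖chris (chartG e) y v v‖ ≤ Γb * ‖v‖ ^ 2 := by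
    refine (ContinuousLinearMap.le_opNorm₂ _ v v).trans ?_
    rw [mul_assoc, ← sq]
    gcongr
  rcases hu0.eq_or_lt with hu | hu
  · filter_upwards [near_ball (v := v) (w := chris (chartG e) y v v) hy,
      self_mem_nhdsWithin] with s hs hs0
    have hs0' : 0 < s := hs0
    obtain ⟨h3, h4⟩ := dist_first (p := p) hlip hs0' hy hs.1.1 hs.1.2
    rw [← hu₀, ← hu, sub_zero] at h3 h4
    have e0 : hsq p e y = 0 := by rw [hsq, ← hu₀, ← hu]; simp
    have e1 : hsq p e (y + s • v) ≤ (L * ‖v‖ * s) ^ 2 / 2 := by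
      rw [hsq]
      have := (abs_le.1 h3).2
      gcongr
    have e2 : hsq p e (y - s • v) ≤ (L * ‖v‖ * s) ^ 2 / 2 := by
      rw [hsq]
      have := (abs_le.1 h4).2
      gcongr
    rw [e0]
    have e4 : 0 ≤ (U * (L * Γb) + (1 + κ ^ 2 * U ^ 2) * Gb) * ‖v‖ ^ 2 * s ^ 2 + η * s ^ 2 := by
      positivity
    linarith
  · obtain ⟨c, hc, hc0, hcℓ⟩ := hR.geod p (e.symm y)
    rw [← hu₀] at hc hcℓ
    have hx : c u₀ ∈ e.source := by rw [hcℓ]; exact e.map_target hyT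
    have hexy : e (c u₀) = y := by rw [hcℓ]; exact e.right_inv hyT
    obtain ⟨B, hB1, hB2, -⟩ := lap_point hJET hGEO hSTEP hu hc hK (κ := κ)
      (fun t ht e' he' hct v hv => hR.ric e' he' _ (e'.map_source hct) v hv)
      (fun t ht e' he' hct a b => hsec (c t) (by
        rw [mem_closedBall, dist_comm, ← hc0, hc 0 ⟨le_rfl, hu.le⟩ t ⟨ht.1.le, ht.2.le⟩,
          zero_sub, abs_neg, abs_of_pos ht.1]
        linarith [ht.2]) e' he' hct a b) he hx
    rw [hc0, hexy] at hB1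
    rw [hexy] at hB2
    have hη' : 0 < η / u₀ := by positivity
    have h3 := hB1 v _ (isJet_line e hyT v) (η / u₀) hη'
    filter_upwards [near_ball (v := v) (w := chris (chartG e) y v v) hy,
      self_mem_nhdsWithin, h3] with s hs hs0 h4
    have hs0' : 0 < s := hs0
    obtain ⟨h5, h6⟩ := dist_first (p := p) hlip hs0' hy hs.1.1 hs.1.2
    have h7 := dist_line (p := p) hL.le hlip hΓv hs
    rw [← hu₀] at h4 h5 h6
    have h8 := sq_upper (b := B v v + η / u₀ + L * (Γb * ‖v‖ ^ 2)) hu0 h5 h6 (by linarith)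
    have e4 : u₀ * B v v ≤ (1 + κ ^ 2 * U ^ 2) * Gb * ‖v‖ ^ 2 := by
      have f1 := mul_le_mul_of_nonneg_left (hB2 v) hu.le
      have f2 : u₀ * ((1 / u₀ + κ ^ 2 * u₀) * chartG e y v v) =
          (1 + κ ^ 2 * u₀ ^ 2) * chartG e y v v := by field_simp
      have f3 : chartG e y v v ≤ Gb * ‖v‖ ^ 2 := by
        have := (chartG e y).le_opNorm₂ v v
        rw [Real.norm_eq_abs] at this
        have f4 : ‖chartG e y‖ * ‖v‖ * ‖v‖ ≤ Gb * ‖v‖ ^ 2 := by
          rw [mul_assoc, ← sq]; gcongr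
        exact (le_abs_self _).trans (this.trans f4)
      rw [f2] at f1
      refine f1.trans ?_
      calc _ ≤ (1 + κ ^ 2 * u₀ ^ 2) * (Gb * ‖v‖ ^ 2) := by gcongr
        _ ≤ (1 + κ ^ 2 * U ^ 2) * (Gb * ‖v‖ ^ 2) := by gcongr
        _ = _ := by ring
    have e9 : u₀ * (B v v + η / u₀ + L * (Γb * ‖v‖ ^ 2)) + (L * ‖v‖) ^ 2 =
        u₀ * B v v + η + u₀ * (L * Γb) * ‖v‖ ^ 2 + L ^ 2 * ‖v‖ ^ 2 := by field_simp
    rw [e9] at h8
    have e10 : u₀ * (L * Γb) * ‖v‖ ^ 2 ≤ U * (L * Γb) * ‖v‖ ^ 2 := by gcongr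
    simp only [hsq, ← hu₀]
    refine h8.trans ?_
    rw [mul_comm]
    apply mul_le_mul_of_nonneg_right _ (by positivity)
    linarith

/-- Local semiconcavity of the squared distance along lines of a chart. -/
theorem semiconcave_loc (hJET : Stmt.JET) (hGEO : Stmt.GEO) (hSTEP : Stmt.STEP) {K : ℝ}
    (hK : 0 ≤ K) (hR : RicHyp E M K) (p : M) {e : OpenPartialHomeomorph M E}
    (he : e ∈ maximalAtlas 𝓘(ℝ, E) ∞ M) {z₀ : E} (hz₀ : z₀ ∈ e.target) :
    ∃ C : ℝ, 0 ≤ C ∧ ∃ ρ > 0, ball z₀ ρ ⊆ e.target ∧ SemiC (hsq p e) C (ball z₀ ρ) ∧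
      ∃ L : ℝ≥0, LipschitzOnWith L (hsq p e) (ball z₀ ρ) ∧
        LipschitzOnWith L (fun z => dist p (e.symm z)) (ball z₀ ρ) := by
  obtain ⟨L, hL, ρ₁, hρ₁, hsub, hlip⟩ := dist_lip_loc hJET he hz₀
  have hLR : LocalRiem (chartG e) e.target := H204.localRiem_chartG he
  have hc2 : ContinuousAt (fun z => ‖chris (chartG e) z‖) z₀ :=
    ((hLR.contDiffOn_chris.contDiffAt (hLR.isOpen.mem_nhds hz₀)).continuousAt).norm
  have hc3 : ContinuousAt (fun z => ‖chartG e z‖) z₀ :=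
    ((hLR.smooth.contDiffAt (hLR.isOpen.mem_nhds hz₀)).continuousAt).norm
  set Γb := ‖chris (chartG e) z₀‖ + 1 with hΓb
  set Gb := ‖chartG e z₀‖ + 1 with hGb
  have hΓ0 : 0 ≤ Γb := by positivity
  have hG0 : 0 ≤ Gb := by positivity
  set U := dist p (e.symm z₀) + L * ρ₁ with hU
  have hU0 : 0 ≤ U := by positivity
  have := hR.proper
  obtain ⟨κ, hκ, hsec⟩ := sec_lower_compact (E := E) (isCompact_closedBall p U)
  set C := U * (L * Γb) + (1 + κ ^ 2 * U ^ 2) * Gb + L ^ 2 with hC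
  have hC0 : 0 ≤ C := by positivity
  obtain ⟨ρ₂, hρ₂, h2⟩ := Metric.eventually_nhds_iff_ball.1
    ((hc2.eventually_lt_const (show ‖chris (chartG e) z₀‖ < Γb by simp [hΓb])).and
      (hc3.eventually_lt_const (show ‖chartG e z₀‖ < Gb by simp [hGb])))
  set ρ := min ρ₁ ρ₂ with hρ
  have hρ0 : 0 < ρ := lt_min hρ₁ hρ₂
  have hb1 : ball z₀ ρ ⊆ ball z₀ ρ₁ := ball_subset_ball (min_le_left _ _)
  have hb2 : ball z₀ ρ ⊆ ball z₀ ρ₂ := ball_subset_ball (min_le_right _ _)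
  have hdistU : ∀ y ∈ ball z₀ ρ, dist p (e.symm y) ≤ U := by
    intro y hy
    have hy1 : y ∈ ball z₀ ρ₁ := hb1 hy
    have e1 := dist_triangle p (e.symm z₀) (e.symm y)
    have e2 := hlip z₀ (mem_ball_self hρ₁) y hy1
    have e3 : ‖z₀ - y‖ ≤ ρ₁ := by
      rw [← dist_eq_norm, dist_comm]; exact (mem_ball.1 hy1).le
    have e4 := mul_le_mul_of_nonneg_left e3 hL.le
    linarith
  have hcontAt : ∀ y ∈ ball z₀ ρ, ContinuousAt (hsq p e) y := by
    intro y hy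
    unfold hsq
    exact ((continuousAt_const.dist (e.continuousAt_symm (hsub (hb1 hy)))).pow 2).div_const 2
  have hLd : ∀ y₁ ∈ ball z₀ ρ, ∀ y₂ ∈ ball z₀ ρ,
      |dist p (e.symm y₁) - dist p (e.symm y₂)| ≤ L * ‖y₁ - y₂‖ := by
    intro y₁ h₁ y₂ h₂
    rw [dist_comm p, dist_comm p]
    exact (abs_dist_sub_le _ _ _).trans (hlip _ (hb1 h₁) _ (hb1 h₂))
  refine ⟨C, hC0, ρ, hρ0, hb1.trans hsub, ?_, (U * L + L).toNNReal, ?_, ?_⟩
  · intro z v s t hs ht h3 h4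
    have hseg : ∀ τ ∈ Icc (-s) t, z + τ • v ∈ ball z₀ ρ := by
      intro τ hτ
      have hconv := convex_ball z₀ ρ
      have h5 := hconv h3 h4 (a := (t - τ) / (s + t)) (b := (τ + s) / (s + t))
        (div_nonneg (by linarith [hτ.2]) (by linarith)) (div_nonneg (by linarith [hτ.1])
          (by linarith)) (by field_simp; ring)
      have h6 : ((t - τ) / (s + t)) • (z - s • v) + ((τ + s) / (s + t)) • (z + t • v) =
          z + τ • v := by
        have : s + t ≠ 0 := by linarith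
        have e1 : ((t - τ) / (s + t)) • (z - s • v) + ((τ + s) / (s + t)) • (z + t • v) =
          (((t - τ) / (s + t)) + ((τ + s) / (s + t))) • z +
            (((τ + s) / (s + t)) * t - ((t - τ) / (s + t)) * s) • v := by module
        have e2 : ((t - τ) / (s + t)) + ((τ + s) / (s + t)) = 1 := by field_simp; ring
        have e3 : ((τ + s) / (s + t)) * t - ((t - τ) / (s + t)) * s = τ := by field_simp; ring
        rw [e1, e2, e3, one_smul]
      rw [h6] at h5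
      exact h5
    have hcont : ContinuousOn (fun τ : ℝ => hsq p e (z + τ • v)) (Icc (-s) t) := by
      intro τ hτ
      exact (ContinuousAt.comp (f := fun t : ℝ => z + t • v) (hcontAt _ (hseg τ hτ))
        (by fun_prop)).continuousWithinAt
    have h5 := three_point (g := fun τ : ℝ => hsq p e (z + τ • v)) (a := -s) (b := t)
      (C := C * ‖v‖ ^ 2) hcont (by
        intro τ hτ η hη
        have hm : z + τ • v ∈ ball z₀ ρ := hseg τ ⟨hτ.1.le, hτ.2.le⟩
        obtain ⟨g1, g2⟩ := h2 _ (hb2 hm)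
        have h6 := semi_pt hJET hGEO hSTEP hK hR p he hL hΓ0 hG0 hU0 hsub hlip hsec
          (hb1 hm) g1.le g2.le (hdistU _ hm) v hη
        filter_upwards [h6] with r hr
        have e1 : z + τ • v + r • v = z + (τ + r) • v := by module
        have e2 : z + τ • v - r • v = z + (τ - r) • v := by module
        rw [e1, e2] at hr
        exact hr) (x := -s) (y := 0) (z := t) (by linarith) ht le_rfl le_rfl
    simp only [zero_smul, add_zero, neg_smul, ← sub_eq_add_neg, sub_zero, zero_sub, neg_neg,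
      sub_neg_eq_add] at h5
    simp only [zero_add] at h5
    have e1 : C * ‖v‖ ^ 2 * (t * s * (t + s)) / 2 = C * ‖v‖ ^ 2 * (s * t * (s + t)) / 2 := by ring
    linarith
  · rw [lipschitzOnWith_iff_norm_sub_le]
    intro x hx y hy
    rw [Real.coe_toNNReal _ (by positivity), Real.norm_eq_abs]
    have h3 := hLd x hx y hy
    have e1 : hsq p e x - hsq p e y = (dist p (e.symm x) - dist p (e.symm y)) *
        ((dist p (e.symm x) + dist p (e.symm y)) / 2) := by unfold hsq; ring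
    have h4 := hdistU x hx
    have h5 := hdistU y hy
    have h6 : 0 ≤ (dist p (e.symm x) + dist p (e.symm y)) / 2 := by positivity
    rw [e1, abs_mul, abs_of_nonneg h6]
    calc _ ≤ (L * ‖x - y‖) * U := by
          apply mul_le_mul h3 (by linarith) h6 (by positivity)
      _ ≤ _ := by
          have : 0 ≤ L * ‖x - y‖ := by positivity
          linarith
  · rw [lipschitzOnWith_iff_norm_sub_le]
    intro x hx y hy
    rw [Real.coe_toNNReal _ (by positivity), Real.norm_eq_abs]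
    refine (hLd x hx y hy).trans ?_
    have : 0 ≤ U * L * ‖x - y‖ := by positivity
    linarith

end Vale.Agent.P210.R2.H265
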