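import Vale.Agent.P210.R2.H265.LapC

/-!
# LAP, part D: the pointwise Laplacian comparison along lines, at points of differentiability
-/

open scoped Manifold ContDiff Topology Bundle NNReal
open Set Metric Filter Bundle IsManifold MeasureTheory Manifold Asymptotics

set_option maxSynthPendingDepth 3
set_option linter.all false

noncomputable section

namespace Vale.Agent.P210.R2.H265

open Vale.Agent.P210.R2.H53 Vale.Agent.P210.H204

section Flat

variable {E : Type*} [NormedAddCommGroup E] [NormedSpace ℝ E]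

/-- the scalar part of the next theorem -/
theorem lvj_scalar {fw fb fm fz D A ε ε' C r N G : ℝ} (hr : 0 < r) (hr1 : r < 1) (hC : 0 ≤ C)
    (hε : 0 < ε) (hε' : ε' * N ≤ ε / 4) (hr2 : r * (C * G ^ 2 + 1) < ε)
    (h2 : r ^ 2 / 2 * fm + r / 2 * fw ≤
      (r / 2 + r ^ 2 / 2) * fb + C * G ^ 2 * (r / 2 * (r ^ 2 / 2) * (r / 2 + r ^ 2 / 2)) / 2)
    (m1 : fb - fz - D ≤ ε' * (r * N)) (m2 : -(ε' * (r * N)) ≤ fm - fz - (D - r / 2 * A)) :
    fw ≤ fb + r ^ 2 * (A / 2 + ε) := by
  have hr3 : r ^ 2 ≤ r := by nlinarith only [hr, hr1]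
  have m4 : 2 * (ε' * (r * N)) ≤ r * (ε / 2) := by
    have : r * (ε' * N) ≤ r * (ε / 4) := mul_le_mul_of_nonneg_left hε' hr.le
    linarith only [this]
  have m5 : fb - fm ≤ r / 2 * A + r * (ε / 2) := by linarith only [m1, m2, m4]
  have m6 := mul_le_mul_of_nonneg_left m5 (show (0:ℝ) ≤ r ^ 2 / 2 by positivity)
  have e4 : (0:ℝ) ≤ C * G ^ 2 := by positivity
  have e3 : C * G ^ 2 * r ≤ ε := by nlinarith only [hr2, hr]
  have m7 : C * G ^ 2 * (r / 2 * (r ^ 2 / 2) * (r / 2 + r ^ 2 / 2)) / 2 ≤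
      r / 2 * (r ^ 2 / 4 * ε) := by
    have e2 : r / 2 + r ^ 2 / 2 ≤ r := by linarith only [hr3]
    calc _ ≤ C * G ^ 2 * (r / 2 * (r ^ 2 / 2) * r) / 2 := by gcongr
      _ = r / 2 * (r ^ 2 / 4 * (C * G ^ 2 * r)) := by ring
      _ ≤ r / 2 * (r ^ 2 / 4 * ε) := by gcongr
  have m9 : 0 ≤ r ^ 2 * ε := by positivity
  have m8 : r / 2 * fw ≤ r / 2 * (fb + r ^ 2 * (A / 2 + ε)) := by
    have : r / 2 * (r ^ 2 / 4 * ε) ≤ r / 2 * (r ^ 2 / 2 * ε) := by
      apply mul_le_mul_of_nonneg_left _ (by positivity)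
      linarith only [m9]
    linarith only [h2, m6, m7, this]
  exact le_of_mul_le_mul_left m8 (by positivity)

/-- comparison of a line with a parabola, for a semiconcave function -/
theorem line_vs_jet {f : E → ℝ} {C ρ : ℝ} {z₀ z : E} (hC : 0 ≤ C) (hS : SemiC f C (ball z₀ ρ))
    (hz : z ∈ ball z₀ ρ) (hd : DifferentiableAt ℝ f z) (w Γ : E) {ε : ℝ} (hε : 0 < ε) :
    ∀ᶠ r in 𝓝[>] (0 : ℝ), f (z + r • w) ≤
      f (z + r • w - (r ^ 2 / 2) • Γ) + r ^ 2 * (fderiv ℝ f z Γ / 2 + ε) := by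
  set N := ‖w‖ + ‖Γ‖ with hN
  have hN0 : 0 ≤ N := by positivity
  set ε' := ε / (4 * (N + 1)) with hε'
  have hε'0 : 0 < ε' := by positivity
  -- differentiability
  have h1 : ∀ᶠ y in 𝓝 z, ‖f y - f z - fderiv ℝ f z (y - z)‖ ≤ ε' * ‖y - z‖ :=
    hd.hasFDerivAt.isLittleO.def hε'0
  have c1 : Tendsto (fun r : ℝ => z + r • w - (r ^ 2 / 2) • Γ) (𝓝[>] 0) (𝓝 z) := by
    have : ContinuousAt (fun r : ℝ => z + r • w - (r ^ 2 / 2) • Γ) 0 := by fun_prop
    have h2 := this.tendsto
    simp only [zero_smul, add_zero, ne_eq, OfNat.ofNat_ne_zero, not_false_eq_true, zero_pow,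
      zero_div, sub_zero] at h2
    exact h2.mono_left nhdsWithin_le_nhds
  have c2 : Tendsto (fun r : ℝ => z + r • w - (r ^ 2 / 2) • Γ - (r / 2) • Γ) (𝓝[>] 0) (𝓝 z) := by
    have : ContinuousAt (fun r : ℝ => z + r • w - (r ^ 2 / 2) • Γ - (r / 2) • Γ) 0 := by fun_prop
    have h2 := this.tendsto
    simp only [zero_smul, add_zero, ne_eq, OfNat.ofNat_ne_zero, not_false_eq_true, zero_pow,
      zero_div, sub_zero] at h2
    exact h2.mono_left nhdsWithin_le_nhds
  have c3 : Tendsto (fun r : ℝ => z + r • w) (𝓝[>] 0) (𝓝 z) := by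
    have : ContinuousAt (fun r : ℝ => z + r • w) 0 := by fun_prop
    have h2 := this.tendsto
    simp only [zero_smul, add_zero] at h2
    exact h2.mono_left nhdsWithin_le_nhds
  have hb : ball z₀ ρ ∈ 𝓝 z := isOpen_ball.mem_nhds hz
  have c4 : ∀ᶠ r in 𝓝[>] (0 : ℝ), r < min 1 (ε / (C * ‖Γ‖ ^ 2 + 1)) :=
    nhdsWithin_le_nhds (Iio_mem_nhds (lt_min one_pos (by positivity)))
  filter_upwards [c1.eventually h1, c2.eventually h1, c2.eventually hb, c3.eventually hb, c4,
    self_mem_nhdsWithin] with r g1 g2 g3 g4 g5 g6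
  have hr : 0 < r := g6
  have hr1 : r < 1 := g5.trans_le (min_le_left _ _)
  have hr2 : r * (C * ‖Γ‖ ^ 2 + 1) < ε := by
    have := g5.trans_le (min_le_right _ _)
    rwa [lt_div_iff₀ (by positivity)] at this
  set b := z + r • w - (r ^ 2 / 2) • Γ with hb'
  have h2 := hS b Γ (r / 2) (r ^ 2 / 2) (by positivity) (by positivity) g3
    (by rw [hb', sub_add_cancel]; exact g4)
  have e0 : b + (r ^ 2 / 2) • Γ = z + r • w := by rw [hb', sub_add_cancel]
  rw [e0] at h2
  -- norms
  have hr3 : r ^ 2 ≤ r := by nlinarith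
  have n1 : ‖b - z‖ ≤ r * N := by
    have : b - z = r • w - (r ^ 2 / 2) • Γ := by rw [hb']; module
    rw [this]
    refine (norm_sub_le _ _).trans ?_
    rw [norm_smul, norm_smul, Real.norm_of_nonneg hr.le, Real.norm_of_nonneg (by positivity)]
    have := norm_nonneg Γ
    have h3 : r ^ 2 / 2 * ‖Γ‖ ≤ r * ‖Γ‖ := by
      apply mul_le_mul_of_nonneg_right _ this
      linarith
    rw [hN]
    linarith
  have n2 : ‖b - (r / 2) • Γ - z‖ ≤ r * N := by
    have : b - (r / 2) • Γ - z = r • w - (r ^ 2 / 2 + r / 2) • Γ := by rw [hb']; module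
    rw [this]
    refine (norm_sub_le _ _).trans ?_
    rw [norm_smul, norm_smul, Real.norm_of_nonneg hr.le, Real.norm_of_nonneg (by positivity)]
    have := norm_nonneg Γ
    have h3 : (r ^ 2 / 2 + r / 2) * ‖Γ‖ ≤ r * ‖Γ‖ := by
      apply mul_le_mul_of_nonneg_right _ this
      linarith
    rw [hN]
    linarith
  have m1 : f b - f z - fderiv ℝ f z (b - z) ≤ ε' * (r * N) :=
    ((le_abs_self _).trans g1).trans (mul_le_mul_of_nonneg_left n1 hε'0.le)
  have m2 : -(ε' * (r * N)) ≤
      f (b - (r / 2) • Γ) - f z - fderiv ℝ f z (b - (r / 2) • Γ - z) := by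
    have := (neg_abs_le _).trans' (neg_le_neg (g2.trans (mul_le_mul_of_nonneg_left n2 hε'0.le)))
    exact this
  have e1 : fderiv ℝ f z (b - (r / 2) • Γ - z) =
      fderiv ℝ f z (b - z) - r / 2 * fderiv ℝ f z Γ := by
    have : b - (r / 2) • Γ - z = (b - z) - (r / 2) • Γ := by abel
    rw [this, map_sub, map_smul, smul_eq_mul]
  rw [e1] at m2
  have m4 : ε' * N ≤ ε / 4 := by
    rw [hε', div_mul_eq_mul_div, div_le_div_iff₀ (by positivity) (by norm_num)]
    nlinarith only [hN0, hε]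
  exact lvj_scalar hr hr1 hC hε m4 hr2 h2 m1 m2

/-- scalar: second differences of the square -/
theorem jet_sq {u : ℝ → ℝ} {α β : ℝ} (hu0 : 0 ≤ u 0) (hd : HasDerivAt u α 0)
    (hβ : ∀ η > 0, ∀ᶠ r in 𝓝[>] (0 : ℝ), u r + u (-r) ≤ 2 * u 0 + r ^ 2 * (β + η))
    {η : ℝ} (hη : 0 < η) :
    ∀ᶠ r in 𝓝[>] (0 : ℝ), u r ^ 2 / 2 + u (-r) ^ 2 / 2 - 2 * (u 0 ^ 2 / 2) ≤
      r ^ 2 * (u 0 * β + α ^ 2 + η) := by
  obtain ⟨η₁, hη₁, h1⟩ : ∃ η₁ > 0, u 0 * η₁ + ((|α| + η₁) ^ 2 - α ^ 2) ≤ η := by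
    have hc : ContinuousAt (fun x : ℝ => u 0 * x + ((|α| + x) ^ 2 - α ^ 2)) 0 := by fun_prop
    have h2 : ∀ᶠ x in 𝓝 (0 : ℝ), u 0 * x + ((|α| + x) ^ 2 - α ^ 2) < η :=
      hc.eventually_lt continuousAt_const (by simpa using hη)
    obtain ⟨x, hx1, hx2⟩ := ((h2.filter_mono (nhdsWithin_le_nhds (s := Ioi (0:ℝ)))).and
      self_mem_nhdsWithin).exists
    exact ⟨x, hx2, hx1.le⟩
  have h2 := hd.isLittleO.def hη₁
  have h3 : ∀ᶠ r in 𝓝 (0 : ℝ), |u r - u 0| ≤ (|α| + η₁) * |r| := by
    filter_upwards [h2] with r hr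
    simp only [sub_zero, smul_eq_mul, Real.norm_eq_abs] at hr
    have : |u r - u 0| ≤ |u r - u 0 - r * α| + |r * α| := by
      have := abs_add_le (u r - u 0 - r * α) (r * α)
      rwa [sub_add_cancel] at this
    rw [abs_mul] at this
    linarith
  have h4 : ∀ᶠ r in 𝓝 (0 : ℝ), |u (-r) - u 0| ≤ (|α| + η₁) * |r| := by
    have : Tendsto (fun r : ℝ => -r) (𝓝 0) (𝓝 0) := by
      have := (continuous_neg (G := ℝ)).tendsto 0
      rwa [neg_zero] at this
    filter_upwards [this.eventually h3] with r hr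
    rwa [abs_neg] at hr
  filter_upwards [nhdsWithin_le_nhds h3, nhdsWithin_le_nhds h4, hβ η₁ hη₁,
    self_mem_nhdsWithin] with r g1 g2 g3 g4
  have hr : 0 < r := g4
  rw [abs_of_pos hr] at g1 g2
  refine (sq_upper hu0 g1 g2 g3).trans ?_
  apply mul_le_mul_of_nonneg_left _ (by positivity)
  linarith

end Flat

/-- linear algebra: the norm of the gradient -/
theorem sum_sq_le_one {E : Type*} [NormedAddCommGroup E] [NormedSpace ℝ E]
    {g : E →L[ℝ] E →L[ℝ] ℝ} (hsymm : ∀ u v, g u v = g v u) (hpos : ∀ v, v ≠ 0 → 0 < g v v)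
    {ι : Type*} [Fintype ι] {w : ι → E} {k : ι → ℝ}
    (hkG : ∀ u v, ∑ l, k l * (g (w l) u * g (w l) v) = g u v) {α : E →L[ℝ] ℝ}
    (hα : ∀ v, α v ^ 2 ≤ g v v) : ∑ l, k l * α (w l) ^ 2 ≤ 1 := by
  have h1 : ∀ v, ∑ l, (k l * g (w l) v) • w l = v := by
    intro v
    rw [← sub_eq_zero]
    by_contra hne
    have h2 := hpos _ hne
    have h3 : ∀ u, g (∑ l, (k l * g (w l) v) • w l - v) u = 0 := by
      intro u
      rw [map_sub, _root_.sub_apply, map_sum, _root_.sum_apply]
      have : ∀ l, (g ((k l * g (w l) v) • w l)) u = k l * (g (w l) v * g (w l) u) := by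
        intro l
        rw [map_smul, _root_.smul_apply, smul_eq_mul]; ring
      simp only [this, hkG]
      ring
    rw [h3] at h2
    exact lt_irrefl _ h2
  set a := ∑ l, (k l * α (w l)) • w l with ha
  have h2 : ∀ v, g a v = α v := by
    intro v
    rw [ha, map_sum, _root_.sum_apply]
    conv_rhs => rw [← h1 v]
    rw [map_sum]
    refine Finset.sum_congr rfl fun l _ => ?_
    rw [map_smul, _root_.smul_apply, map_smul, smul_eq_mul, smul_eq_mul]; ring
  set s := ∑ l, k l * α (w l) ^ 2 with hs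
  have h3 : α a = s := by
    rw [ha, map_sum, hs]
    refine Finset.sum_congr rfl fun l _ => ?_
    rw [map_smul, smul_eq_mul]; ring
  have h4 := hα a
  rw [h2 a, h3] at h4
  nlinarith [sq_nonneg (s - 1)]

variable {E : Type} [NormedAddCommGroup E] [NormedSpace ℝ E] [FiniteDimensional ℝ E]
variable {M : Type} [MetricSpace M] [ChartedSpace E M]
  [RiemannianBundle (fun x : M => TangentSpace 𝓘(ℝ, E) x)]
  [IsManifold 𝓘(ℝ, E) ∞ M]
  [IsContMDiffRiemannianBundle 𝓘(ℝ, E) ∞ E (fun x : M => TangentSpace 𝓘(ℝ, E) x)]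
  [IsRiemannianManifold 𝓘(ℝ, E) M]

/-- the derivative of the distance is bounded by the metric -/
theorem fderiv_dist_sq_le (hJET : Stmt.JET) (p : M) {e : OpenPartialHomeomorph M E}
    (he : e ∈ maximalAtlas 𝓘(ℝ, E) ∞ M) {z : E} (hz : z ∈ e.target)
    (hd : DifferentiableAt ℝ (fun z => dist p (e.symm z)) z) (v : E) :
    fderiv ℝ (fun z => dist p (e.symm z)) z v ^ 2 ≤ chartG e z v v := by
  set u : E → ℝ := fun z => dist p (e.symm z) with hu
  have hG0 : 0 ≤ chartG e z v v := by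
    rcases eq_or_ne v 0 with h | h
    · simp [h]
    · exact (chartG_pos he hz v h).le
  have hkey : ∀ v : E, fderiv ℝ u z v ≤ √(chartG e z v v) := by
    intro v
    refine le_of_forall_pos_le_add fun ε hε => ?_
    obtain ⟨ε', hε', h0⟩ : ∃ ε' > 0, ε' * √(chartG e z v v) ≤ ε := by
      refine ⟨ε / (√(chartG e z v v) + 1), by positivity, ?_⟩
      rw [div_mul_eq_mul_div, div_le_iff₀ (by positivity)]
      have := Real.sqrt_nonneg (chartG e z v v)
      nlinarith
    have h1 := (hJET E M).2.2.1 e he z hz ε' hε'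
    have h2 : HasDerivAt (fun r : ℝ => u (z + r • v)) (fderiv ℝ u z v) 0 := by
      have h3 : HasDerivAt (fun r : ℝ => z + r • v) v 0 := by
        have := ((hasDerivAt_id (0:ℝ)).smul_const v).const_add z
        simpa using this
      have h4 : HasFDerivAt u (fderiv ℝ u z) (z + (0:ℝ) • v) := by
        simpa using hd.hasFDerivAt
      exact h4.comp_hasDerivAt (0:ℝ) h3
    have h3 : Tendsto (fun r : ℝ => r⁻¹ * (u (z + r • v) - u z)) (𝓝[>] 0)
        (𝓝 (fderiv ℝ u z v)) := by
      have := h2.tendsto_slope_zero_right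
      simpa [smul_eq_mul] using this
    have h4 : Tendsto (fun r : ℝ => (z + r • v, z)) (𝓝[>] 0) (𝓝 (z, z)) := by
      have : ContinuousAt (fun r : ℝ => (z + r • v, z)) 0 := by fun_prop
      have h5 := this.tendsto
      simp only [zero_smul, add_zero] at h5
      exact h5.mono_left nhdsWithin_le_nhds
    refine le_of_tendsto h3 ?_
    filter_upwards [h4.eventually h1, self_mem_nhdsWithin] with r hr hr0
    have hr0' : 0 < r := hr0
    simp only [add_sub_cancel_left] at hr
    have h5 : chartG e z (r • v) (r • v) = r ^ 2 * chartG e z v v := by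
      simp only [map_smul, _root_.smul_apply, smul_eq_mul]; ring
    rw [h5, Real.sqrt_mul (by positivity), Real.sqrt_sq hr0'.le] at hr
    have h6 : u (z + r • v) - u z ≤ dist (e.symm (z + r • v)) (e.symm z) := by
      simp only [hu]
      have := dist_triangle p (e.symm z) (e.symm (z + r • v))
      rw [dist_comm (e.symm z)] at this
      linarith
    have h7 : r⁻¹ * (u (z + r • v) - u z) ≤ r⁻¹ * ((1 + ε') * (r * √(chartG e z v v))) :=
      mul_le_mul_of_nonneg_left (h6.trans hr) (by positivity)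
    have h8 : r⁻¹ * ((1 + ε') * (r * √(chartG e z v v))) = (1 + ε') * √(chartG e z v v) := by
      field_simp
    rw [h8] at h7
    linarith
  have h1 := hkey v
  have h2 := hkey (-v)
  simp only [map_neg, _root_.neg_apply, neg_neg] at h2
  have h3 := Real.sq_sqrt hG0
  rw [← h3]
  exact sq_le_sq' (by linarith) h1

/-- symmetrization of a bilinear form -/
def symB (T : E →ₗ[ℝ] E →ₗ[ℝ] ℝ) : E →L[ℝ] E →L[ℝ] ℝ :=
  LinearMap.toContinuousLinearMap ((LinearMap.toContinuousLinearMap (𝕜 := ℝ) (E := E)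
    (F' := ℝ)).toLinearMap ∘ₗ ((1 / 2 : ℝ) • (T + T.flip)))

theorem symB_apply (T : E →ₗ[ℝ] E →ₗ[ℝ] ℝ) (v w : E) : symB T v w = (T v w + T w v) / 2 := by
  simp only [symB, LinearMap.coe_toContinuousLinearMap', LinearMap.comp_apply,
    LinearEquiv.coe_coe, LinearMap.smul_apply, LinearMap.add_apply, LinearMap.flip_apply,
    smul_eq_mul]
  ring

theorem symB_self (T : E →ₗ[ℝ] E →ₗ[ℝ] ℝ) (v : E) : symB T v v = T v v := by
  rw [symB_apply]; ring

/-- the trace of a metric with respect to itself -/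
theorem sum_self_eq {g : E →L[ℝ] E →L[ℝ] ℝ} (hsymm : ∀ u v, g u v = g v u)
    (hpos : ∀ v, v ≠ 0 → 0 < g v v) {ι : Type*} [Fintype ι] {w : ι → E} {k : ι → ℝ}
    (hkG : ∀ u v, ∑ l, k l * (g (w l) u * g (w l) v) = g u v) :
    ∑ l, k l * g (w l) (w l) = Module.finrank ℝ E := by
  obtain ⟨b, hb⟩ := H973.exists_onb g hsymm hpos
  have h1 : ∀ l, g (w l) (w l) = ∑ i, g (w l) (b i) * g (w l) (b i) := by
    intro l
    rw [← H973.onb_parseval hb (w l)]
    refine Finset.sum_congr rfl fun i _ => ?_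
    rw [hsymm (b i), sq]
  calc ∑ l, k l * g (w l) (w l) = ∑ i, ∑ l, k l * (g (w l) (b i) * g (w l) (b i)) := by
        rw [Finset.sum_comm]
        refine Finset.sum_congr rfl fun l _ => ?_
        rw [h1 l, Finset.mul_sum]
    _ = ∑ i : Fin (Module.finrank ℝ E), (1 : ℝ) := by
        refine Finset.sum_congr rfl fun i _ => ?_
        rw [hkG, hb i i, if_pos rfl]
    _ = _ := by simp

/-- The pointwise Laplacian comparison along lines: quadratic form version. -/
theorem line_pt (hJET : Stmt.JET) (hGEO : Stmt.GEO) (hSTEP : Stmt.STEP) {K : ℝ}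
    (hK : 0 ≤ K) (hR : RicHyp E M K) (p : M) {e : OpenPartialHomeomorph M E}
    (he : e ∈ maximalAtlas 𝓘(ℝ, E) ∞ M) {z₀ : E} {C ρ : ℝ} (hC : 0 ≤ C)
    (hsub : ball z₀ ρ ⊆ e.target) (hS : SemiC (hsq p e) C (ball z₀ ρ))
    {z : E} (hz : z ∈ ball z₀ ρ) (hd : DifferentiableAt ℝ (hsq p e) z) :
    ∃ B : E →L[ℝ] E →L[ℝ] ℝ, (∀ v w, B v w = B w v) ∧
      (∀ v : E, ∀ η > 0, ∀ᶠ r in 𝓝[>] (0 : ℝ),
        hsq p e (z + r • v) + hsq p e (z - r • v) - 2 * hsq p e z ≤ r ^ 2 * (B v v + η)) ∧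
      ∀ (ι : Type) [Fintype ι] (w : ι → E) (k : ι → ℝ),
        (∀ u v, ∑ l, k l * (chartG e z (w l) u * chartG e z (w l) v) = chartG e z u v) →
        ∑ l, k l * (B (w l) (w l) - fderiv ℝ (hsq p e) z (chris (chartG e) z (w l) (w l))) ≤
          Module.finrank ℝ E + K * dist p (e.symm z) ^ 2 := by
  have hzT : z ∈ e.target := hsub hz
  set f := hsq p e with hf
  set u : E → ℝ := fun z => dist p (e.symm z) with hu
  set u₀ := dist p (e.symm z) with hu₀
  have hu00 : 0 ≤ u₀ := dist_nonneg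
  rcases hu00.eq_or_lt with hu0 | hu0
  · -- at the point itself
    have hfz : f z = 0 := by simp only [hf, hsq, ← hu₀, ← hu0]; simp
    have hfd : fderiv ℝ f z = 0 := by
      apply IsLocalMin.fderiv_eq_zero
      filter_upwards with y
      rw [hfz]
      exact hsq_nonneg p e y
    have hpz : p = e.symm z := dist_eq_zero.1 hu0.symm
    refine ⟨chartG e z, chartG_symm e z, ?_, ?_⟩
    · intro v η hη
      have hG0 : 0 ≤ chartG e z v v := by
        rcases eq_or_ne v 0 with h | h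
        · simp [h]
        · exact (chartG_pos he hzT v h).le
      obtain ⟨ε, hε, h0⟩ : ∃ ε > 0, (1 + ε) ^ 2 * chartG e z v v ≤ chartG e z v v + η := by
        have hc : ContinuousAt (fun x : ℝ => (1 + x) ^ 2 * chartG e z v v) 0 := by fun_prop
        have h2 : ∀ᶠ x in 𝓝 (0 : ℝ), (1 + x) ^ 2 * chartG e z v v < chartG e z v v + η :=
          hc.eventually_lt continuousAt_const (by simpa using hη)
        obtain ⟨x, hx1, hx2⟩ := ((h2.filter_mono (nhdsWithin_le_nhds (s := Ioi (0:ℝ)))).and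
          self_mem_nhdsWithin).exists
        exact ⟨x, hx2, hx1.le⟩
      have h1 := (hJET E M).2.2.1 e he z hzT ε hε
      have key : ∀ v' : E, chartG e z v' v' = chartG e z v v →
          ∀ᶠ r in 𝓝[>] (0 : ℝ), f (z + r • v') ≤ ((1 + ε) * (r * √(chartG e z v v))) ^ 2 / 2 := by
        intro v' hv'
        have h4 : Tendsto (fun r : ℝ => (z + r • v', z)) (𝓝[>] 0) (𝓝 (z, z)) := by
          have : ContinuousAt (fun r : ℝ => (z + r • v', z)) 0 := by fun_prop
          have h5 := this.tendsto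
          simp only [zero_smul, add_zero] at h5
          exact h5.mono_left nhdsWithin_le_nhds
        filter_upwards [h4.eventually h1, self_mem_nhdsWithin] with r hr hr0
        have hr0' : 0 < r := hr0
        simp only [add_sub_cancel_left] at hr
        have h5 : chartG e z (r • v') (r • v') = r ^ 2 * chartG e z v v := by
          simp only [map_smul, _root_.smul_apply, smul_eq_mul, hv']; ring
        rw [h5, Real.sqrt_mul (by positivity), Real.sqrt_sq hr0'.le, dist_comm, ← hpz] at hr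
        simp only [hf, hsq]
        gcongr
      have k1 := key v rfl
      have k2 := key (-v) (by simp)
      filter_upwards [k1, k2] with r g1 g2
      rw [smul_neg, ← sub_eq_add_neg] at g2
      have e1 : ((1 + ε) * (r * √(chartG e z v v))) ^ 2 =
          r ^ 2 * ((1 + ε) ^ 2 * chartG e z v v) := by
        rw [mul_pow, mul_pow, Real.sq_sqrt hG0]; ring
      rw [e1] at g1 g2
      rw [hfz]
      have := mul_le_mul_of_nonneg_left h0 (sq_nonneg r)
      linarith
    · intro ι _ w k hk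
      rw [hfd]
      simp only [_root_.zero_apply, sub_zero]
      rw [sum_self_eq (chartG_symm e z) (chartG_pos he hzT) hk, ← hu0]
      simp
  · have hud : DifferentiableAt ℝ u z := by
      have h1 : u = fun y => √(2 * f y) := by
        funext y
        simp only [hu, hf, hsq]
        rw [show 2 * (dist p (e.symm y) ^ 2 / 2) = dist p (e.symm y) ^ 2 by ring,
          Real.sqrt_sq dist_nonneg]
      rw [h1]
      refine DifferentiableAt.sqrt (hd.const_mul 2) ?_
      simp only [hf, hsq, ← hu₀]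
      positivity
    obtain ⟨c, hc, hc0, hcℓ⟩ := hR.geod p (e.symm z)
    rw [← hu₀] at hc hcℓ
    have hx : c u₀ ∈ e.source := by rw [hcℓ]; exact e.map_target hzT
    have hexy : e (c u₀) = z := by rw [hcℓ]; exact e.right_inv hzT
    have := hR.proper
    obtain ⟨κ, hκ, hsec⟩ := sec_lower_compact (E := E) (isCompact_closedBall p u₀)
    obtain ⟨B, hB1, -, hB3⟩ := lap_point hJET hGEO hSTEP hu0 hc hK (κ := κ)
      (fun t ht e' he' hct v hv => hR.ric e' he' _ (e'.map_source hct) v hv)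
      (fun t ht e' he' hct a b => hsec (c t) (by
        rw [mem_closedBall, dist_comm, ← hc0, hc 0 ⟨le_rfl, hu0.le⟩ t ⟨ht.1.le, ht.2.le⟩,
          zero_sub, abs_neg, abs_of_pos ht.1]
        exact ht.2.le) e' he' hct a b) he hx
    rw [hc0, hexy] at hB1
    rw [hexy] at hB3
    let T : E →ₗ[ℝ] E →ₗ[ℝ] ℝ := LinearMap.mk₂ ℝ
      (fun v w => u₀ * B v w + fderiv ℝ u z v * fderiv ℝ u z w +
        fderiv ℝ f z (chris (chartG e) z v w))
      (by intro a b c; simp only [map_add, LinearMap.add_apply, _root_.add_apply]; ring)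
      (by intro r a c; simp only [map_smul, LinearMap.smul_apply, _root_.smul_apply,
            smul_eq_mul]; ring)
      (by intro a b c; simp only [map_add, LinearMap.add_apply, _root_.add_apply]; ring)
      (by intro r a c; simp only [map_smul, LinearMap.smul_apply, _root_.smul_apply,
            smul_eq_mul]; ring)
    have hT : ∀ v, T v v = u₀ * B v v + fderiv ℝ u z v ^ 2 +
        fderiv ℝ f z (chris (chartG e) z v v) := by
      intro v
      change u₀ * B v v + fderiv ℝ u z v * fderiv ℝ u z v + _ = _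
      ring
    refine ⟨symB T, fun v w => by rw [symB_apply, symB_apply, add_comm], ?_, ?_⟩
    · intro v η hη
      rw [symB_self, hT]
      set Γ := chris (chartG e) z v v with hΓ
      have hη₁ : 0 < η / 3 := by positivity
      have h1 := line_vs_jet hC hS hz hd v Γ hη₁
      have h2 := line_vs_jet hC hS hz hd (-v) Γ hη₁
      set J : ℝ → E := fun r => z + r • v - (r ^ 2 / 2) • Γ with hJ
      have hJ0 : J 0 = z := by simp [hJ]
      have hJd : HasDerivAt J v 0 := by
        have a1 : HasDerivAt (fun r : ℝ => z + r • v) v 0 := by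
          have := ((hasDerivAt_id (0:ℝ)).smul_const v).const_add z
          simpa using this
        have a2 : HasDerivAt (fun r : ℝ => (r ^ 2 / 2) • Γ) ((0:ℝ) • Γ) 0 := by
          have := (((hasDerivAt_id (0:ℝ)).pow 2).div_const 2).smul_const Γ
          simpa using this
        have := a1.sub a2
        rw [zero_smul, sub_zero] at this
        exact this
      have h3 : HasDerivAt (fun r => u (J r)) (fderiv ℝ u z v) 0 := by
        have : HasFDerivAt u (fderiv ℝ u z) (J 0) := by rw [hJ0]; exact hud.hasFDerivAt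
        exact this.comp_hasDerivAt (0:ℝ) hJd
      have h4 := jet_sq (u := fun r => u (J r)) (α := fderiv ℝ u z v) (β := B v v)
        (by exact dist_nonneg) h3 (by
          intro η' hη'
          have h5 := hB1 v _ (isJet_line e hzT v) η' hη'
          filter_upwards [h5] with r hr
          have : u (J 0) = u₀ := by rw [hJ0]
          rw [this]
          exact hr) hη₁
      filter_upwards [h1, h2, h4] with r g1 g2 g3
      have e1 : z + r • -v = z - r • v := by rw [smul_neg, sub_eq_add_neg]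
      rw [e1] at g2
      have e2 : z - r • v - (r ^ 2 / 2) • Γ = J (-r) := by
        simp only [hJ, neg_smul, even_two, Even.neg_pow, ← sub_eq_add_neg]
      rw [e2] at g2
      have e3 : z + r • v - (r ^ 2 / 2) • Γ = J r := rfl
      rw [e3] at g1
      have e4 : ∀ y, f y = u y ^ 2 / 2 := fun y => rfl
      rw [← e4, ← e4, ← e4, hJ0] at g3
      have e5 : u z = u₀ := rfl
      rw [e5] at g3
      linarith
    · intro ι _ w k hk
      have htr := hB3 ι w k hk
      have hα := sum_sq_le_one (g := chartG e z) (chartG_symm e z) (chartG_pos he hzT) hk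
        (α := fderiv ℝ u z) (fun v => fderiv_dist_sq_le hJET p he hzT hud v)
      have h3 : u₀ * (∑ l, k l * B (w l) (w l)) ≤ (Module.finrank ℝ E - 1) + K * u₀ ^ 2 := by
        have := mul_le_mul_of_nonneg_left htr hu0.le
        have e1 : u₀ * ((Module.finrank ℝ E - 1) / u₀ + K * u₀) =
            (Module.finrank ℝ E - 1) + K * u₀ ^ 2 := by field_simp
        rwa [e1] at this
      have h4 : ∑ l, k l * (symB T (w l) (w l) -
          fderiv ℝ f z (chris (chartG e) z (w l) (w l))) =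
          u₀ * (∑ l, k l * B (w l) (w l)) + ∑ l, k l * fderiv ℝ u z (w l) ^ 2 := by
        rw [Finset.mul_sum, ← Finset.sum_add_distrib]
        refine Finset.sum_congr rfl fun l _ => ?_
        rw [symB_self, hT]
        ring
      rw [h4]
      linarith

/-- The pointwise Laplacian comparison along lines. -/
theorem line_est (hJET : Stmt.JET) (hGEO : Stmt.GEO) (hSTEP : Stmt.STEP) {K : ℝ}
    (hK : 0 ≤ K) (hR : RicHyp E M K) (p : M) {e : OpenPartialHomeomorph M E}
    (he : e ∈ maximalAtlas 𝓘(ℝ, E) ∞ M) {z₀ : E} {C ρ : ℝ} (hC : 0 ≤ C)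
    (hsub : ball z₀ ρ ⊆ e.target) (hS : SemiC (hsq p e) C (ball z₀ ρ))
    {z : E} (hz : z ∈ ball z₀ ρ) (hd : DifferentiableAt ℝ (hsq p e) z)
    {ι : Type} [Fintype ι] (w : ι → E) (k : ι → ℝ) (hk : ∀ l, 0 ≤ k l)
    (hkG : ∀ u v, ∑ l, k l * (chartG e z (w l) u * chartG e z (w l) v) = chartG e z u v)
    {η : ℝ} (hη : 0 < η) :
    ∀ᶠ r in 𝓝[>] (0 : ℝ),
      ∑ l, k l * (hsq p e (z + r • w l) + hsq p e (z - r • w l) - 2 * hsq p e z) ≤
        r ^ 2 * (Module.finrank ℝ E + K * dist p (e.symm z) ^ 2 +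
          ∑ l, k l * fderiv ℝ (hsq p e) z (chris (chartG e) z (w l) (w l)) + η) := by
  obtain ⟨B, -, hB1, hB2⟩ := line_pt hJET hGEO hSTEP hK hR p he hC hsub hS hz hd
  have h0 := hB2 ι w k hkG
  set S := ∑ l, k l with hSk
  have hS0 : 0 ≤ S := Finset.sum_nonneg fun l _ => hk l
  obtain ⟨η₁, hη₁, hη₂⟩ : ∃ η₁ > 0, S * η₁ ≤ η := by
    refine ⟨η / (S + 1), by positivity, ?_⟩
    rw [mul_div_assoc', div_le_iff₀ (by positivity)]
    nlinarith
  have hall : ∀ᶠ r in 𝓝[>] (0 : ℝ), ∀ l, hsq p e (z + r • w l) + hsq p e (z - r • w l) -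
      2 * hsq p e z ≤ r ^ 2 * (B (w l) (w l) + η₁) :=
    eventually_all.2 fun l => hB1 (w l) η₁ hη₁
  filter_upwards [hall, self_mem_nhdsWithin] with r hr hr0
  have h1 : ∑ l, k l * (hsq p e (z + r • w l) + hsq p e (z - r • w l) - 2 * hsq p e z) ≤
      ∑ l, k l * (r ^ 2 * (B (w l) (w l) + η₁)) :=
    Finset.sum_le_sum fun l _ => mul_le_mul_of_nonneg_left (hr l) (hk l)
  refine h1.trans ?_
  have h2 : ∑ l, k l * (r ^ 2 * (B (w l) (w l) + η₁)) =
      r ^ 2 * (∑ l, k l * (B (w l) (w l) -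
        fderiv ℝ (hsq p e) z (chris (chartG e) z (w l) (w l))) +
        ∑ l, k l * fderiv ℝ (hsq p e) z (chris (chartG e) z (w l) (w l)) + S * η₁) := by
    rw [hSk, Finset.sum_mul, ← Finset.sum_add_distrib, ← Finset.sum_add_distrib, Finset.mul_sum]
    refine Finset.sum_congr rfl fun l _ => ?_
    ring
  rw [h2]
  apply mul_le_mul_of_nonneg_left _ (by positivity)
  linarith

end Vale.Agent.P210.R2.H265
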