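import Vale.Agent.P210.R2.H53.RDefs
import Vale.Agent.P210.R2.H973.RicA

/-!
# LAP, part E: decomposition of the inverse metric with constant vectors, density
-/

open scoped ContDiff Topology
open Set Metric Filter

set_option maxSynthPendingDepth 3
set_option linter.all false

noncomputable section

namespace Vale.Agent.P210.R2.H265

open Vale.Agent.P210.R2.H53

variable {E : Type} [NormedAddCommGroup E] [NormedSpace ℝ E] [FiniteDimensional ℝ E]
  {G : E → E →L[ℝ] E →L[ℝ] ℝ} {U : Set E}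

theorem contDiffOn_inverseG (h : LocalRiem G U) :
    ContDiffOn ℝ ∞ (fun z => ContinuousLinearMap.inverse (G z)) U := by
  have : CompleteSpace E := FiniteDimensional.complete ℝ E
  intro z hz
  obtain ⟨T, hT⟩ := isInvertible_of_pos (h.pos z hz)
  have h1 : ContDiffAt ℝ ∞ ContinuousLinearMap.inverse (G z) := by
    rw [← hT]; exact contDiffAt_map_inverse T
  exact (h1.comp z (h.smooth.contDiffAt (h.isOpen.mem_nhds hz))).contDiffWithinAt

theorem apply_inverseG {z : E} (hpos : ∀ v, v ≠ 0 → 0 < G z v v) (β : E →L[ℝ] ℝ) :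
    G z (ContinuousLinearMap.inverse (G z) β) = β := by
  obtain ⟨T, hT⟩ := isInvertible_of_pos hpos
  rw [← hT, ContinuousLinearMap.inverse_equiv]
  simp

theorem inverseG_apply {z : E} (hpos : ∀ v, v ≠ 0 → 0 < G z v v) (v : E) :
    ContinuousLinearMap.inverse (G z) (G z v) = v := by
  obtain ⟨T, hT⟩ := isInvertible_of_pos hpos
  rw [← hT, ContinuousLinearMap.inverse_equiv]
  simp

/-- coordinates as continuous linear maps -/
def crd (b : Module.Basis (Fin (Module.finrank ℝ E)) ℝ E) (i : Fin (Module.finrank ℝ E)) :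
    E →L[ℝ] ℝ := LinearMap.toContinuousLinearMap (b.coord i)

theorem crd_apply (b : Module.Basis (Fin (Module.finrank ℝ E)) ℝ E)
    (i : Fin (Module.finrank ℝ E)) (v : E) : crd b i v = b.repr v i := rfl

theorem sum_crd (b : Module.Basis (Fin (Module.finrank ℝ E)) ℝ E) (v : E) :
    ∑ i, crd b i v • b i = v := by
  simp only [crd_apply]
  exact b.sum_repr v

/-- Gram coefficients of the inverse metric -/
def aij (G : E → E →L[ℝ] E →L[ℝ] ℝ) (b : Module.Basis (Fin (Module.finrank ℝ E)) ℝ E)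
    (i j : Fin (Module.finrank ℝ E)) (z : E) : ℝ :=
  crd b i (ContinuousLinearMap.inverse (G z) (crd b j))

theorem aij_sum {z : E} (hsymm : ∀ u v, G z u v = G z v u) (hpos : ∀ v, v ≠ 0 → 0 < G z v v)
    (b : Module.Basis (Fin (Module.finrank ℝ E)) ℝ E) (u v : E) :
    ∑ i, ∑ j, aij G b i j z * (G z (b i) u * G z (b j) v) = G z u v := by
  rw [Finset.sum_comm]
  have h1 : ∀ j, ∑ i, aij G b i j z * (G z (b i) u * G z (b j) v) =
      crd b j u * G z (b j) v := by
    intro j
    set x := ContinuousLinearMap.inverse (G z) (crd b j) with hx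
    have h2 : G z x u = crd b j u := by rw [hx, apply_inverseG hpos]
    have h3 : ∑ i, aij G b i j z * (G z (b i) u * G z (b j) v) =
        (∑ i, crd b i x * G z (b i) u) * G z (b j) v := by
      rw [Finset.sum_mul]
      refine Finset.sum_congr rfl fun i _ => ?_
      rw [aij, ← hx]; ring
    rw [h3]
    congr 1
    rw [← h2]
    conv_rhs => rw [← sum_crd b x]
    rw [map_sum, ContinuousLinearMap.sum_apply]
    refine Finset.sum_congr rfl fun i _ => ?_
    rw [map_smul, _root_.smul_apply, smul_eq_mul]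
  rw [Finset.sum_congr rfl fun j _ => h1 j]
  conv_rhs => rw [← sum_crd b u]
  rw [map_sum, ContinuousLinearMap.sum_apply]
  refine Finset.sum_congr rfl fun i _ => ?_
  rw [map_smul, _root_.smul_apply, smul_eq_mul]

theorem aij_onb {z : E} (hpos : ∀ v, v ≠ 0 → 0 < G z v v)
    (hsymm : ∀ u v, G z u v = G z v u)
    {b : Module.Basis (Fin (Module.finrank ℝ E)) ℝ E}
    (hb : ∀ i j, G z (b i) (b j) = if i = j then 1 else 0) (i j : Fin (Module.finrank ℝ E)) :
    aij G b i j z = if i = j then 1 else 0 := by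
  have h1 : G z (b j) = crd b j := by
    ext v
    conv_lhs => rw [← sum_crd b v]
    rw [map_sum]
    simp only [map_smul, hb j _, smul_eq_mul, mul_ite, mul_one, mul_zero]
    simp
  rw [aij, ← h1, inverseG_apply hpos, crd_apply]
  simp [Finsupp.single_apply, eq_comm]

theorem contDiffOn_aij (h : LocalRiem G U) (b : Module.Basis (Fin (Module.finrank ℝ E)) ℝ E)
    (i j : Fin (Module.finrank ℝ E)) : ContDiffOn ℝ ∞ (aij G b i j) U := by
  unfold aij
  exact (crd b i).contDiff.comp_contDiffOn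
    ((contDiffOn_inverseG h).clm_apply contDiffOn_const)

/-- the index set of the decomposition -/
abbrev DI (E : Type) [NormedAddCommGroup E] [NormedSpace ℝ E] : Type :=
  (Fin (Module.finrank ℝ E) × Fin (Module.finrank ℝ E)) × Bool

/-- the vectors -/
def dw (b : Module.Basis (Fin (Module.finrank ℝ E)) ℝ E) (l : DI E) : E :=
  if l.2 then b l.1.1 + b l.1.2 else b l.1.1 - b l.1.2

/-- the coefficients -/
def dk (G : E → E →L[ℝ] E →L[ℝ] ℝ) (b : Module.Basis (Fin (Module.finrank ℝ E)) ℝ E)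
    (l : DI E) (z : E) : ℝ :=
  if l.1.1 = l.1.2 then
    (if l.2 then (aij G b l.1.1 l.1.2 z + 1 / (2 * Module.finrank ℝ E) - 1 / 2) / 4 else 0)
  else (if l.2 then (1 / (2 * Module.finrank ℝ E) + aij G b l.1.1 l.1.2 z) / 4
    else (1 / (2 * Module.finrank ℝ E) - aij G b l.1.1 l.1.2 z) / 4)

theorem contDiffOn_dk (h : LocalRiem G U) (b : Module.Basis (Fin (Module.finrank ℝ E)) ℝ E)
    (l : DI E) : ContDiffOn ℝ ∞ (dk G b l) U := by
  unfold dk
  have h1 := contDiffOn_aij h b l.1.1 l.1.2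
  split_ifs
  · exact ((h1.add contDiffOn_const).sub contDiffOn_const).div_const 4
  · exact contDiffOn_const
  · exact (contDiffOn_const.add h1).div_const 4
  · exact (contDiffOn_const.sub h1).div_const 4

theorem dk_sum {z : E} (hsymm : ∀ u v, G z u v = G z v u) (hpos : ∀ v, v ≠ 0 → 0 < G z v v)
    (hn : 1 ≤ Module.finrank ℝ E)
    (b : Module.Basis (Fin (Module.finrank ℝ E)) ℝ E) (u v : E) :
    ∑ l, dk G b l z * (G z (dw b l) u * G z (dw b l) v) = G z u v := by
  have hn0 : (Module.finrank ℝ E : ℝ) ≠ 0 := by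
    have : (1 : ℝ) ≤ Module.finrank ℝ E := by exact_mod_cast hn
    linarith
  obtain ⟨x, hx⟩ : ∃ x : Fin (Module.finrank ℝ E) → ℝ, x = fun i => G z (b i) u := ⟨_, rfl⟩
  obtain ⟨y, hy⟩ : ∃ y : Fin (Module.finrank ℝ E) → ℝ, y = fun i => G z (b i) v := ⟨_, rfl⟩
  obtain ⟨s, hs⟩ : ∃ s : ℝ, s = 1 / (2 * Module.finrank ℝ E) := ⟨_, rfl⟩
  have hx' : ∀ i, G z (b i) u = x i := fun i => by rw [hx]
  have hy' : ∀ i, G z (b i) v = y i := fun i => by rw [hy]
  have hsn : s * Module.finrank ℝ E = 1 / 2 := by rw [hs]; field_simp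
  have h1 : ∀ i j : Fin (Module.finrank ℝ E), ∑ t : Bool, dk G b ((i, j), t) z *
      (G z (dw b ((i, j), t)) u * G z (dw b ((i, j), t)) v) =
      s / 2 * (x i * y i + x j * y j) + aij G b i j z / 2 * (x i * y j + x j * y i) -
        (if i = j then x i * y i / 2 else 0) := by
    intro i j
    rw [Fintype.sum_bool]
    by_cases hij : i = j
    · subst hij
      simp only [dk, dw, if_true, Bool.false_eq_true, if_false, map_add, map_sub,
        _root_.add_apply, _root_.sub_apply, hx', hy', ← hs]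
      ring
    · simp only [dk, dw, hij, if_true, Bool.false_eq_true, if_false, map_add, map_sub,
        _root_.add_apply, _root_.sub_apply, hx', hy', ← hs]
      ring
  have h2 : ∑ l : DI E, dk G b l z * (G z (dw b l) u * G z (dw b l) v) =
      ∑ i : Fin (Module.finrank ℝ E), ∑ j : Fin (Module.finrank ℝ E),
      ∑ t : Bool, dk G b ((i, j), t) z *
      (G z (dw b ((i, j), t)) u * G z (dw b ((i, j), t)) v) := by
    rw [Fintype.sum_prod_type, Fintype.sum_prod_type]
  rw [h2]
  simp only [h1, Finset.sum_sub_distrib, Finset.sum_add_distrib]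
  have e1 : ∑ i : Fin (Module.finrank ℝ E), ∑ j : Fin (Module.finrank ℝ E),
      s / 2 * (x i * y i + x j * y j) = ∑ i, x i * y i / 2 := by
    have : ∀ i : Fin (Module.finrank ℝ E), ∑ j : Fin (Module.finrank ℝ E),
        s / 2 * (x i * y i + x j * y j) =
        s / 2 * Module.finrank ℝ E * (x i * y i) + s / 2 * ∑ j, x j * y j := by
      intro i
      rw [← Finset.mul_sum, Finset.sum_add_distrib]
      simp only [Finset.sum_const, Finset.card_univ, Fintype.card_fin, nsmul_eq_mul]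
      ring
    simp only [this, Finset.sum_add_distrib, ← Finset.mul_sum]
    simp only [Finset.sum_const, Finset.card_univ, Fintype.card_fin, nsmul_eq_mul]
    rw [← Finset.sum_div]
    linear_combination (∑ j, x j * y j) * hsn
  have e2 : ∑ i : Fin (Module.finrank ℝ E), ∑ j : Fin (Module.finrank ℝ E),
      (if i = j then x i * y i / 2 else 0) = ∑ i, x i * y i / 2 := by simp
  have e3 : ∑ i : Fin (Module.finrank ℝ E), ∑ j : Fin (Module.finrank ℝ E),
      aij G b i j z / 2 * (x i * y j + x j * y i) = G z u v := by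
    have f1 := aij_sum hsymm hpos b u v
    have f2 := aij_sum hsymm hpos b v u
    rw [hsymm v u] at f2
    have f3 : ∑ i : Fin (Module.finrank ℝ E), ∑ j : Fin (Module.finrank ℝ E),
        aij G b i j z / 2 * (x i * y j + x j * y i) =
        (∑ i, ∑ j, aij G b i j z * (G z (b i) u * G z (b j) v)) / 2 +
        (∑ i, ∑ j, aij G b i j z * (G z (b i) v * G z (b j) u)) / 2 := by
      rw [Finset.sum_div, Finset.sum_div, ← Finset.sum_add_distrib]
      refine Finset.sum_congr rfl fun i _ => ?_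
      rw [Finset.sum_div, Finset.sum_div, ← Finset.sum_add_distrib]
      refine Finset.sum_congr rfl fun j _ => ?_
      rw [hx', hx', hy', hy']
      ring
    rw [f3, f1, f2]; ring
  rw [e1, e2, e3]
  ring

/-- Decomposition of the inverse metric near a point, with constant vectors and smooth
nonnegative coefficients. -/
theorem exists_decomp (h : LocalRiem G U) {z₀ : E} (hz₀ : z₀ ∈ U)
    (hn : 1 ≤ Module.finrank ℝ E) :
    ∃ (w : DI E → E) (k : DI E → E → ℝ) (δ : ℝ), 0 < δ ∧ ball z₀ δ ⊆ U ∧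
      (∀ l, ContDiffOn ℝ ∞ (k l) (ball z₀ δ)) ∧ (∀ l, ∀ z ∈ ball z₀ δ, 0 ≤ k l z) ∧
      ∀ z ∈ ball z₀ δ, ∀ u v, ∑ l, k l z * (G z (w l) u * G z (w l) v) = G z u v := by
  obtain ⟨b, hb⟩ := H973.exists_onb (G z₀) (h.symm z₀ hz₀) (h.pos z₀ hz₀)
  have hn1 : (1 : ℝ) ≤ Module.finrank ℝ E := by exact_mod_cast hn
  have hpos0 : (0 : ℝ) < 1 / (2 * Module.finrank ℝ E) := by positivity
  have hk0 : ∀ l : DI E, ∀ᶠ z in 𝓝 z₀, 0 ≤ dk G b l z := by
    intro l
    have hc : ContinuousAt (aij G b l.1.1 l.1.2) z₀ :=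
      ((contDiffOn_aij h b l.1.1 l.1.2).contDiffAt (h.isOpen.mem_nhds hz₀)).continuousAt
    have h0 := aij_onb (h.pos z₀ hz₀) (h.symm z₀ hz₀) hb l.1.1 l.1.2
    by_cases hl : l.1.1 = l.1.2
    · rw [if_pos hl] at h0
      have : ∀ᶠ z in 𝓝 z₀, 1 / 2 < aij G b l.1.1 l.1.2 z :=
        hc.eventually_const_lt (by rw [h0]; norm_num)
      filter_upwards [this] with z hz
      unfold dk
      rw [if_pos hl]
      split_ifs
      · linarith
      · exact le_rfl
    · rw [if_neg hl] at h0
      have h1 : ∀ᶠ z in 𝓝 z₀, aij G b l.1.1 l.1.2 z < 1 / (2 * Module.finrank ℝ E) :=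
        hc.eventually_lt_const (by rw [h0]; exact hpos0)
      have h2 : ∀ᶠ z in 𝓝 z₀, -(1 / (2 * Module.finrank ℝ E) : ℝ) < aij G b l.1.1 l.1.2 z :=
        hc.eventually_const_lt (by rw [h0]; linarith)
      filter_upwards [h1, h2] with z hz1 hz2
      unfold dk
      rw [if_neg hl]
      split_ifs
      · linarith
      · linarith
  obtain ⟨δ₁, hδ₁, h1⟩ := Metric.eventually_nhds_iff_ball.1 (eventually_all.2 hk0)
  obtain ⟨δ₂, hδ₂, h2⟩ := Metric.isOpen_iff.1 h.isOpen z₀ hz₀
  have hb1 : ball z₀ (min δ₁ δ₂) ⊆ ball z₀ δ₁ := ball_subset_ball (min_le_left _ _)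
  have hb2 : ball z₀ (min δ₁ δ₂) ⊆ U := (ball_subset_ball (min_le_right _ _)).trans h2
  refine ⟨dw b, dk G b, min δ₁ δ₂, lt_min hδ₁ hδ₂, hb2,
    fun l => (contDiffOn_dk h b l).mono hb2, fun l z hz => h1 z (hb1 hz) l, ?_⟩
  intro z hz u v
  exact dk_sum (h.symm z (hb2 hz)) (h.pos z (hb2 hz)) hn b u v

end Vale.Agent.P210.R2.H265
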