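import Vale.Agent.P210.R2.H265.LapE

/-!
# LAP, part F: the density and its derivative, the divergence identity
-/

open scoped ContDiff Topology Matrix
open Set Metric Filter

set_option maxSynthPendingDepth 3
set_option linter.all false

noncomputable section

namespace Vale.Agent.P210.R2.H265

open Vale.Agent.P210.R2.H53

variable {E : Type} [NormedAddCommGroup E] [NormedSpace ℝ E]

/-- derivative of the determinant at the identity -/
theorem hasFDerivAt_det_one {n : ℕ} {A : E → Matrix (Fin n) (Fin n) ℝ}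
    {A' : Fin n → Fin n → E →L[ℝ] ℝ} {z : E}
    (hA : ∀ i j, HasFDerivAt (fun y => A y i j) (A' i j) z) (h1 : A z = 1) :
    HasFDerivAt (fun y => (A y).det) (∑ i, A' i i) z := by
  have h2 : (fun y => (A y).det) =
      fun y => ∑ σ : Equiv.Perm (Fin n), ((Equiv.Perm.sign σ : ℤ) : ℝ) * ∏ i, A y (σ i) i := by
    funext y
    rw [Matrix.det_apply']
  rw [h2]
  have h3 : ∀ σ : Equiv.Perm (Fin n),
      HasFDerivAt (fun y => ((Equiv.Perm.sign σ : ℤ) : ℝ) * ∏ i, A y (σ i) i)
        (((Equiv.Perm.sign σ : ℤ) : ℝ) • ∑ i, (∏ j ∈ Finset.univ.erase i, A z (σ j) j) •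
          A' (σ i) i) z := by
    intro σ
    exact (HasFDerivAt.finset_prod (fun i _ => hA (σ i) i)).const_mul _
  have h4 := HasFDerivAt.fun_sum (fun σ (_ : σ ∈ Finset.univ) => h3 σ)
  refine h4.congr_fderiv ?_
  rw [Finset.sum_eq_single (1 : Equiv.Perm (Fin n))]
  · simp only [Equiv.Perm.sign_one, Units.val_one, Int.cast_one, one_smul, Equiv.Perm.coe_one,
      id_eq]
    refine Finset.sum_congr rfl fun i _ => ?_
    rw [Finset.prod_eq_one, one_smul]
    intro j _
    rw [h1, Matrix.one_apply_eq]
  · intro σ _ hσ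
    have : ∀ i, ∏ j ∈ Finset.univ.erase i, A z (σ j) j = 0 := by
      intro i
      obtain ⟨j, hj⟩ : ∃ j, σ j ≠ j := by
        by_contra hcon
        push Not at hcon
        exact hσ (Equiv.ext hcon)
      obtain ⟨j', hj'i, hj'⟩ : ∃ j', j' ≠ i ∧ σ j' ≠ j' := by
        by_cases hji : j = i
        · subst hji
          exact ⟨σ j, hj, fun hc => hj (σ.injective hc)⟩
        · exact ⟨j, hji, hj⟩
      apply Finset.prod_eq_zero (i := j') (by simp [hj'i])
      rw [h1, Matrix.one_apply_ne hj']
    simp [this]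
  · simp

variable [FiniteDimensional ℝ E] {G : E → E →L[ℝ] E →L[ℝ] ℝ} {U : Set E}

/-- the Gram matrix in another basis -/
theorem gram_change (B : E →L[ℝ] E →L[ℝ] ℝ) (e : Module.Basis (Fin (Module.finrank ℝ E)) ℝ E) :
    (Matrix.of fun i j => B (e i) (e j)) =
      ((H973.bas E).toMatrix e)ᵀ * H973.gram B * ((H973.bas E).toMatrix e) := by
  ext k l
  have h3 := H973.bilin_expand (LinearMap.mk₂ ℝ (fun x y => B x y)
    (by intro a b c; simp) (by intro r a c; simp)
    (by intro a b c; simp) (by intro r a c; simp)) (e k) (e l)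
  simp only [LinearMap.mk₂_apply] at h3
  rw [Matrix.of_apply, h3, Matrix.mul_apply]
  simp only [Matrix.mul_apply, Matrix.transpose_apply, Finset.sum_mul]
  rw [Finset.sum_comm]
  refine Finset.sum_congr rfl fun i _ => Finset.sum_congr rfl fun j _ => ?_
  simp only [Module.Basis.toMatrix_apply, H973.gram, Matrix.of_apply]
  ring

theorem dens_eq (G : E → E →L[ℝ] E →L[ℝ] ℝ) (z : E) :
    dens G z = √(H973.gram (G z)).det := rfl

theorem det_gram_onb {z : E} {e : Module.Basis (Fin (Module.finrank ℝ E)) ℝ E}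
    (he : H973.ONB (G z) e) : 0 < (H973.gram (G z)).det ∧ ∀ y,
      (H973.gram (G y)).det = (Matrix.of fun i j => G y (e i) (e j)).det *
        (H973.gram (G z)).det := by
  set P := (H973.bas E).toMatrix e with hP
  have h1 : ∀ y, (Matrix.of fun i j => G y (e i) (e j)).det =
      P.det ^ 2 * (H973.gram (G y)).det := by
    intro y
    rw [gram_change, Matrix.det_mul, Matrix.det_mul, Matrix.det_transpose, ← hP]
    ring
  have h2 : (Matrix.of fun i j => G z (e i) (e j)) = 1 := by
    ext i j
    rw [Matrix.of_apply, he i j, Matrix.one_apply]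
  have h3 := h1 z
  rw [h2, Matrix.det_one] at h3
  have h4 : 0 < (H973.gram (G z)).det := by
    by_contra hcon
    push Not at hcon
    nlinarith [sq_nonneg P.det]
  refine ⟨h4, fun y => ?_⟩
  rw [h1 y]
  calc _ = (P.det ^ 2 * (H973.gram (G z)).det) * (H973.gram (G y)).det := by rw [← h3]; ring
    _ = _ := by ring

theorem dens_pos {z : E} (hsymm : ∀ u v, G z u v = G z v u) (hpos : ∀ v, v ≠ 0 → 0 < G z v v) :
    0 < dens G z := by
  obtain ⟨e, he⟩ := H973.exists_onb (G z) hsymm hpos
  rw [dens_eq]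
  exact Real.sqrt_pos.2 (det_gram_onb he).1

theorem contDiffOn_det_gram (h : LocalRiem G U) :
    ContDiffOn ℝ ∞ (fun z => (H973.gram (G z)).det) U := by
  simp only [Matrix.det_apply']
  refine ContDiffOn.sum fun σ _ => ContDiffOn.mul contDiffOn_const ?_
  refine contDiffOn_prod fun i _ => ?_
  simp only [H973.gram, Matrix.of_apply]
  exact (h.smooth.clm_apply contDiffOn_const).clm_apply contDiffOn_const

theorem contDiffOn_dens (h : LocalRiem G U) : ContDiffOn ℝ ∞ (dens G) U := by
  have h1 := contDiffOn_det_gram h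
  have h2 : dens G = fun z => √(H973.gram (G z)).det := by
    funext z; exact dens_eq G z
  rw [h2]
  refine h1.sqrt fun z hz => ?_
  obtain ⟨e, he⟩ := H973.exists_onb (G z) (h.symm z hz) (h.pos z hz)
  exact (det_gram_onb he).1.ne'

/-- derivative of the density -/
theorem fderiv_dens (h : LocalRiem G U) {z : E} (hz : z ∈ U)
    {e : Module.Basis (Fin (Module.finrank ℝ E)) ℝ E} (he : H973.ONB (G z) e) (a : E) :
    fderiv ℝ (dens G) z a = dens G z / 2 * ∑ i, fderiv ℝ G z a (e i) (e i) := by
  obtain ⟨h1, h2⟩ := det_gram_onb (G := G) he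
  have h3 : dens G = fun y => √(Matrix.of fun i j => G y (e i) (e j)).det * dens G z := by
    funext y
    rw [dens_eq, h2 y, Real.sqrt_mul' _ h1.le, ← dens_eq]
  have h4 : HasFDerivAt (fun y => (Matrix.of fun i j => G y (e i) (e j)).det)
      (∑ i, ((fderiv ℝ G z).flip (e i)).flip (e i)) z := by
    refine hasFDerivAt_det_one (A' := fun i j => ((fderiv ℝ G z).flip (e i)).flip (e j)) ?_ ?_
    · intro i j
      simp only [Matrix.of_apply]
      exact h.hasFDerivAt_apply hz (e i) (e j)
    · ext i j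
      rw [Matrix.of_apply, he i j, Matrix.one_apply]
  have h5 : (Matrix.of fun i j => G z (e i) (e j)).det = 1 := by
    have : (Matrix.of fun i j => G z (e i) (e j)) = 1 := by
      ext i j
      rw [Matrix.of_apply, he i j, Matrix.one_apply]
    rw [this, Matrix.det_one]
  have h6 := (h4.sqrt (by rw [h5]; exact one_ne_zero)).mul_const (dens G z)
  rw [h5] at h6
  rw [h3]
  have h7 := h6.fderiv
  have e1 : (fun y => √(Matrix.of fun i j => G y (e i) (e j)).det * dens G z) z = dens G z := by
    simp only [h5, Real.sqrt_one, one_mul]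
  have h8 : fderiv ℝ (fun y => √(Matrix.of fun i j => G y (e i) (e j)).det * dens G z) z a =
      dens G z / 2 * ∑ i, fderiv ℝ G z a (e i) (e i) := by
    rw [h7]
    simp only [_root_.smul_apply, _root_.sum_apply, smul_eq_mul, Real.sqrt_one, mul_one,
      ContinuousLinearMap.flip_apply]
    ring
  rw [h8, e1]

/-- a family representing the inverse metric -/
def Rep {ι : Type*} [Fintype ι] (g : E →L[ℝ] E →L[ℝ] ℝ) (w : ι → E) (k : ι → ℝ) : Prop :=
  ∀ u v, ∑ l, k l * (g (w l) u * g (w l) v) = g u v

section Rep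

variable {ι : Type*} [Fintype ι] {g : E →L[ℝ] E →L[ℝ] ℝ} {w : ι → E} {k : ι → ℝ}

omit [FiniteDimensional ℝ E] in
theorem Rep.vec (h : Rep g w k) (hpos : ∀ v, v ≠ 0 → 0 < g v v) (v : E) :
    ∑ l, (k l * g (w l) v) • w l = v := by
  rw [← sub_eq_zero]
  by_contra hne
  have h2 := hpos _ hne
  have h3 : ∀ u, g (∑ l, (k l * g (w l) v) • w l - v) u = 0 := by
    intro u
    rw [map_sub, _root_.sub_apply, map_sum, _root_.sum_apply]
    have : ∀ l, (g ((k l * g (w l) v) • w l)) u = k l * (g (w l) v * g (w l) u) := by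
      intro l
      rw [map_smul, _root_.smul_apply, smul_eq_mul]; ring
    simp only [this, h v u]
    ring
  rw [h3] at h2
  exact lt_irrefl _ h2

/-- the trace of a bilinear map does not depend on the family -/
theorem Rep.trace (h : Rep g w k) (hsymm : ∀ u v, g u v = g v u)
    (hpos : ∀ v, v ≠ 0 → 0 < g v v) {e : Module.Basis (Fin (Module.finrank ℝ E)) ℝ E}
    (he : H973.ONB g e) (T : E → E → ℝ) (hT1 : ∀ u u' v, T (u + u') v = T u v + T u' v)
    (hT2 : ∀ (r : ℝ) u v, T (r • u) v = r * T u v) (hT3 : ∀ u v v', T u (v + v') = T u v + T u v')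
    (hT4 : ∀ (r : ℝ) u v, T u (r • v) = r * T u v) :
    ∑ l, k l * T (w l) (w l) = ∑ i, T (e i) (e i) := by
  let F : E →ₗ[ℝ] E →ₗ[ℝ] ℝ := LinearMap.mk₂ ℝ T hT1 (by simpa using hT2) hT3 (by simpa using hT4)
  have hF : ∀ u v, F u v = T u v := fun u v => rfl
  have hrep : ∀ v, v = ∑ i, g (e i) v • e i := by
    intro v
    have h1 : ∀ i, g (e i) v = e.repr v i := by
      intro i
      conv_lhs => rw [← e.sum_repr v]
      rw [map_sum]
      simp only [map_smul, he i _, smul_eq_mul, mul_ite, mul_one, mul_zero, Finset.sum_ite_eq,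
        Finset.mem_univ, if_true]
    simp only [h1]
    exact (e.sum_repr v).symm
  have h1 : ∀ l, T (w l) (w l) = ∑ i, ∑ j, (g (e i) (w l) * g (e j) (w l)) * F (e i) (e j) := by
    intro l
    rw [← hF]
    conv_lhs => rw [hrep (w l)]
    simp only [map_sum, map_smul, LinearMap.sum_apply, LinearMap.smul_apply, smul_eq_mul,
      Finset.mul_sum]
    rw [Finset.sum_comm]
    refine Finset.sum_congr rfl fun i _ => Finset.sum_congr rfl fun j _ => ?_
    ring
  calc ∑ l, k l * T (w l) (w l) =
      ∑ i, ∑ j, (∑ l, k l * (g (w l) (e i) * g (w l) (e j))) * F (e i) (e j) := by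
        simp only [h1, Finset.mul_sum, Finset.sum_mul]
        rw [Finset.sum_comm]
        refine Finset.sum_congr rfl fun i _ => ?_
        rw [Finset.sum_comm]
        refine Finset.sum_congr rfl fun j _ => Finset.sum_congr rfl fun l _ => ?_
        rw [hsymm (e i), hsymm (e j)]
        ring
    _ = ∑ i, T (e i) (e i) := by
        refine Finset.sum_congr rfl fun i _ => ?_
        rw [Finset.sum_eq_single i]
        · rw [h, he i i, if_pos rfl, one_mul]; rfl
        · intro j _ hj
          rw [h, he i j, if_neg (Ne.symm hj), zero_mul]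
        · simp

end Rep

/-- pairing of covectors -/
theorem Rep.sharp {ι : Type*} [Fintype ι] {w : ι → E} {k : ι → ℝ} {z : E}
    (h : Rep (G z) w k) (hsymm : ∀ u v, G z u v = G z v u)
    (hpos : ∀ v, v ≠ 0 → 0 < G z v v) (α β : E →L[ℝ] ℝ) :
    ∑ l, k l * (α (w l) * β (w l)) = α (ContinuousLinearMap.inverse (G z) β) := by
  set a := ContinuousLinearMap.inverse (G z) β with ha
  have h1 : ∀ v, G z a v = β v := by
    intro v; rw [ha, apply_inverseG hpos]
  conv_rhs => rw [← h.vec hpos a]
  rw [map_sum]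
  refine Finset.sum_congr rfl fun l _ => ?_
  rw [map_smul, smul_eq_mul, hsymm (w l), h1]
  ring

/-- The divergence identity. -/
theorem div_identity (h : LocalRiem G U) {z : E} (hz : z ∈ U) {ι : Type*} [Fintype ι]
    {w : ι → E} {k : ι → E → ℝ} (hkd : ∀ l, DifferentiableAt ℝ (k l) z)
    (hk : ∀ᶠ y in 𝓝 z, Rep (G y) w (fun l => k l y)) (α : E →L[ℝ] ℝ) :
    dens G z * ∑ l, k l z * α (chris G z (w l) (w l)) +
      dens G z * ∑ l, fderiv ℝ (k l) z (w l) * α (w l) +
      fderiv ℝ (dens G) z (ContinuousLinearMap.inverse (G z) α) = 0 := by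
  have hsymm := h.symm z hz
  have hpos := h.pos z hz
  have hR : Rep (G z) w (fun l => k l z) := hk.self_of_nhds
  obtain ⟨e, he⟩ := H973.exists_onb (G z) hsymm hpos
  set a := ContinuousLinearMap.inverse (G z) α with ha
  have hα : ∀ v, α v = G z a v := by
    intro v; rw [ha, apply_inverseG hpos]
  -- differentiate the identity
  have hD : ∀ x u v, ∑ l, fderiv ℝ (k l) z x * (G z (w l) u * G z (w l) v) =
      -(fderiv ℝ G z x u v) := by
    intro x u v
    have h1 : HasFDerivAt (fun y => ∑ l, k l y * (G y (w l) u * G y (w l) v))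
        (∑ l, (k l z • (G z (w l) u • ((fderiv ℝ G z).flip (w l)).flip v +
          G z (w l) v • ((fderiv ℝ G z).flip (w l)).flip u) +
          (G z (w l) u * G z (w l) v) • fderiv ℝ (k l) z)) z :=
      HasFDerivAt.fun_sum fun l _ => (hkd l).hasFDerivAt.mul
        ((h.hasFDerivAt_apply hz (w l) u).mul (h.hasFDerivAt_apply hz (w l) v))
    have h2 : HasFDerivAt (fun y => ∑ l, k l y * (G y (w l) u * G y (w l) v))
        (((fderiv ℝ G z).flip u).flip v) z := by
      refine (h.hasFDerivAt_apply hz u v).congr_of_eventuallyEq ?_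
      filter_upwards [hk] with y hy
      exact hy u v
    have h3 := congrArg (fun T => T x) (h1.unique h2)
    simp only [_root_.sum_apply, _root_.add_apply, _root_.smul_apply, smul_eq_mul,
      ContinuousLinearMap.flip_apply, Finset.sum_add_distrib] at h3
    have h4 : ∑ l, k l z * (G z (w l) u * fderiv ℝ G z x (w l) v +
        G z (w l) v * fderiv ℝ G z x (w l) u) = 2 * fderiv ℝ G z x u v := by
      have e1 : ∑ l, k l z * (G z (w l) u * fderiv ℝ G z x (w l) v) = fderiv ℝ G z x u v := by
        conv_rhs => rw [← hR.vec hpos u]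
        rw [map_sum, _root_.sum_apply]
        refine Finset.sum_congr rfl fun l _ => ?_
        rw [map_smul, _root_.smul_apply, smul_eq_mul]; ring
      have e2 : ∑ l, k l z * (G z (w l) v * fderiv ℝ G z x (w l) u) = fderiv ℝ G z x v u := by
        conv_rhs => rw [← hR.vec hpos v]
        rw [map_sum, _root_.sum_apply]
        refine Finset.sum_congr rfl fun l _ => ?_
        rw [map_smul, _root_.smul_apply, smul_eq_mul]; ring
      simp only [mul_add, Finset.sum_add_distrib]
      rw [e1, e2, h.fderiv_symm hz x v u]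
      ring
    have h5 : ∑ l, G z (w l) u * G z (w l) v * fderiv ℝ (k l) z x =
        ∑ l, fderiv ℝ (k l) z x * (G z (w l) u * G z (w l) v) :=
      Finset.sum_congr rfl fun l _ => by ring
    rw [h4, h5] at h3
    linarith
  -- (i)
  have hi : ∑ l, k l z * α (chris G z (w l) (w l)) =
      ∑ i, fderiv ℝ G z (e i) (e i) a - (∑ i, fderiv ℝ G z a (e i) (e i)) / 2 := by
    have h1 : ∀ v, α (chris G z v v) = fderiv ℝ G z v v a - fderiv ℝ G z a v v / 2 := by
      intro v
      rw [hα, hsymm]
      have h2 := h.chris_spec hz v v a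
      rw [koszul] at h2
      linarith
    simp only [h1, mul_sub, Finset.sum_sub_distrib]
    rw [hR.trace hsymm hpos he (fun u v => fderiv ℝ G z u v a)
      (by intro u u' v; simp) (by intro r u v; simp) (by intro u v v'; simp)
      (by intro r u v; simp)]
    rw [hR.trace hsymm hpos he (fun u v => fderiv ℝ G z a u v / 2)
      (by intro u u' v; simp; ring) (by intro r u v; simp; ring) (by intro u v v'; simp; ring)
      (by intro r u v; simp; ring)]
    rw [Finset.sum_div]
  -- (ii)
  have hii : ∑ l, fderiv ℝ (k l) z (w l) * α (w l) = -∑ i, fderiv ℝ G z (e i) (e i) a := by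
    have hrep : ∀ v, v = ∑ i, G z (e i) v • e i := by
      intro v
      have h1 : ∀ i, G z (e i) v = e.repr v i := by
        intro i
        conv_lhs => rw [← e.sum_repr v]
        rw [map_sum]
        simp only [map_smul, he i _, smul_eq_mul, mul_ite, mul_one, mul_zero, Finset.sum_ite_eq,
          Finset.mem_univ, if_true]
      simp only [h1]
      exact (e.sum_repr v).symm
    have h1 : ∀ l, fderiv ℝ (k l) z (w l) * α (w l) =
        ∑ i, fderiv ℝ (k l) z (e i) * (G z (w l) (e i) * G z (w l) a) := by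
      intro l
      conv_lhs => rw [hrep (w l)]
      rw [map_sum, ← hrep (w l), Finset.sum_mul]
      refine Finset.sum_congr rfl fun i _ => ?_
      rw [map_smul, smul_eq_mul, hα, hsymm a, hsymm (e i)]
      ring
    simp only [h1]
    rw [Finset.sum_comm]
    simp only [hD, Finset.sum_neg_distrib]
  rw [hi, hii, fderiv_dens h hz he]
  ring

/-- The pointwise identity used in the integration by parts. -/
theorem pointwise_identity (h : LocalRiem G U) {z : E} (hz : z ∈ U) {ι : Type*} [Fintype ι]
    {w : ι → E} {k : ι → E → ℝ} (hkd : ∀ l, DifferentiableAt ℝ (k l) z)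
    (hk : ∀ᶠ y in 𝓝 z, Rep (G y) w (fun l => k l y)) {F Z : E → ℝ}
    (hZ : DifferentiableAt ℝ Z z) :
    ∑ l, fderiv ℝ (fun y => Z y * (k l y * dens G y)) z (w l) * fderiv ℝ F z (w l) +
      Z z * dens G z * ∑ l, k l z * fderiv ℝ F z (chris G z (w l) (w l)) =
      gamG G F Z z * dens G z := by
  have hsymm := h.symm z hz
  have hpos := h.pos z hz
  have hR : Rep (G z) w (fun l => k l z) := hk.self_of_nhds
  have hdd : DifferentiableAt ℝ (dens G) z :=
    ((contDiffOn_dens h).contDiffAt (h.isOpen.mem_nhds hz)).differentiableAt (by simp)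
  have h1 : ∀ l, fderiv ℝ (fun y => Z y * (k l y * dens G y)) z (w l) =
      fderiv ℝ Z z (w l) * (k l z * dens G z) +
        Z z * (fderiv ℝ (k l) z (w l) * dens G z + k l z * fderiv ℝ (dens G) z (w l)) := by
    intro l
    have h2 := hZ.hasFDerivAt.mul ((hkd l).hasFDerivAt.mul hdd.hasFDerivAt)
    have h3 : fderiv ℝ (fun y => Z y * (k l y * dens G y)) z = _ := h2.fderiv
    rw [h3]
    simp only [_root_.add_apply, _root_.smul_apply, smul_eq_mul, Pi.mul_apply]
    ring
  have h2 := div_identity h hz hkd hk (fderiv ℝ F z)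
  have h3 := hR.sharp hsymm hpos (fderiv ℝ F z) (fderiv ℝ Z z)
  have h4 := hR.sharp hsymm hpos (fderiv ℝ (dens G) z) (fderiv ℝ F z)
  have h5 : gamG G F Z z = fderiv ℝ F z (ContinuousLinearMap.inverse (G z) (fderiv ℝ Z z)) := rfl
  rw [h5, ← h3]
  rw [← h4] at h2
  have h6 : ∑ l, fderiv ℝ (fun y => Z y * (k l y * dens G y)) z (w l) * fderiv ℝ F z (w l) =
      dens G z * ∑ l, k l z * (fderiv ℝ F z (w l) * fderiv ℝ Z z (w l)) +
      Z z * (dens G z * ∑ l, fderiv ℝ (k l) z (w l) * fderiv ℝ F z (w l) +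
        ∑ l, k l z * (fderiv ℝ (dens G) z (w l) * fderiv ℝ F z (w l))) := by
    simp only [h1, Finset.mul_sum, ← Finset.sum_add_distrib]
    refine Finset.sum_congr rfl fun l _ => ?_
    ring
  rw [h6]
  linear_combination Z z * h2

end Vale.Agent.P210.R2.H265
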