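import Mathlib.Analysis.Calculus.Rademacher
import Mathlib.MeasureTheory.Integral.Bochner.Basic

/-!
# LAP, part G: discrete integration by parts for Lipschitz functions, reverse Fatou lemma
-/

open scoped Topology NNReal ENNReal
open Set Metric Filter MeasureTheory

set_option maxSynthPendingDepth 3
set_option linter.all false

noncomputable section

namespace Vale.Agent.P210.R2.H265

section Fatou

/-- reverse Fatou lemma for real functions -/
theorem reverse_fatou {α : Type*} {m : MeasurableSpace α} {μ : Measure α} {f : ℕ → α → ℝ}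
    {g h : α → ℝ} {L : ℝ} (hf : ∀ n, Integrable (f n) μ) (hg : Integrable g μ)
    (hh : Integrable h μ) (hle : ∀ᶠ n in atTop, ∀ᵐ x ∂μ, f n x ≤ g x)
    (hlim : ∀ᵐ x ∂μ, ∀ η > 0, ∀ᶠ n in atTop, f n x ≤ h x + η)
    (hL : Tendsto (fun n => ∫ x, f n x ∂μ) atTop (𝓝 L)) : L ≤ ∫ x, h x ∂μ := by
  have h1 := lintegral_liminf_le' (μ := μ) (u := (atTop : Filter ℕ))
    (f := fun n x => ENNReal.ofReal (g x - f n x))
    (fun n => ((hg.sub (hf n)).aestronglyMeasurable.aemeasurable).ennreal_ofReal)
  have h2 : ∫⁻ x, ENNReal.ofReal (g x - h x) ∂μ ≤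
      ∫⁻ x, liminf (fun n => ENNReal.ofReal (g x - f n x)) atTop ∂μ := by
    apply lintegral_mono_ae
    filter_upwards [hlim] with x hx
    have h3 : ∀ η > 0, ENNReal.ofReal (g x - h x - η) ≤
        liminf (fun n => ENNReal.ofReal (g x - f n x)) atTop := by
      intro η hη
      refine le_liminf_of_le ?_ ?_
      · exact isCobounded_ge_of_top
      · filter_upwards [hx η hη] with n hn
        exact ENNReal.ofReal_le_ofReal (by linarith)
    have h4 : Tendsto (fun η : ℝ => ENNReal.ofReal (g x - h x - η)) (𝓝[>] 0)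
        (𝓝 (ENNReal.ofReal (g x - h x))) := by
      have h5 : ContinuousAt (fun η : ℝ => ENNReal.ofReal (g x - h x - η)) 0 :=
        (ENNReal.continuous_ofReal.comp (by fun_prop :
          Continuous fun η : ℝ => g x - h x - η)).continuousAt
      have h6 := h5.tendsto
      simp only [sub_zero] at h6
      exact h6.mono_left nhdsWithin_le_nhds
    exact le_of_tendsto h4 (by filter_upwards [self_mem_nhdsWithin] with η hη using h3 η hη)
  have h5 : Tendsto (fun n => ∫⁻ x, ENNReal.ofReal (g x - f n x) ∂μ) atTop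
      (𝓝 (ENNReal.ofReal (∫ x, g x ∂μ - L))) := by
    have h6 : Tendsto (fun n => ENNReal.ofReal (∫ x, g x ∂μ - ∫ x, f n x ∂μ)) atTop
        (𝓝 (ENNReal.ofReal (∫ x, g x ∂μ - L))) :=
      (ENNReal.continuous_ofReal.tendsto _).comp (tendsto_const_nhds.sub hL)
    refine h6.congr' ?_
    filter_upwards [hle] with n hn
    have i1 : Integrable (fun x => g x - f n x) μ := hg.sub (hf n)
    rw [← integral_sub hg (hf n), ofReal_integral_eq_lintegral_ofReal i1]
    filter_upwards [hn] with x hx
    exact sub_nonneg.2 hx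
  have h7 : ∫⁻ x, ENNReal.ofReal (g x - h x) ∂μ ≤ ENNReal.ofReal (∫ x, g x ∂μ - L) := by
    refine h2.trans (h1.trans (le_of_eq h5.liminf_eq))
  have h8 : 0 ≤ ∫ x, g x ∂μ - L := by
    refine ge_of_tendsto (tendsto_const_nhds.sub hL) ?_
    filter_upwards [hle] with n hn
    rw [← integral_sub hg (hf n)]
    apply integral_nonneg_of_ae
    filter_upwards [hn] with x hx
    exact sub_nonneg.2 hx
  have h9 : ∫ x, (g x - h x) ∂μ ≤ ∫ x, g x ∂μ - L := by
    have i1 : Integrable (fun x => g x - h x) μ := hg.sub hh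
    rw [integral_eq_lintegral_pos_part_sub_lintegral_neg_part i1]
    have h10 := ENNReal.toReal_mono ENNReal.ofReal_ne_top h7
    rw [ENNReal.toReal_ofReal h8] at h10
    have h11 : 0 ≤ (∫⁻ x, ENNReal.ofReal (-(g x - h x)) ∂μ).toReal := ENNReal.toReal_nonneg
    linarith
  rw [integral_sub hg hh] at h9
  linarith

end Fatou

variable {E : Type*} [NormedAddCommGroup E] [NormedSpace ℝ E]

/-- product of a Lipschitz function and a Lipschitz function with compact support -/
theorem lip_mul {F φ : E → ℝ} {C D : ℝ≥0} (hF : LipschitzWith C F) (hφ : LipschitzWith D φ)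
    (hc : HasCompactSupport φ) : ∃ D', LipschitzWith D' (fun x => φ x * F x) := by
  obtain ⟨B, hB⟩ := hc.exists_bound_of_continuous hφ.continuous
  obtain ⟨A, hA⟩ := IsCompact.exists_bound_of_continuousOn (s := tsupport φ) hc
    hF.continuous.continuousOn
  have hB0 : 0 ≤ B := (norm_nonneg _).trans (hB 0)
  set A' := max A 0 with hA'
  have hA0 : 0 ≤ A' := le_max_right _ _
  refine ⟨(A' * D + B * C).toNNReal, ?_⟩
  rw [lipschitzWith_iff_norm_sub_le]
  have key : ∀ x y : E, x ∈ tsupport φ →
      ‖φ x * F x - φ y * F y‖ ≤ (A' * D + B * C) * ‖x - y‖ := by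
    intro x y hx
    have h1 : φ x * F x - φ y * F y = F x * (φ x - φ y) + φ y * (F x - F y) := by ring
    rw [h1]
    refine (norm_add_le _ _).trans ?_
    rw [norm_mul, norm_mul]
    have h2 := hφ.norm_sub_le x y
    have h3 := hF.norm_sub_le x y
    have h4 : ‖F x‖ ≤ A' := (hA x hx).trans (le_max_left _ _)
    have h5 := hB y
    calc _ ≤ A' * (D * ‖x - y‖) + B * (C * ‖x - y‖) := by gcongr
      _ = _ := by ring
  intro x y
  rw [Real.coe_toNNReal _ (by positivity)]
  by_cases hx : x ∈ tsupport φ
  · exact key x y hx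
  · by_cases hy : y ∈ tsupport φ
    · have := key y x hy
      rw [norm_sub_rev, norm_sub_rev x y]
      exact this
    · rw [image_eq_zero_of_notMem_tsupport hx, image_eq_zero_of_notMem_tsupport hy]
      simp only [zero_mul, sub_zero, norm_zero]
      positivity

variable [MeasurableSpace E] [BorelSpace E] [FiniteDimensional ℝ E] {μ : Measure E}
  [μ.IsAddHaarMeasure]

theorem second_diff_eq {F φ : E → ℝ} (hF : Continuous F) (hφ : Continuous φ)
    (hc : HasCompactSupport φ) (v : E) :
    ∫ x, φ x * (F (x + v) + F (x - v) - 2 * F x) ∂μ =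
      -∫ x, (φ (x + v) - φ x) * (F (x + v) - F x) ∂μ := by
  have c1 : Continuous fun x => F (x + v) := hF.comp (continuous_add_const v)
  have c2 : Continuous fun x => F (x - v) := hF.comp (by fun_prop)
  have c3 : Continuous fun x => φ (x + v) := hφ.comp (continuous_add_const v)
  have hc3 : HasCompactSupport fun x => φ (x + v) := hc.comp_homeomorph (Homeomorph.addRight v)
  have i0 : Integrable (fun x => φ x * F x) μ :=
    (hφ.mul hF).integrable_of_hasCompactSupport hc.mul_right
  have i1 : Integrable (fun x => φ x * F (x + v)) μ :=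
    (hφ.mul c1).integrable_of_hasCompactSupport hc.mul_right
  have i2 : Integrable (fun x => φ x * F (x - v)) μ :=
    (hφ.mul c2).integrable_of_hasCompactSupport hc.mul_right
  have i3 : Integrable (fun x => φ (x + v) * F (x + v)) μ :=
    (c3.mul c1).integrable_of_hasCompactSupport hc3.mul_right
  have i4 : Integrable (fun x => φ (x + v) * F x) μ :=
    (c3.mul hF).integrable_of_hasCompactSupport hc3.mul_right
  have e1 : ∫ x, φ (x + v) * F (x + v) ∂μ = ∫ x, φ x * F x ∂μ :=
    integral_add_right_eq_self (fun x => φ x * F x) v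
  have e2 : ∫ x, φ (x + v) * F x ∂μ = ∫ x, φ x * F (x - v) ∂μ := by
    rw [← integral_add_right_eq_self (fun x => φ x * F (x - v)) v]
    simp
  have e3 : ∫ x, φ x * (F (x + v) + F (x - v) - 2 * F x) ∂μ =
      ∫ x, φ x * F (x + v) ∂μ + ∫ x, φ x * F (x - v) ∂μ - 2 * ∫ x, φ x * F x ∂μ := by
    have j1 : Integrable (fun x => φ x * F (x + v) + φ x * F (x - v)) μ := i1.add i2
    have j2 : Integrable (fun x => 2 * (φ x * F x)) μ := i0.const_mul 2
    calc _ = ∫ x, ((φ x * F (x + v) + φ x * F (x - v)) - 2 * (φ x * F x)) ∂μ := by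
          congr 1; funext x; ring
      _ = _ := by rw [integral_sub j1 j2, integral_add i1 i2, integral_const_mul]
  have e4 : ∫ x, (φ (x + v) - φ x) * (F (x + v) - F x) ∂μ =
      ∫ x, φ (x + v) * F (x + v) ∂μ - ∫ x, φ (x + v) * F x ∂μ - ∫ x, φ x * F (x + v) ∂μ +
        ∫ x, φ x * F x ∂μ := by
    have j1 : Integrable (fun x => φ (x + v) * F (x + v) - φ (x + v) * F x) μ := i3.sub i4
    have j2 : Integrable (fun x => φ (x + v) * F (x + v) - φ (x + v) * F x -
      φ x * F (x + v)) μ := j1.sub i1
    calc _ = ∫ x, ((φ (x + v) * F (x + v) - φ (x + v) * F x - φ x * F (x + v)) +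
          φ x * F x) ∂μ := by
          congr 1; funext x; ring
      _ = _ := by rw [integral_add j2 i0, integral_sub j1 i1, integral_sub i3 i4]
  rw [e3, e4, e1, e2]
  ring

/-- limit of the second differences against a Lipschitz function with compact support -/
theorem second_diff_tendsto {F φ : E → ℝ} {C D : ℝ≥0} (hF : LipschitzWith C F)
    (hφ : LipschitzWith D φ) (hc : HasCompactSupport φ) (w : E) :
    Tendsto (fun t : ℝ => ∫ x, φ x * ((F (x + t • w) + F (x - t • w) - 2 * F x) / t ^ 2) ∂μ)
      (𝓝[>] 0) (𝓝 (-∫ x, lineDeriv ℝ φ x w * lineDeriv ℝ F x w ∂μ)) := by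
  have hK : Tendsto (fun t : ℝ => ∫ x, (t⁻¹ • (φ (x + t • w) - φ x)) *
      (t⁻¹ • (F (x + t • w) - F x)) ∂μ) (𝓝[>] 0)
      (𝓝 (∫ x, lineDeriv ℝ φ x w * lineDeriv ℝ F x w ∂μ)) := by
    let K := cthickening (‖w‖) (tsupport φ)
    have K_compact : IsCompact K := IsCompact.cthickening hc
    apply tendsto_integral_filter_of_dominated_convergence
        (K.indicator (fun x ↦ (D * ‖w‖) * (C * ‖w‖)))
    · filter_upwards with t
      have c1 : Continuous fun x => (t⁻¹ • (φ (x + t • w) - φ x)) *
          (t⁻¹ • (F (x + t • w) - F x)) := by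
        have := hφ.continuous
        have := hF.continuous
        fun_prop
      exact c1.aestronglyMeasurable
    · filter_upwards [Ioc_mem_nhdsGT zero_lt_one] with t ht
      have t_pos : 0 < t := ht.1
      filter_upwards with x
      by_cases hx : x ∈ K
      · have h1 : ‖t⁻¹ • (φ (x + t • w) - φ x)‖ ≤ D * ‖w‖ := by
          calc _ = t⁻¹ * ‖φ (x + t • w) - φ x‖ := by simp [norm_mul, t_pos.le]
            _ ≤ t⁻¹ * (D * ‖(x + t • w) - x‖) := by
              gcongr; exact hφ.norm_sub_le (x + t • w) x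
            _ = D * ‖w‖ := by simp [field, norm_smul, abs_of_nonneg t_pos.le]
        have h2 : ‖t⁻¹ • (F (x + t • w) - F x)‖ ≤ C * ‖w‖ := by
          calc _ = t⁻¹ * ‖F (x + t • w) - F x‖ := by simp [norm_mul, t_pos.le]
            _ ≤ t⁻¹ * (C * ‖(x + t • w) - x‖) := by
              gcongr; exact hF.norm_sub_le (x + t • w) x
            _ = C * ‖w‖ := by simp [field, norm_smul, abs_of_nonneg t_pos.le]
        rw [norm_mul, indicator_of_mem hx]
        gcongr
      · have A : φ x = 0 := by
          rw [← Function.notMem_support]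
          contrapose hx
          exact self_subset_cthickening _ (subset_tsupport _ hx)
        have B : φ (x + t • w) = 0 := by
          rw [← Function.notMem_support]
          contrapose hx
          apply mem_cthickening_of_dist_le _ _ (‖w‖) (tsupport φ) (subset_tsupport _ hx)
          simp only [dist_eq_norm, sub_add_cancel_left, norm_neg, norm_smul, Real.norm_eq_abs,
            abs_of_nonneg t_pos.le]
          exact mul_le_of_le_one_left (norm_nonneg w) ht.2
        simp only [B, A, _root_.sub_self, smul_eq_mul, mul_zero, zero_mul, norm_zero]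
        exact indicator_nonneg (fun y _hy ↦ by positivity) _
    · rw [integrable_indicator_iff K_compact.measurableSet]
      exact ContinuousOn.integrableOn_compact K_compact (by fun_prop)
    · filter_upwards [hφ.ae_lineDifferentiableAt w, hF.ae_lineDifferentiableAt w] with x hx hx'
      exact hx.hasLineDerivAt.tendsto_slope_zero_right.mul
        hx'.hasLineDerivAt.tendsto_slope_zero_right
  refine hK.neg.congr' ?_
  filter_upwards [self_mem_nhdsWithin] with t (ht : 0 < t)
  have h1 := second_diff_eq (μ := μ) hF.continuous hφ.continuous hc (t • w)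
  have h2 : ∫ x, φ x * ((F (x + t • w) + F (x - t • w) - 2 * F x) / t ^ 2) ∂μ =
      (t ^ 2)⁻¹ * ∫ x, φ x * (F (x + t • w) + F (x - t • w) - 2 * F x) ∂μ := by
    rw [← integral_const_mul]
    congr 1
    funext x
    field_simp
  have h3 : ∫ x, (t⁻¹ • (φ (x + t • w) - φ x)) * (t⁻¹ • (F (x + t • w) - F x)) ∂μ =
      (t ^ 2)⁻¹ * ∫ x, (φ (x + t • w) - φ x) * (F (x + t • w) - F x) ∂μ := by
    rw [← integral_const_mul]
    congr 1
    funext x
    simp only [smul_eq_mul]
    field_simp
  rw [h2, h3, h1]
  ring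

end Vale.Agent.P210.R2.H265
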