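import Vale.Agent.P210.R2.H265.LapF
import Vale.Agent.P210.R2.H265.LapG
import Vale.Agent.P210.R2.H265.LapC
import Mathlib.Analysis.Calculus.BumpFunction.FiniteDimension

/-!
# LAP, part H: the weak inequality in a chart
-/

open scoped ContDiff Topology NNReal ENNReal
open Set Metric Filter MeasureTheory

set_option maxSynthPendingDepth 3
set_option linter.all false

noncomputable section

namespace Vale.Agent.P210.R2.H265

open Vale.Agent.P210.R2.H53

section Aux

variable {E : Type*} [NormedAddCommGroup E] [NormedSpace ℝ E]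

/-- a function vanishing off a compact subset of an open set where it is continuous -/
theorem continuous_smul_of_tsupport {F : Type*} [NormedAddCommGroup F] [NormedSpace ℝ F]
    {Z : E → ℝ} {g : E → F} {U : Set E} (hZ : Continuous Z) (hs : tsupport Z ⊆ U)
    (hU : IsOpen U) (hg : ContinuousOn g U) : Continuous fun z => Z z • g z := by
  rw [continuous_iff_continuousAt]
  intro z
  by_cases hz : z ∈ tsupport Z
  · exact hZ.continuousAt.smul ((hg z (hs hz)).continuousAt (hU.mem_nhds (hs hz)))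
  · have h1 : (fun z => Z z • g z) =ᶠ[𝓝 z] fun _ => 0 := by
      filter_upwards [(isClosed_tsupport Z).isOpen_compl.mem_nhds hz] with y hy
      rw [image_eq_zero_of_notMem_tsupport hy, zero_smul]
    exact continuousAt_const.congr h1.symm

theorem contDiff_mul_of_tsupport {χ : E → ℝ} {g : E → ℝ} {U : Set E} (hχ : ContDiff ℝ ∞ χ)
    (hs : tsupport χ ⊆ U) (hU : IsOpen U) (hg : ContDiffOn ℝ ∞ g U) :
    ContDiff ℝ ∞ fun z => χ z * g z := by
  rw [contDiff_iff_contDiffAt]
  intro z
  by_cases hz : z ∈ tsupport χ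
  · exact hχ.contDiffAt.mul (hg.contDiffAt (hU.mem_nhds (hs hz)))
  · have h1 : (fun z => χ z * g z) =ᶠ[𝓝 z] fun _ => 0 := by
      filter_upwards [(isClosed_tsupport χ).isOpen_compl.mem_nhds hz] with y hy
      rw [image_eq_zero_of_notMem_tsupport hy, zero_mul]
    exact contDiffAt_const.congr_of_eventuallyEq h1

variable [FiniteDimensional ℝ E] [MeasurableSpace E] [BorelSpace E] {μ : Measure E}
  [μ.IsAddHaarMeasure]

omit [FiniteDimensional ℝ E] [MeasurableSpace E] [BorelSpace E] in
theorem lineDeriv_eq_zero {φ : E → ℝ} {x : E} (hx : x ∉ tsupport φ) (w : E) :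
    lineDeriv ℝ φ x w = 0 := by
  have h1 : φ =ᶠ[𝓝 x] (fun _ => 0) := by
    filter_upwards [(isClosed_tsupport φ).isOpen_compl.mem_nhds hx] with y hy
    exact image_eq_zero_of_notMem_tsupport hy
  rw [h1.lineDeriv_eq]
  simp [lineDeriv]

theorem integrable_lineDeriv_mul {F φ : E → ℝ} {C D : ℝ≥0} (hF : LipschitzWith C F)
    (hφ : LipschitzWith D φ) (hc : HasCompactSupport φ) (w : E) :
    Integrable (fun x => lineDeriv ℝ φ x w * lineDeriv ℝ F x w) μ := by
  have h1 : Integrable ((tsupport φ).indicator fun _ => (D * ‖w‖) * (C * ‖w‖)) μ := by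
    rw [integrable_indicator_iff (isClosed_tsupport φ).measurableSet]
    exact integrableOn_const (IsCompact.measure_lt_top hc).ne
  refine h1.mono' ?_ ?_
  · exact ((measurable_lineDeriv hφ.continuous).mul
      (measurable_lineDeriv hF.continuous)).aestronglyMeasurable
  · filter_upwards with x
    by_cases hx : x ∈ tsupport φ
    · rw [indicator_of_mem hx, norm_mul]
      gcongr
      · exact norm_lineDeriv_le_of_lipschitz ℝ hφ
      · exact norm_lineDeriv_le_of_lipschitz ℝ hF
    · rw [indicator_of_notMem hx, lineDeriv_eq_zero hx, zero_mul, norm_zero]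

/-- integrability of the derivative of a Lipschitz function applied to a continuous vector field
with compact support -/
theorem integrable_fderiv_apply {F : E → ℝ} {C : ℝ≥0} (hF : LipschitzWith C F) {V : E → E}
    (hV : Continuous V) (hc : HasCompactSupport V) :
    Integrable (fun x => fderiv ℝ F x (V x)) μ := by
  have h1 : Integrable (fun x => C * ‖V x‖) μ :=
    ((hV.norm).integrable_of_hasCompactSupport hc.norm).const_mul _
  refine h1.mono' ?_ ?_
  · have h2 : Measurable (fderiv ℝ F) := measurable_fderiv ℝ F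
    exact (isBoundedBilinearMap_apply (𝕜 := ℝ) (E := E) (F := ℝ)).continuous.comp_aestronglyMeasurable
      (h2.aestronglyMeasurable.prodMk hV.aestronglyMeasurable)
  · filter_upwards with x
    exact (ContinuousLinearMap.le_opNorm _ _).trans (by
      gcongr
      exact norm_fderiv_le_of_lipschitz ℝ hF)

/-- the sequence `1 / (m + 1)` -/
theorem tendsto_seq : Tendsto (fun m : ℕ => 1 / ((m : ℝ) + 1)) atTop (𝓝[>] (0 : ℝ)) := by
  refine tendsto_nhdsWithin_iff.2 ⟨tendsto_one_div_add_atTop_nhds_zero_nat, ?_⟩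
  filter_upwards with m
  have : (0 : ℝ) < (m : ℝ) + 1 := by positivity
  exact one_div_pos.2 this

end Aux

variable {E : Type} [NormedAddCommGroup E] [NormedSpace ℝ E] [FiniteDimensional ℝ E]
  [MeasurableSpace E] [BorelSpace E]
  {G : E → E →L[ℝ] E →L[ℝ] ℝ} {U : Set E} {μ : Measure E} [μ.IsAddHaarMeasure]

/-- passing to the limit in the second differences, abstract version -/
theorem limit_step {ι : Type} [Fintype ι] {F : E → ℝ} {C : ℝ} {Lf : ℝ≥0}
    (hF : LipschitzWith Lf F) {φ : ι → E → ℝ} {D : ι → ℝ≥0} (hφ : ∀ l, LipschitzWith (D l) (φ l))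
    (hc : ∀ l, HasCompactSupport (φ l)) (w : ι → E) {h : E → ℝ} (hh : Integrable h μ)
    (hup : ∀ᶠ t in 𝓝[>] (0 : ℝ), ∀ x, ∀ l, φ l x *
      (F (x + t • w l) + F (x - t • w l) - 2 * F x) ≤ φ l x * (C * (t ^ 2 * ‖w l‖ ^ 2)))
    (hlim : ∀ᵐ x ∂μ, ∀ η > 0, ∀ᶠ t in 𝓝[>] (0 : ℝ),
      ∑ l, φ l x * (F (x + t • w l) + F (x - t • w l) - 2 * F x) ≤ t ^ 2 * (h x + η)) :
    -∑ l, ∫ x, lineDeriv ℝ (φ l) x (w l) * lineDeriv ℝ F x (w l) ∂μ ≤ ∫ x, h x ∂μ := by
  set f : ℕ → E → ℝ := fun m x => ∑ l, φ l x *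
    ((F (x + (1 / ((m : ℝ) + 1)) • w l) + F (x - (1 / ((m : ℝ) + 1)) • w l) - 2 * F x) /
      (1 / ((m : ℝ) + 1)) ^ 2) with hf
  have hint : ∀ (m : ℕ) (l : ι), Integrable (fun x => φ l x *
      ((F (x + (1 / ((m : ℝ) + 1)) • w l) + F (x - (1 / ((m : ℝ) + 1)) • w l) - 2 * F x) /
      (1 / ((m : ℝ) + 1)) ^ 2)) μ := by
    intro m l
    have c0 := hF.continuous
    have c1 := (hφ l).continuous
    exact (Continuous.integrable_of_hasCompactSupport (by fun_prop) (hc l).mul_right)
  refine reverse_fatou (f := f) (g := fun x => ∑ l, φ l x * (C * ‖w l‖ ^ 2)) ?_ ?_ hh ?_ ?_ ?_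
  · intro m
    exact integrable_finset_sum _ fun l _ => hint m l
  · exact integrable_finset_sum _ fun l _ =>
      ((hφ l).continuous.integrable_of_hasCompactSupport (hc l)).mul_const _
  · filter_upwards [tendsto_seq.eventually hup, tendsto_seq.eventually self_mem_nhdsWithin]
      with m hm hm0
    filter_upwards with x
    refine Finset.sum_le_sum fun l _ => ?_
    set t : ℝ := 1 / ((m : ℝ) + 1) with ht
    have ht0 : 0 < t := hm0
    have h1 := hm x l
    have h2 : φ l x * ((F (x + t • w l) + F (x - t • w l) - 2 * F x) / t ^ 2) =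
        (φ l x * (F (x + t • w l) + F (x - t • w l) - 2 * F x)) / t ^ 2 := by ring
    rw [h2, div_le_iff₀ (by positivity)]
    refine h1.trans (le_of_eq ?_)
    ring
  · filter_upwards [hlim] with x hx η hη
    filter_upwards [tendsto_seq.eventually (hx η hη),
      tendsto_seq.eventually self_mem_nhdsWithin] with m hm hm0
    set t : ℝ := 1 / ((m : ℝ) + 1) with ht
    have ht0 : 0 < t := hm0
    have h2 : f m x = (∑ l, φ l x * (F (x + t • w l) + F (x - t • w l) - 2 * F x)) / t ^ 2 := by
      rw [Finset.sum_div]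
      refine Finset.sum_congr rfl fun l _ => ?_
      ring
    rw [h2, div_le_iff₀ (by positivity)]
    refine hm.trans (le_of_eq ?_)
    ring
  · have h1 : ∀ l, Tendsto (fun m : ℕ => ∫ x, φ l x *
        ((F (x + (1 / ((m : ℝ) + 1)) • w l) + F (x - (1 / ((m : ℝ) + 1)) • w l) - 2 * F x) /
        (1 / ((m : ℝ) + 1)) ^ 2) ∂μ) atTop
        (𝓝 (-∫ x, lineDeriv ℝ (φ l) x (w l) * lineDeriv ℝ F x (w l) ∂μ)) := fun l =>
      (second_diff_tendsto (μ := μ) hF (hφ l) (hc l) (w l)).comp tendsto_seq
    have h2 := tendsto_finset_sum Finset.univ fun l _ => h1 l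
    rw [Finset.sum_neg_distrib] at h2
    refine h2.congr fun m => ?_
    rw [integral_finset_sum _ fun l _ => hint m l]

end Vale.Agent.P210.R2.H265
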