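import Vale.Agent.P210.R2.H265.LapH

/-!
# LAP, part I: the weak inequality in a chart (flat version)
-/

open scoped ContDiff Topology NNReal ENNReal
open Set Metric Filter MeasureTheory

set_option maxSynthPendingDepth 3
set_option linter.all false

noncomputable section

namespace Vale.Agent.P210.R2.H265

open Vale.Agent.P210.R2.H53

variable {E : Type} [NormedAddCommGroup E] [NormedSpace ℝ E] [FiniteDimensional ℝ E]
  [MeasurableSpace E] [BorelSpace E]
  {G : E → E →L[ℝ] E →L[ℝ] ℝ} {U : Set E} {μ : Measure E} [μ.IsAddHaarMeasure]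

/-- the weak inequality for functions with small support, in a chart -/
theorem wlc_flat (hG : LocalRiem G U) (hn : 1 ≤ Module.finrank ℝ E) {z₀ : E} (hz₀ : z₀ ∈ U)
    {f q : E → ℝ} {C : ℝ} {L : ℝ≥0} {ρ₁ : ℝ} (hρ₁ : 0 < ρ₁) (hsub : ball z₀ ρ₁ ⊆ U)
    (hC : 0 ≤ C) (hS : SemiC f C (ball z₀ ρ₁)) (hL : LipschitzOnWith L f (ball z₀ ρ₁))
    (hq : ContinuousOn q (ball z₀ ρ₁))
    (hpt : ∀ z ∈ ball z₀ ρ₁, DifferentiableAt ℝ f z → ∀ (w : DI E → E) (k : DI E → ℝ),
      (∀ l, 0 ≤ k l) → Rep (G z) w k → ∀ η > 0, ∀ᶠ r in 𝓝[>] (0 : ℝ),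
        ∑ l, k l * (f (z + r • w l) + f (z - r • w l) - 2 * f z) ≤
          r ^ 2 * (q z + ∑ l, k l * fderiv ℝ f z (chris G z (w l) (w l)) + η)) :
    ∃ ρ > 0, ρ ≤ ρ₁ ∧ ∀ (Z : E → ℝ) (D : ℝ≥0), LipschitzWith D Z → tsupport Z ⊆ ball z₀ ρ →
      (∀ z, 0 ≤ Z z) →
      -∫ z, gamG G f Z z * dens G z ∂μ ≤ ∫ z, q z * Z z * dens G z ∂μ := by
  obtain ⟨w, k, δ, hδ, hδU, hk1, hk2, hk3⟩ := exists_decomp hG hz₀ hn
  set ρ₂ := min ρ₁ δ with hρ₂
  have hρ₂0 : 0 < ρ₂ := lt_min hρ₁ hδ
  have hb1 : ball z₀ ρ₂ ⊆ ball z₀ ρ₁ := ball_subset_ball (min_le_left _ _)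
  have hb2 : ball z₀ ρ₂ ⊆ ball z₀ δ := ball_subset_ball (min_le_right _ _)
  have hbU : ball z₀ ρ₂ ⊆ U := hb1.trans hsub
  obtain ⟨F, hF, hFf⟩ := (hL.mono hb1).extend_real
  let χ : ContDiffBump z₀ := ⟨ρ₂ / 2, 3 * ρ₂ / 4, by positivity, by linarith⟩
  have hχ1 : ∀ z ∈ ball z₀ (ρ₂ / 2), χ z = 1 := fun z hz =>
    χ.one_of_mem_closedBall (ball_subset_closedBall hz)
  have hχs : tsupport χ ⊆ ball z₀ ρ₂ := by
    rw [χ.tsupport_eq]
    exact closedBall_subset_ball (by change 3 * ρ₂ / 4 < ρ₂; linarith)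
  have hχc : HasCompactSupport χ := χ.hasCompactSupport
  refine ⟨ρ₂ / 2, by positivity, by linarith [min_le_left ρ₁ δ], fun Z D hZ hZs hZ0 => ?_⟩
  have hballs : ball z₀ (ρ₂ / 2) ⊆ ball z₀ ρ₂ := ball_subset_ball (by linarith)
  have hZc : HasCompactSupport Z :=
    IsCompact.of_isClosed_subset (isCompact_closedBall z₀ (ρ₂ / 2)) (isClosed_tsupport Z)
      (hZs.trans ball_subset_closedBall)
  have hZne : ∀ z, Z z ≠ 0 → z ∈ ball z₀ (ρ₂ / 2) := fun z hz =>
    hZs (subset_tsupport _ hz)
  -- the coefficient functions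
  set c : DI E → E → ℝ := fun l z => χ z * (k l z * dens G z) with hc
  have hcs : ∀ l, ContDiff ℝ ∞ (c l) := fun l =>
    contDiff_mul_of_tsupport χ.contDiff hχs isOpen_ball
      (((hk1 l).mono hb2).mul ((contDiffOn_dens hG).mono hbU))
  have hcc : ∀ l, HasCompactSupport (c l) := fun l => hχc.mul_right
  have hcl : ∀ l, ∃ D', LipschitzWith D' (c l) := fun l =>
    ContDiff.lipschitzWith_of_hasCompactSupport (hcc l) (hcs l) (by simp)
  have hφ : ∀ l, ∃ D', LipschitzWith D' (fun z => c l z * Z z) := by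
    intro l
    obtain ⟨D', hD'⟩ := hcl l
    exact lip_mul hZ hD' (hcc l)
  set φ : DI E → E → ℝ := fun l z => Z z * (k l z * dens G z) with hφd
  have hφeq : ∀ l, (fun z => c l z * Z z) = φ l := by
    intro l
    funext z
    by_cases hz : Z z = 0
    · simp [hφd, hz]
    · simp only [hφd, hc, hχ1 z (hZne z hz)]
      ring
  have hφl : ∀ l, ∃ D', LipschitzWith D' (φ l) := by
    intro l
    rw [← hφeq l]
    exact hφ l
  choose D' hD' using hφl
  have hφc : ∀ l, HasCompactSupport (φ l) := fun l => hZc.mul_right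
  have hdens0 : ∀ z ∈ ball z₀ ρ₂, 0 < dens G z := fun z hz =>
    dens_pos (hG.symm z (hbU hz)) (hG.pos z (hbU hz))
  have hφ0 : ∀ l z, 0 ≤ φ l z := by
    intro l z
    by_cases hz : Z z = 0
    · simp [hφd, hz]
    · have hz' := hballs (hZne z hz)
      exact mul_nonneg (hZ0 z) (mul_nonneg (hk2 l z (hb2 hz')) (hdens0 z hz').le)
  -- the limit function
  set h₁ : E → ℝ := fun z => q z * Z z * dens G z with hh₁
  set h₂ : DI E → E → ℝ := fun l z => fderiv ℝ F z
    (Z z • ((k l z * dens G z) • chris G z (w l) (w l))) with hh₂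
  have hch : ContinuousOn (chris G) (ball z₀ ρ₂) := hG.contDiffOn_chris.continuousOn.mono hbU
  have hdc : ContinuousOn (dens G) (ball z₀ ρ₂) := (contDiffOn_dens hG).continuousOn.mono hbU
  have hZs' : tsupport Z ⊆ ball z₀ ρ₂ := hZs.trans hballs
  have hi1 : Integrable h₁ μ := by
    have h1 : Continuous fun z => Z z • (q z * dens G z) :=
      continuous_smul_of_tsupport hZ.continuous hZs' isOpen_ball ((hq.mono hb1).mul hdc)
    have h2 : (fun z => Z z • (q z * dens G z)) = h₁ := by
      funext z; simp only [hh₁, smul_eq_mul]; ring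
    rw [h2] at h1
    refine h1.integrable_of_hasCompactSupport ?_
    rw [← h2]
    exact hZc.smul_right
  have hi2 : ∀ l, Integrable (h₂ l) μ := by
    intro l
    refine integrable_fderiv_apply hF ?_ hZc.smul_right
    refine continuous_smul_of_tsupport hZ.continuous hZs' isOpen_ball ?_
    exact (((hk1 l).continuousOn.mono hb2).mul hdc).smul
      ((hch.clm_apply continuousOn_const).clm_apply continuousOn_const)
  have hi : Integrable (fun z => h₁ z + ∑ l, h₂ l z) μ :=
    hi1.add (integrable_finset_sum _ fun l _ => hi2 l)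
  have hFd : ∀ z ∈ ball z₀ ρ₂, F =ᶠ[𝓝 z] f := by
    intro z hz
    filter_upwards [isOpen_ball.mem_nhds hz] with y hy
    exact (hFf hy).symm
  have hmain := limit_step (μ := μ) (C := C) hF hD' hφc w hi ?_ ?_
  rotate_left
  · -- upper bound
    have h1 : ∀ᶠ t in 𝓝[>] (0 : ℝ), ∀ l, t * ‖w l‖ < ρ₂ / 2 := by
      refine eventually_all.2 fun l => ?_
      have : ContinuousAt (fun t : ℝ => t * ‖w l‖) 0 := by fun_prop
      exact (this.eventually_lt continuousAt_const (by simpa using by positivity)).filter_mono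
        nhdsWithin_le_nhds
    filter_upwards [h1, self_mem_nhdsWithin] with t ht ht0 x l
    have ht0' : 0 < t := ht0
    by_cases hx : Z x = 0
    · simp [hφd, hx]
    · have hx1 := hZne x hx
      apply mul_le_mul_of_nonneg_left _ (hφ0 l x)
      have hn1 : ‖t • w l‖ < ρ₂ / 2 := by
        rw [norm_smul, Real.norm_of_nonneg ht0'.le]; exact ht l
      have m1 : x + t • w l ∈ ball z₀ ρ₂ := by
        rw [mem_ball, dist_eq_norm] at hx1 ⊢
        have : x + t • w l - z₀ = (x - z₀) + t • w l := by abel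
        rw [this]
        linarith [norm_add_le (x - z₀) (t • w l)]
      have m2 : x - t • w l ∈ ball z₀ ρ₂ := by
        rw [mem_ball, dist_eq_norm] at hx1 ⊢
        have : x - t • w l - z₀ = (x - z₀) - t • w l := by abel
        rw [this]
        linarith [norm_sub_le (x - z₀) (t • w l)]
      rw [← hFf m1, ← hFf m2, ← hFf (hballs hx1)]
      have h2 := hS x (t • w l) 1 1 one_pos one_pos (by rw [one_smul]; exact hb1 m2)
        (by rw [one_smul]; exact hb1 m1)
      rw [one_smul, norm_smul, Real.norm_of_nonneg ht0'.le, mul_pow] at h2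
      linarith
  · -- pointwise bound
    filter_upwards [hF.ae_differentiableAt] with x hx η hη
    by_cases hx0 : Z x = 0
    · filter_upwards with t
      have e1 : h₁ x = 0 := by simp [hh₁, hx0]
      have e2 : ∀ l, h₂ l x = 0 := by intro l; simp [hh₂, hx0]
      simp only [hφd, hx0, zero_mul, Finset.sum_const_zero, e1, e2, zero_add]
      positivity
    · have hx1 := hZne x hx0
      have hx2 := hballs hx1
      have hfx : DifferentiableAt ℝ f x := (hFd x hx2).differentiableAt_iff.1 hx
      set a := Z x * dens G x with ha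
      have ha0 : 0 ≤ a := mul_nonneg (hZ0 x) (hdens0 x hx2).le
      have h1 := hpt x (hb1 hx2) hfx w (fun l => k l x) (fun l => hk2 l x (hb2 hx2))
        (hk3 x (hb2 hx2)) (η / (a + 1)) (by positivity)
      have h2 : ∀ᶠ t in 𝓝[>] (0 : ℝ), ∀ l, x + t • w l ∈ ball z₀ ρ₂ ∧
          x - t • w l ∈ ball z₀ ρ₂ := by
        refine eventually_all.2 fun l => ?_
        have c1 : ContinuousAt (fun t : ℝ => x + t • w l) 0 := by fun_prop
        have c2 : ContinuousAt (fun t : ℝ => x - t • w l) 0 := by fun_prop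
        exact ((c1.eventually (isOpen_ball.mem_nhds (by simpa using hx2))).and
          (c2.eventually (isOpen_ball.mem_nhds (by simpa using hx2)))).filter_mono
            nhdsWithin_le_nhds
      filter_upwards [h1, h2, self_mem_nhdsWithin] with t ht1 ht2 ht0
      have ht0' : 0 < t := ht0
      have e1 : ∑ l, φ l x * (F (x + t • w l) + F (x - t • w l) - 2 * F x) =
          a * ∑ l, k l x * (f (x + t • w l) + f (x - t • w l) - 2 * f x) := by
        rw [Finset.mul_sum]
        refine Finset.sum_congr rfl fun l _ => ?_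
        rw [← hFf (ht2 l).1, ← hFf (ht2 l).2, ← hFf hx2]
        simp only [hφd, ha]
        ring
      have e2 : h₁ x + ∑ l, h₂ l x = a * (q x + ∑ l, k l x * fderiv ℝ f x
          (chris G x (w l) (w l))) := by
        have e3 : ∀ l, h₂ l x = a * (k l x * fderiv ℝ f x (chris G x (w l) (w l))) := by
          intro l
          simp only [hh₂, ha, (hFd x hx2).fderiv_eq, map_smul, smul_eq_mul]
          ring
        simp only [e3, ← Finset.mul_sum]
        simp only [hh₁, ha]
        ring
      rw [e1, e2]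
      have e4 := mul_le_mul_of_nonneg_left ht1 ha0
      refine e4.trans ?_
      have e5 : a * (η / (a + 1)) ≤ η := by
        rw [mul_div_assoc', div_le_iff₀ (by positivity)]
        nlinarith
      have e6 : 0 < t ^ 2 := by positivity
      nlinarith
  -- conclusion
  have hii : ∀ l, Integrable (fun x => lineDeriv ℝ (φ l) x (w l) * lineDeriv ℝ F x (w l)) μ :=
    fun l => integrable_lineDeriv_mul hF (hD' l) (hφc l) (w l)
  have hae : (fun z => gamG G f Z z * dens G z) =ᵐ[μ] fun z =>
      (∑ l, lineDeriv ℝ (φ l) z (w l) * lineDeriv ℝ F z (w l)) + ∑ l, h₂ l z := by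
    filter_upwards [hF.ae_differentiableAt, hZ.ae_differentiableAt] with z hFz hZz
    by_cases hz : z ∈ tsupport Z
    · have hz1 := hZs hz
      have hz2 := hballs hz1
      have hfd : fderiv ℝ F z = fderiv ℝ f z := (hFd z hz2).fderiv_eq
      have hkd : ∀ l, DifferentiableAt ℝ (k l) z := fun l =>
        ((hk1 l).contDiffAt (isOpen_ball.mem_nhds (hb2 hz2))).differentiableAt (by simp)
      have h1 := pointwise_identity hG (hbU hz2) (F := f) (w := w) hkd (by
        filter_upwards [isOpen_ball.mem_nhds (hb2 hz2)] with y hy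
        exact hk3 y hy) hZz
      rw [← h1]
      congr 1
      · refine Finset.sum_congr rfl fun l _ => ?_
        have hdd : DifferentiableAt ℝ (dens G) z :=
          ((contDiffOn_dens hG).contDiffAt (hG.isOpen.mem_nhds (hbU hz2))).differentiableAt
            (by simp)
        have hφz : DifferentiableAt ℝ (φ l) z := hZz.mul ((hkd l).mul hdd)
        rw [hφz.lineDeriv_eq_fderiv, hFz.lineDeriv_eq_fderiv, hfd]
      · rw [Finset.mul_sum]
        refine Finset.sum_congr rfl fun l _ => ?_
        simp only [hh₂, hfd, map_smul, smul_eq_mul]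
        ring
    · have h0 : Z z = 0 := image_eq_zero_of_notMem_tsupport hz
      have h1 : fderiv ℝ Z z = 0 := by
        have : Z =ᶠ[𝓝 z] fun _ => 0 := by
          filter_upwards [(isClosed_tsupport Z).isOpen_compl.mem_nhds hz] with y hy
          exact image_eq_zero_of_notMem_tsupport hy
        rw [this.fderiv_eq]
        simp
      have h2 : ∀ l, lineDeriv ℝ (φ l) z (w l) = 0 := by
        intro l
        apply lineDeriv_eq_zero
        intro hc'
        exact hz (closure_mono (Function.support_mul_subset_left _ _) hc')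
      have h3 : gamG G f Z z = 0 := by
        simp only [gamG, gradG, h1, map_zero]
      simp [h2, h3, hh₂, h0]
  rw [integral_congr_ae hae]
  have i1 : Integrable (fun z => ∑ l, lineDeriv ℝ (φ l) z (w l) * lineDeriv ℝ F z (w l)) μ :=
    integrable_finset_sum _ fun l _ => hii l
  have i2 : Integrable (fun z => ∑ l, h₂ l z) μ := integrable_finset_sum _ fun l _ => hi2 l
  rw [integral_add i1 i2, integral_finset_sum _ fun l _ => hii l]
  rw [integral_add hi1 i2] at hmain
  linarith

end Vale.Agent.P210.R2.H265
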