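import Vale.Agent.P210.R2.H53.TSpec

/-!
# Row SLICE: slices of twisted products
-/

open scoped Manifold ContDiff Topology Bundle ENNReal NNReal
open Set Metric Filter Bundle IsManifold MeasureTheory Manifold Asymptotics

set_option maxSynthPendingDepth 3
set_option linter.all false

noncomputable section

namespace Vale.Agent.P210.R2.H265

open Vale.Agent.P210.R2.H53

variable {E : Type} [NormedAddCommGroup E] [NormedSpace ℝ E]
  {V : Type} [NormedAddCommGroup V] [NormedSpace ℝ V]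
  {N : Type} [MetricSpace N] [ChartedSpace E N]
  [RiemannianBundle (fun x : N => TangentSpace 𝓘(ℝ, E) x)]
  {F : Type} [TopologicalSpace F] [ChartedSpace V F]
  {M : Type} [MetricSpace M] [ChartedSpace (E × V) M]
  [RiemannianBundle (fun x : M => TangentSpace 𝓘(ℝ, E × V) x)]

/-- the norm of a vector tangent to a slice -/
theorem twisted_norm {w : N → ℝ} {Φ : Diffeomorph 𝓘(ℝ, E × V) (𝓘(ℝ, E).prod 𝓘(ℝ, V)) M (N × F) ∞}
    (h : IsTwisted w Φ) {p : M} {x : N} (hx : (Φ p).1 = x) (v : TangentSpace 𝓘(ℝ, E × V) p)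
    (u : TangentSpace 𝓘(ℝ, E) x)
    (h2 : mfderiv 𝓘(ℝ, E × V) 𝓘(ℝ, V) (fun q => (Φ q).2) p v = 0)
    (h1 : (mfderiv 𝓘(ℝ, E × V) 𝓘(ℝ, E) (fun q => (Φ q).1) p v : E) = u) :
    ‖v‖ ^ 2 = w x * ‖u‖ ^ 2 := by
  subst hx
  have h3 := h p v v h2
  have h4 : (mfderiv 𝓘(ℝ, E × V) 𝓘(ℝ, E) (fun q => (Φ q).1) p v :
    TangentSpace 𝓘(ℝ, E) (Φ p).1) = u := h1
  rw [h4] at h3
  rw [← real_inner_self_eq_norm_sq, ← real_inner_self_eq_norm_sq]
  exact h3

theorem slice_dist [IsManifold 𝓘(ℝ, E) ∞ N] [IsManifold 𝓘(ℝ, V) ∞ F]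
    [IsManifold 𝓘(ℝ, E × V) ∞ M] [IsRiemannianManifold 𝓘(ℝ, E) N]
    [IsRiemannianManifold 𝓘(ℝ, E × V) M] {w : N → ℝ}
    {Φ : Diffeomorph 𝓘(ℝ, E × V) (𝓘(ℝ, E).prod 𝓘(ℝ, V)) M (N × F) ∞}
    (h : IsTwisted w Φ) {Λ : ℝ} (hΛ : 0 ≤ Λ) (hw : ∀ x, w x ≤ Λ ^ 2) (x x' : N) (y : F) :
    dist (Φ.symm (x, y)) (Φ.symm (x', y)) ≤ Λ * dist x x' := by
  have hkey : ∀ c : ℝ≥0∞, edist x x' < c →
      edist (Φ.symm (x, y)) (Φ.symm (x', y)) ≤ ENNReal.ofReal Λ * c := by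
    intro c hc
    rw [IsRiemannianManifold.out (I := 𝓘(ℝ, E)) x x'] at hc
    obtain ⟨γ, h0, h1, hγ, hlen, -, -⟩ :=
      exists_lt_locally_constant_of_riemannianEDist_lt hc zero_lt_one
    set γ' : ℝ → M := fun t => Φ.symm (γ t, y) with hγ'
    have hs : ContMDiff 𝓘(ℝ, ℝ) 𝓘(ℝ, E × V) 1 γ' := by
      have h2 : ContMDiff 𝓘(ℝ, ℝ) (𝓘(ℝ, E).prod 𝓘(ℝ, V)) 1 fun t => (γ t, y) :=
        hγ.prodMk contMDiff_const
      exact (Φ.symm.contMDiff.of_le (by simp)).comp h2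
    have hle : riemannianEDist 𝓘(ℝ, E × V) (Φ.symm (x, y)) (Φ.symm (x', y)) ≤
        pathELength 𝓘(ℝ, E × V) γ' 0 1 :=
      riemannianEDist_le_pathELength hs.contMDiffOn (by rw [hγ']; simp only [h0])
        (by rw [hγ']; simp only [h1]) zero_le_one
    have hlen' : pathELength 𝓘(ℝ, E × V) γ' 0 1 ≤
        ENNReal.ofReal Λ * pathELength 𝓘(ℝ, E) γ 0 1 := by
      rw [pathELength_eq_lintegral_mfderiv_Icc, pathELength_eq_lintegral_mfderiv_Icc,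
        ← lintegral_const_mul' _ _ ENNReal.ofReal_ne_top]
      refine lintegral_mono fun t => ?_
      have hp : (Φ (γ' t)).1 = γ t := by rw [hγ']; simp
      have hsd : MDifferentiableAt 𝓘(ℝ, ℝ) 𝓘(ℝ, E × V) γ' t :=
        (hs t).mdifferentiableAt one_ne_zero
      have hΦ1 : MDifferentiableAt 𝓘(ℝ, E × V) 𝓘(ℝ, E) (fun q => (Φ q).1) (γ' t) :=
        ((Φ.contMDiff.fst) _).mdifferentiableAt (by simp)
      have hΦ2 : MDifferentiableAt 𝓘(ℝ, E × V) 𝓘(ℝ, V) (fun q => (Φ q).2) (γ' t) :=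
        ((Φ.contMDiff.snd) _).mdifferentiableAt (by simp)
      have e1 : mfderiv 𝓘(ℝ, E × V) 𝓘(ℝ, V) (fun q => (Φ q).2) (γ' t)
          (mfderiv 𝓘(ℝ, ℝ) 𝓘(ℝ, E × V) γ' t 1) = 0 := by
        have k := mfderiv_comp t hΦ2 hsd
        have k2 : ((fun q => (Φ q).2) ∘ γ') = fun _ => y := by
          funext s
          simp [hγ']
        have k3 : mfderiv 𝓘(ℝ, ℝ) 𝓘(ℝ, V) ((fun q => (Φ q).2) ∘ γ') t = 0 := by
          rw [k2]; exact mfderiv_const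
        rw [k3] at k
        have := congrArg (fun T => T (1 : ℝ)) k
        exact this.symm
      have e2 : (mfderiv 𝓘(ℝ, E × V) 𝓘(ℝ, E) (fun q => (Φ q).1) (γ' t)
          (mfderiv 𝓘(ℝ, ℝ) 𝓘(ℝ, E × V) γ' t 1) : E) = mfderiv 𝓘(ℝ, ℝ) 𝓘(ℝ, E) γ t 1 := by
        have k := mfderiv_comp t hΦ1 hsd
        have k2 : ((fun q => (Φ q).1) ∘ γ') = γ := by
          funext s
          simp [hγ']
        have := congrArg (fun T => T (1 : ℝ)) k
        refine Eq.trans this.symm ?_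
        rw [k2]
        rfl
      have hn := twisted_norm h hp _ _ e1 e2
      have hn2 : ‖mfderiv 𝓘(ℝ, ℝ) 𝓘(ℝ, E × V) γ' t 1‖ ≤
          Λ * ‖mfderiv 𝓘(ℝ, ℝ) 𝓘(ℝ, E) γ t 1‖ := by
        refine (pow_le_pow_iff_left₀ (norm_nonneg _) (mul_nonneg hΛ (norm_nonneg _))
          two_ne_zero).1 ?_
        rw [hn, mul_pow]
        exact mul_le_mul_of_nonneg_right (hw _) (sq_nonneg _)
      rw [← ofReal_norm, ← ofReal_norm, ← ENNReal.ofReal_mul hΛ]
      exact ENNReal.ofReal_le_ofReal hn2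
    rw [IsRiemannianManifold.out (I := 𝓘(ℝ, E × V)) (Φ.symm (x, y)) (Φ.symm (x', y))]
    exact hle.trans (hlen'.trans (mul_le_mul_right hlen.le _))
  refine le_of_forall_pos_le_add fun ε hε => ?_
  have h1 : (0 : ℝ) < Λ + 1 := by linarith
  have h2 : edist x x' < ENNReal.ofReal (dist x x' + ε / (Λ + 1)) := by
    rw [edist_dist]
    exact (ENNReal.ofReal_lt_ofReal_iff (by positivity)).2 (by
      have : 0 < ε / (Λ + 1) := div_pos hε h1
      linarith)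
  have h3 := hkey _ h2
  rw [← ENNReal.ofReal_mul hΛ, edist_dist] at h3
  have h4 := (ENNReal.ofReal_le_ofReal_iff (by positivity)).1 h3
  refine h4.trans ?_
  have h5 : Λ * (ε / (Λ + 1)) ≤ ε := by
    rw [mul_div_assoc']
    rw [div_le_iff₀ h1]
    nlinarith
  linarith

/-- Row SLICE. -/
theorem slice : Stmt.SLICE := by
  intro E _ _ _ V _ _ _ N _ _ _ _ _ _ F _ _ _ M _ _ _ _ _ _ w Φ hws hw0 hT
  refine ⟨fun Λ hΛ hw x x' y => slice_dist hT hΛ hw x x' y, fun Λ hΛ hw hM hF => ?_⟩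
  obtain ⟨y⟩ := hF
  refine Metric.complete_of_cauchySeq_tendsto fun u hu => ?_
  have h1 : CauchySeq fun n => Φ.symm (u n, y) := by
    rw [Metric.cauchySeq_iff] at hu ⊢
    intro ε hε
    obtain ⟨n, hn⟩ := hu (ε / (Λ + 1)) (div_pos hε (by linarith))
    refine ⟨n, fun i hi j hj => ?_⟩
    have h2 := hn i hi j hj
    have h3 := slice_dist hT hΛ hw (u i) (u j) y
    rw [lt_div_iff₀ (by linarith)] at h2
    have h4 := dist_nonneg (x := u i) (y := u j)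
    nlinarith
  obtain ⟨p, hp⟩ := cauchySeq_tendsto_of_complete h1
  refine ⟨(Φ p).1, ?_⟩
  have h2 : Tendsto (fun n => (Φ (Φ.symm (u n, y))).1) atTop (𝓝 (Φ p).1) :=
    ((continuous_fst.comp Φ.continuous).tendsto p).comp hp
  simpa using h2

end Vale.Agent.P210.R2.H265
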