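import Vale.Agent.P210.R2.H265.LapF

/-!
# TWIST, part A: first and second derivative of the logarithm of a determinant
-/

open scoped ContDiff Topology Matrix
open Set Metric Filter

set_option maxSynthPendingDepth 3
set_option linter.all false

noncomputable section

namespace Vale.Agent.P210.R2.H265

open Vale.Agent.P210.R2.H53

section Det

variable {X : Type} [NormedAddCommGroup X] [NormedSpace ℝ X]

theorem differentiableAt_det {n : ℕ} {A : X → Matrix (Fin n) (Fin n) ℝ} {z : X}
    (hA : ∀ i j, DifferentiableAt ℝ (fun y => A y i j) z) :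
    DifferentiableAt ℝ (fun y => (A y).det) z := by
  simp only [Matrix.det_apply']
  refine DifferentiableAt.fun_sum fun σ _ => ?_
  refine DifferentiableAt.const_mul ?_ _
  exact (HasFDerivAt.finset_prod (fun i _ => (hA (σ i) i).hasFDerivAt)).differentiableAt

theorem differentiableAt_inv_apply {n : ℕ} {A : X → Matrix (Fin n) (Fin n) ℝ} {z : X}
    (hA : ∀ i j, DifferentiableAt ℝ (fun y => A y i j) z) (hz : (A z).det ≠ 0) (i j : Fin n) :
    DifferentiableAt ℝ (fun y => (A y)⁻¹ i j) z := by
  have h1 : (fun y => (A y)⁻¹ i j) =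
      fun y => ((A y).det)⁻¹ * ((A y).updateRow j (Pi.single i 1)).det := by
    funext y
    rw [Matrix.inv_def, Matrix.smul_apply, Matrix.adjugate_apply, Ring.inverse_eq_inv',
      smul_eq_mul]
  rw [h1]
  refine ((differentiableAt_det hA).inv hz).mul (differentiableAt_det fun a b => ?_)
  by_cases ha : a = j
  · subst ha
    simp only [Matrix.updateRow_self]
    exact differentiableAt_const _
  · simp only [Matrix.updateRow_ne ha]
    exact hA a b

/-- derivative of the inverse matrix at a point where the matrix is the identity -/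
theorem hasFDerivAt_inv_one {n : ℕ} {A : X → Matrix (Fin n) (Fin n) ℝ}
    {A' : Fin n → Fin n → X →L[ℝ] ℝ} {z : X}
    (hA : ∀ i j, HasFDerivAt (fun y => A y i j) (A' i j) z) (h1 : A z = 1) (i j : Fin n) :
    HasFDerivAt (fun y => (A y)⁻¹ i j) (-A' i j) z := by
  have hdet : (A z).det ≠ 0 := by rw [h1]; simp
  have hd := differentiableAt_inv_apply (fun i j => (hA i j).differentiableAt) hdet
  have hcont : ContinuousAt (fun y => (A y).det) z :=
    (differentiableAt_det (fun i j => (hA i j).differentiableAt)).continuousAt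
  have hev : ∀ᶠ y in 𝓝 z, (A y).det ≠ 0 := hcont.eventually_ne hdet
  have h2 : HasFDerivAt (fun y => ∑ c, (A y)⁻¹ i c * A y c j)
      (∑ c, ((A z)⁻¹ i c • A' c j + A z c j • fderiv ℝ (fun y => (A y)⁻¹ i c) z)) z :=
    HasFDerivAt.fun_sum fun c _ => (hd i c).hasFDerivAt.mul (hA c j)
  have h3 : (fun y => ∑ c, (A y)⁻¹ i c * A y c j) =ᶠ[𝓝 z] fun _ => (1 : Matrix (Fin n) (Fin n) ℝ) i j := by
    filter_upwards [hev] with y hy
    rw [← Matrix.mul_apply, Matrix.nonsing_inv_mul _ (isUnit_iff_ne_zero.2 hy)]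
  have h4 := (h2.congr_of_eventuallyEq h3.symm).unique (hasFDerivAt_const _ z)
  have h5 : (∑ c, ((A z)⁻¹ i c • A' c j + A z c j • fderiv ℝ (fun y => (A y)⁻¹ i c) z)) =
      A' i j + fderiv ℝ (fun y => (A y)⁻¹ i j) z := by
    rw [Finset.sum_add_distrib]
    congr 1
    · rw [h1, inv_one, Finset.sum_eq_single i]
      · rw [Matrix.one_apply_eq, one_smul]
      · intro b _ hb
        rw [Matrix.one_apply_ne (Ne.symm hb), zero_smul]
      · simp
    · rw [h1, Finset.sum_eq_single j]
      · rw [Matrix.one_apply_eq, one_smul]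
      · intro b _ hb
        rw [Matrix.one_apply_ne hb, zero_smul]
      · simp
  rw [h5] at h4
  have h6 : fderiv ℝ (fun y => (A y)⁻¹ i j) z = -A' i j := by
    rw [eq_neg_iff_add_eq_zero, add_comm]; exact h4
  rw [← h6]
  exact (hd i j).hasFDerivAt

/-- derivative of the logarithm of the determinant -/
theorem hasFDerivAt_log_det {n : ℕ} {A : X → Matrix (Fin n) (Fin n) ℝ}
    {A' : Fin n → Fin n → X →L[ℝ] ℝ} {z : X}
    (hA : ∀ i j, HasFDerivAt (fun y => A y i j) (A' i j) z) (hz : (A z).det ≠ 0) :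
    HasFDerivAt (fun y => Real.log (A y).det) (∑ i, ∑ j, (A z)⁻¹ i j • A' j i) z := by
  have h1 : HasFDerivAt (fun y => ((A z)⁻¹ * A y).det) (∑ i, ∑ j, (A z)⁻¹ i j • A' j i) z := by
    refine hasFDerivAt_det_one (A' := fun i k => ∑ j, (A z)⁻¹ i j • A' j k) ?_ ?_
    · intro i k
      simp only [Matrix.mul_apply]
      exact HasFDerivAt.fun_sum fun j _ => (hA j k).const_mul _
    · exact Matrix.nonsing_inv_mul _ (isUnit_iff_ne_zero.2 hz)
  have h2 : (fun y => (A y).det) = fun y => (A z).det * ((A z)⁻¹ * A y).det := by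
    funext y
    rw [Matrix.det_mul, Matrix.det_nonsing_inv, Ring.inverse_eq_inv', ← mul_assoc,
      mul_inv_cancel₀ hz, one_mul]
  have h3 := (h1.const_mul (A z).det).log (by
    rw [Matrix.nonsing_inv_mul _ (isUnit_iff_ne_zero.2 hz), Matrix.det_one, mul_one]
    exact hz)
  have h4 : (fun y => Real.log (A y).det) =
      fun y => Real.log ((A z).det * ((A z)⁻¹ * A y).det) := by
    funext y
    rw [← congrFun h2 y]
  rw [h4]
  refine h3.congr_fderiv ?_
  rw [Matrix.nonsing_inv_mul _ (isUnit_iff_ne_zero.2 hz), Matrix.det_one, mul_one, smul_smul,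
    inv_mul_cancel₀ hz, one_smul]

end Det

end Vale.Agent.P210.R2.H265
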