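import Vale.Agent.P210.R2.H265.TwA

/-!
# TWIST, part B: the logarithm of the density of a family of inner products
-/

open scoped ContDiff Topology Matrix
open Set Metric Filter

set_option maxSynthPendingDepth 3
set_option linter.all false

noncomputable section

namespace Vale.Agent.P210.R2.H265

open Vale.Agent.P210.R2.H53

/-- a smooth family of inner products on `F` -/
structure LocFam {X F : Type} [NormedAddCommGroup X] [NormedSpace ℝ X] [NormedAddCommGroup F]
    [NormedSpace ℝ F] (k : X → F →L[ℝ] F →L[ℝ] ℝ) (U : Set X) : Prop where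
  isOpen : IsOpen U
  smooth : ContDiffOn ℝ ∞ k U
  symm : ∀ z ∈ U, ∀ v w, k z v w = k z w v
  pos : ∀ z ∈ U, ∀ v, v ≠ 0 → 0 < k z v v

section

variable {X F : Type} [NormedAddCommGroup X] [NormedSpace ℝ X] [NormedAddCommGroup F]
    [NormedSpace ℝ F] {m : ℕ}

/-- Gram matrix in the basis `c` -/
def gramc (c : Fin m → F) (B : F →L[ℝ] F →L[ℝ] ℝ) : Matrix (Fin m) (Fin m) ℝ :=
  Matrix.of fun i j => B (c i) (c j)

/-- half of the logarithm of the determinant of the Gram matrix -/
def logd (c : Fin m → F) (k : X → F →L[ℝ] F →L[ℝ] ℝ) (x : X) : ℝ :=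
  1 / 2 * Real.log (gramc c (k x)).det

theorem bexp (c : Module.Basis (Fin m) ℝ F) (B : F →L[ℝ] F →L[ℝ] ℝ) (v w : F) :
    B v w = ∑ i, ∑ j, c.repr v i * c.repr w j * B (c i) (c j) := by
  have h1 : B v = ∑ i, c.repr v i • B (c i) := by
    conv_lhs => rw [← c.sum_repr v]
    rw [map_sum]
    exact Finset.sum_congr rfl fun i _ => map_smul _ _ _
  rw [h1, ContinuousLinearMap.sum_apply]
  refine Finset.sum_congr rfl fun i _ => ?_
  conv_lhs => rw [← c.sum_repr w]
  rw [map_sum]
  refine Finset.sum_congr rfl fun j _ => ?_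
  rw [map_smul, smul_apply, smul_eq_mul, smul_eq_mul]
  ring

theorem gramc_change (c f : Module.Basis (Fin m) ℝ F) (B : F →L[ℝ] F →L[ℝ] ℝ) :
    gramc f B = (c.toMatrix f)ᵀ * gramc c B * c.toMatrix f := by
  ext k l
  rw [gramc, Matrix.of_apply, bexp c B, Matrix.mul_apply]
  simp only [Matrix.mul_apply, Matrix.transpose_apply, Finset.sum_mul]
  rw [Finset.sum_comm]
  refine Finset.sum_congr rfl fun i _ => Finset.sum_congr rfl fun j _ => ?_
  simp only [Module.Basis.toMatrix_apply, gramc, Matrix.of_apply]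
  ring

theorem det_gramc_change (c f : Module.Basis (Fin m) ℝ F) (B : F →L[ℝ] F →L[ℝ] ℝ) :
    (gramc f B).det = (c.toMatrix f).det ^ 2 * (gramc c B).det := by
  rw [gramc_change c f, Matrix.det_mul, Matrix.det_mul, Matrix.det_transpose]
  ring

theorem det_toMatrix_ne (c f : Module.Basis (Fin m) ℝ F) : (c.toMatrix f).det ≠ 0 := by
  have h := c.toMatrix_mul_toMatrix_flip f
  intro h0
  have h1 := congrArg Matrix.det h
  rw [Matrix.det_mul, h0, zero_mul, Matrix.det_one] at h1
  exact zero_ne_one h1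

theorem gramc_one {f : Module.Basis (Fin m) ℝ F} {B : F →L[ℝ] F →L[ℝ] ℝ}
    (hf : ∀ i j, B (f i) (f j) = if i = j then 1 else 0) : gramc f B = 1 := by
  ext i j
  rw [gramc, Matrix.of_apply, hf i j, Matrix.one_apply]

/-- orthonormal bases exist -/
theorem exists_onbm [FiniteDimensional ℝ F] (hm : Module.finrank ℝ F = m) {B : F →L[ℝ] F →L[ℝ] ℝ}
    (hs : ∀ v w, B v w = B w v) (hp : ∀ v, v ≠ 0 → 0 < B v v) :
    ∃ f : Module.Basis (Fin m) ℝ F, ∀ i j, B (f i) (f j) = if i = j then 1 else 0 := by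
  subst hm
  exact H973.exists_onb B hs hp

theorem det_gramc_pos [FiniteDimensional ℝ F] (c : Module.Basis (Fin m) ℝ F)
    {B : F →L[ℝ] F →L[ℝ] ℝ} (hs : ∀ v w, B v w = B w v) (hp : ∀ v, v ≠ 0 → 0 < B v v) :
    0 < (gramc c B).det := by
  have hm : Module.finrank ℝ F = m := by
    rw [Module.finrank_eq_card_basis c, Fintype.card_fin]
  obtain ⟨f, hf⟩ := exists_onbm hm hs hp
  have h1 := det_gramc_change c f B
  rw [gramc_one hf, Matrix.det_one] at h1
  by_contra hcon
  push Not at hcon
  nlinarith [sq_nonneg (c.toMatrix f).det]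

variable [FiniteDimensional ℝ F] {k : X → F →L[ℝ] F →L[ℝ] ℝ} {U : Set X}

theorem logd_change (h : LocFam k U) (c f : Module.Basis (Fin m) ℝ F) {x : X} (hx : x ∈ U) :
    logd f k x = logd c k x + Real.log |(c.toMatrix f).det| := by
  have h1 := det_gramc_change c f (k x)
  have h2 := det_gramc_pos c (h.symm x hx) (h.pos x hx)
  have h3 := det_toMatrix_ne c f
  rw [logd, logd, h1, Real.log_mul (pow_ne_zero _ h3) h2.ne', Real.log_pow, Real.log_abs]
  push_cast
  ring

theorem contDiffOn_logd (h : LocFam k U) (c : Module.Basis (Fin m) ℝ F) :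
    ContDiffOn ℝ ∞ (logd c k) U := by
  have h1 : ContDiffOn ℝ ∞ (fun x => (gramc c (k x)).det) U := by
    simp only [Matrix.det_apply']
    refine ContDiffOn.sum fun σ _ => ContDiffOn.mul contDiffOn_const ?_
    refine contDiffOn_prod fun i _ => ?_
    simp only [gramc, Matrix.of_apply]
    exact (h.smooth.clm_apply contDiffOn_const).clm_apply contDiffOn_const
  exact contDiffOn_const.mul (h1.log fun x hx => (det_gramc_pos c (h.symm x hx) (h.pos x hx)).ne')

theorem LocFam.diff (h : LocFam k U) {x : X} (hx : x ∈ U) : DifferentiableAt ℝ k x :=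
  (h.smooth.contDiffAt (h.isOpen.mem_nhds hx)).differentiableAt (by simp)

theorem LocFam.diff2 (h : LocFam k U) {x : X} (hx : x ∈ U) :
    DifferentiableAt ℝ (fderiv ℝ k) x :=
  ((h.smooth.fderiv_of_isOpen h.isOpen (m := ∞) (by simp)).contDiffAt
    (h.isOpen.mem_nhds hx)).differentiableAt (by simp)

theorem LocFam.hasF (h : LocFam k U) {x : X} (hx : x ∈ U) (v w : F) :
    HasFDerivAt (fun y => k y v w) (((fderiv ℝ k x).flip v).flip w) x := by
  have := ((h.diff hx).hasFDerivAt.clm_apply (hasFDerivAt_const v x)).clm_apply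
    (hasFDerivAt_const w x)
  convert! this using 1
  ext u
  simp

theorem LocFam.hasF2 (h : LocFam k U) {x : X} (hx : x ∈ U) (u : X) (v w : F) :
    HasFDerivAt (fun y => fderiv ℝ k y u v w)
      ((((fderiv ℝ (fderiv ℝ k) x).flip u).flip v).flip w) x := by
  have := (((h.diff2 hx).hasFDerivAt.clm_apply (hasFDerivAt_const u x)).clm_apply
    (hasFDerivAt_const v x)).clm_apply (hasFDerivAt_const w x)
  convert! this using 1
  ext t
  simp

theorem LocFam.fsymm (h : LocFam k U) {x : X} (hx : x ∈ U) (u : X) (v w : F) :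
    fderiv ℝ k x u v w = fderiv ℝ k x u w v := by
  have h3 : (fun y => k y v w) =ᶠ[𝓝 x] (fun y => k y w v) := by
    filter_upwards [h.isOpen.mem_nhds hx] with y hy using h.symm y hy v w
  have h4 := ((h.hasF hx v w).congr_of_eventuallyEq h3.symm).unique (h.hasF hx w v)
  have := congrArg (fun T => T u) h4
  simpa using this

/-- first derivative of `logd`, general base point -/
theorem fderiv_logd_gen (h : LocFam k U) (c f : Module.Basis (Fin m) ℝ F) {x : X} (hx : x ∈ U)
    (u : X) : fderiv ℝ (logd c k) x u =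
      1 / 2 * ∑ i, ∑ j, (gramc f (k x))⁻¹ i j * fderiv ℝ k x u (f j) (f i) := by
  have h1 : logd c k =ᶠ[𝓝 x] fun y => logd f k y - Real.log |(c.toMatrix f).det| := by
    filter_upwards [h.isOpen.mem_nhds hx] with y hy
    rw [logd_change h c f hy]; ring
  have h2 : HasFDerivAt (logd f k)
      ((1 / 2 : ℝ) • ∑ i, ∑ j, (gramc f (k x))⁻¹ i j •
        ((fderiv ℝ k x).flip (f j)).flip (f i)) x := by
    exact (hasFDerivAt_log_det (A := fun y => gramc f (k y))
      (A' := fun i j => ((fderiv ℝ k x).flip (f i)).flip (f j))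
      (fun i j => h.hasF hx (f i) (f j))
      (det_gramc_pos f (h.symm x hx) (h.pos x hx)).ne').const_mul _
  have h3 := (h2.sub_const (Real.log |(c.toMatrix f).det|)).congr_of_eventuallyEq h1
  rw [h3.fderiv]
  simp [Finset.sum_apply]

/-- first derivative of `logd` -/
theorem fderiv_logd (h : LocFam k U) (c f : Module.Basis (Fin m) ℝ F) {x : X} (hx : x ∈ U)
    (hf : ∀ i j, k x (f i) (f j) = if i = j then 1 else 0) (u : X) :
    fderiv ℝ (logd c k) x u = 1 / 2 * ∑ i, fderiv ℝ k x u (f i) (f i) := by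
  rw [fderiv_logd_gen h c f hx, gramc_one hf, inv_one]
  congr 1
  refine Finset.sum_congr rfl fun i _ => ?_
  rw [Finset.sum_eq_single i]
  · rw [Matrix.one_apply_eq, one_mul]
  · intro b _ hb
    rw [Matrix.one_apply_ne (Ne.symm hb), zero_mul]
  · simp

/-- second derivative of `logd` -/
theorem fderiv2_logd (h : LocFam k U) (c f : Module.Basis (Fin m) ℝ F) {x : X} (hx : x ∈ U)
    (hf : ∀ i j, k x (f i) (f j) = if i = j then 1 else 0) (u v : X) :
    fderiv ℝ (fderiv ℝ (logd c k)) x v u =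
      1 / 2 * ∑ i, fderiv ℝ (fderiv ℝ k) x v u (f i) (f i) -
      1 / 2 * ∑ i, ∑ j, fderiv ℝ k x v (f i) (f j) * fderiv ℝ k x u (f i) (f j) := by
  have hL : DifferentiableAt ℝ (fderiv ℝ (logd c k)) x :=
    (((contDiffOn_logd h c).fderiv_of_isOpen h.isOpen (m := ∞) (by simp)).contDiffAt
      (h.isOpen.mem_nhds hx)).differentiableAt (by simp)
  have h1 : HasFDerivAt (fun y => fderiv ℝ (logd c k) y u)
      ((fderiv ℝ (fderiv ℝ (logd c k)) x).flip u) x := by
    have := hL.hasFDerivAt.clm_apply (hasFDerivAt_const u x)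
    convert! this using 1
    ext t
    simp
  have h2 : (fun y => fderiv ℝ (logd c k) y u) =ᶠ[𝓝 x]
      fun y => 1 / 2 * ∑ i, ∑ j, (gramc f (k y))⁻¹ i j * fderiv ℝ k y u (f j) (f i) := by
    filter_upwards [h.isOpen.mem_nhds hx] with y hy
    rw [fderiv_logd_gen h c f hy]
  have h3 : ∀ i j, HasFDerivAt (fun y => (gramc f (k y))⁻¹ i j * fderiv ℝ k y u (f j) (f i))
      ((gramc f (k x))⁻¹ i j • ((((fderiv ℝ (fderiv ℝ k) x).flip u).flip (f j)).flip (f i)) +
        fderiv ℝ k x u (f j) (f i) • (-(((fderiv ℝ k x).flip (f i)).flip (f j)))) x := by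
    intro i j
    exact (hasFDerivAt_inv_one (A := fun y => gramc f (k y))
      (A' := fun i j => ((fderiv ℝ k x).flip (f i)).flip (f j))
      (fun i j => h.hasF hx (f i) (f j)) (gramc_one hf) i j).mul (h.hasF2 hx u (f j) (f i))
  have h4 := (HasFDerivAt.fun_sum fun i (_ : i ∈ Finset.univ) =>
    HasFDerivAt.fun_sum fun j (_ : j ∈ Finset.univ) => h3 i j).const_mul (1 / 2 : ℝ)
  have h5 := (h4.congr_of_eventuallyEq h2).unique h1
  have h6 := congrArg (fun T => T v) h5
  simp only [ContinuousLinearMap.flip_apply] at h6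
  rw [← h6, gramc_one hf, inv_one]
  simp only [smul_apply, ContinuousLinearMap.sum_apply, add_apply, neg_apply,
    ContinuousLinearMap.flip_apply, smul_eq_mul]
  rw [← mul_sub, ← Finset.sum_sub_distrib]
  congr 1
  refine Finset.sum_congr rfl fun i _ => ?_
  rw [Finset.sum_add_distrib, Finset.sum_eq_single i]
  · rw [Matrix.one_apply_eq, one_mul, sub_eq_add_neg, ← Finset.sum_neg_distrib]
    congr 1
    refine Finset.sum_congr rfl fun j _ => ?_
    rw [h.fsymm hx u (f j) (f i)]
    ring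
  · intro b _ hb
    rw [Matrix.one_apply_ne (Ne.symm hb), zero_mul]
  · simp

end

end Vale.Agent.P210.R2.H265
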