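import Vale.Agent.P210.R2.H265.TwB
import Vale.Agent.P210.R2.H973.Loc3

/-!
# Conformal change of a local Riemannian metric
-/

open scoped ContDiff Topology
open Set Metric Filter

set_option maxSynthPendingDepth 3
set_option linter.all false

noncomputable section

namespace Vale.Agent.P210.R2.H265

open Vale.Agent.P210.R2.H53 Vale.Agent.P210.R2.H973

variable {E : Type} [NormedAddCommGroup E] [NormedSpace ℝ E] [FiniteDimensional ℝ E]
  {h : E → E →L[ℝ] E →L[ℝ] ℝ} {U : Set E} {z : E} {r : E → ℝ}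

/-- the sum of the sectional curvatures does not depend on the orthonormal basis -/
theorem scal_indep (hR : LocalRiem h U) (hz : z ∈ U)
    {b c : Module.Basis (Fin (Module.finrank ℝ E)) ℝ E} (hb : ONB (h z) b) (hc : ONB (h z) c) :
    ∑ i, ∑ j, secG h z (b i) (b j) = ∑ i, ∑ j, secG h z (c i) (c j) := by
  have h1 : ∑ i, ∑ j, secG h z (b i) (b j) = ∑ j, ∑ i, secG h z (c i) (b j) := by
    rw [Finset.sum_comm]
    refine Finset.sum_congr rfl fun j _ => ?_
    rw [ric_eq hb, ric_eq hc]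
  rw [h1, Finset.sum_comm]
  refine Finset.sum_congr rfl fun i _ => ?_
  have h2 : ∑ j, secG h z (c i) (b j) = ∑ j, secG h z (b j) (c i) :=
    Finset.sum_congr rfl fun j _ => H329.secG_symm hR hz _ _
  have h3 : ∑ j, secG h z (c i) (c j) = ∑ j, secG h z (c j) (c i) :=
    Finset.sum_congr rfl fun j _ => H329.secG_symm hR hz _ _
  rw [h2, h3, ric_eq hb, ric_eq hc]

theorem lap_onb (hR : LocalRiem h U) (hz : z ∈ U)
    {b : Module.Basis (Fin (Module.finrank ℝ E)) ℝ E} (hb : ONB (h z) b) (φ : E → ℝ) :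
    lapG h φ z = ∑ i, hessG h φ z (b i) (b i) := by
  rw [lapG, onb_trace hb]
  refine Finset.sum_congr rfl fun i _ => ?_
  rw [hR.symm z hz]
  exact op_spec hR hz φ (b i) (b i)

theorem gam_onb (hR : LocalRiem h U) (hz : z ∈ U)
    {b : Module.Basis (Fin (Module.finrank ℝ E)) ℝ E} (hb : ONB (h z) b) (φ ψ : E → ℝ) :
    gamG h φ ψ z = ∑ i, fderiv ℝ φ z (b i) * fderiv ℝ ψ z (b i) := by
  rw [gam_eq hR hz, onb_inner hb]
  refine Finset.sum_congr rfl fun i _ => ?_
  rw [hR.symm z hz (b i), hR.symm z hz (b i), grad_spec hR hz, grad_spec hR hz]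

/-- the conformal metric -/
def cf (r : E → ℝ) (h : E → E →L[ℝ] E →L[ℝ] ℝ) : E → E →L[ℝ] E →L[ℝ] ℝ := fun z => r z • h z

theorem cf_apply (r : E → ℝ) (h : E → E →L[ℝ] E →L[ℝ] ℝ) (z v w : E) :
    cf r h z v w = r z * h z v w := rfl

theorem localRiem_cf (hR : LocalRiem h U) (hr : ContDiffOn ℝ ∞ r U) (hr0 : ∀ z ∈ U, 0 < r z) :
    LocalRiem (cf r h) U where
  isOpen := hR.isOpen
  smooth := hr.smul hR.smooth
  symm z hz v w := by rw [cf_apply, cf_apply, hR.symm z hz]
  pos z hz v hv := by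
    rw [cf_apply]
    exact mul_pos (hr0 z hz) (hR.pos z hz v hv)

theorem fderiv_cf (hR : LocalRiem h U) (hr : ContDiffOn ℝ ∞ r U) (hz : z ∈ U) (u v w : E) :
    fderiv ℝ (cf r h) z u v w = r z * fderiv ℝ h z u v w + fderiv ℝ r z u * h z v w := by
  have h1 : HasFDerivAt (cf r h) (r z • fderiv ℝ h z + (fderiv ℝ r z).smulRight (h z)) z :=
    (fd_diff hR hr hz).smul (hR.differentiableAt hz).hasFDerivAt
  rw [h1.fderiv]
  simp [_root_.add_apply, _root_.smul_apply]

theorem fderiv2_cf (hR : LocalRiem h U) (hr : ContDiffOn ℝ ∞ r U) (hr0 : ∀ z ∈ U, 0 < r z)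
    (hz : z ∈ U) (u v a b : E) :
    fderiv ℝ (fderiv ℝ (cf r h)) z u v a b = r z * fderiv ℝ (fderiv ℝ h) z u v a b +
      fderiv ℝ r z u * fderiv ℝ h z v a b + fderiv ℝ r z v * fderiv ℝ h z u a b +
      fderiv ℝ (fderiv ℝ r) z u v * h z a b := by
  have hK := localRiem_cf hR hr hr0
  have h1 := hK.hasFDerivAt_fderiv_apply hz v a b
  have h2 : (fun y => fderiv ℝ (cf r h) y v a b) =ᶠ[𝓝 z]
      fun y => r y * fderiv ℝ h y v a b + fderiv ℝ r y v * h y a b := by
    filter_upwards [hR.isOpen.mem_nhds hz] with y hy using fderiv_cf hR hr hy v a b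
  have h3 : HasFDerivAt (fun y => fderiv ℝ r y v) ((fderiv ℝ (fderiv ℝ r) z).flip v) z := by
    have := (fd_diff hR (fd_contDiffOn hR hr) hz).clm_apply (hasFDerivAt_const v z)
    convert! this using 1
    ext t
    simp
  have h4 := ((fd_diff hR hr hz).mul (hR.hasFDerivAt_fderiv_apply hz v a b)).add
    (h3.mul (hR.hasFDerivAt_apply hz a b))
  have h5 := (h1.congr_of_eventuallyEq h2.symm).unique h4
  have h6 := congrArg (fun T => T u) h5
  simp [_root_.add_apply, _root_.smul_apply] at h6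
  rw [h6]
  ring

theorem chris_cf (hR : LocalRiem h U) (hr : ContDiffOn ℝ ∞ r U) (hr0 : ∀ z ∈ U, 0 < r z)
    (hz : z ∈ U) (u v : E) :
    chris (cf r h) z u v = chris h z u v + (2 * r z)⁻¹ • (fderiv ℝ r z u • v +
      fderiv ℝ r z v • u - h z u v • gradG h r z) := by
  symm
  have hr1 := hr0 z hz
  refine eq_chris_of_pos ((localRiem_cf hR hr hr0).pos z hz) u v _ fun w => ?_
  rw [koszul, fderiv_cf hR hr hz, fderiv_cf hR hr hz, fderiv_cf hR hr hz, cf_apply]
  simp only [map_add, map_smul, map_sub, _root_.add_apply, _root_.smul_apply, _root_.sub_apply,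
    smul_eq_mul, grad_spec hR hz]
  have h1 := hR.chris_spec hz u v w
  rw [koszul] at h1
  have h2 : h z u w = h z u w := rfl
  field_simp
  linear_combination (r z) * h1

/-- the sectional curvatures of the conformal metric -/
theorem secG_cf (hR : LocalRiem h U) (hr : ContDiffOn ℝ ∞ r U) (hr0 : ∀ z ∈ U, 0 < r z)
    (hz : z ∈ U) (a b : E) :
    secG (cf r h) z a b = r z * secG h z a b - h z b b * hessG h r z a a / 2 -
      h z a a * hessG h r z b b / 2 + h z a b * hessG h r z b a +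
      (4 * r z)⁻¹ * (3 * fderiv ℝ r z a ^ 2 * h z b b + 3 * fderiv ℝ r z b ^ 2 * h z a a -
        6 * fderiv ℝ r z a * fderiv ℝ r z b * h z a b -
        (h z a a * h z b b - h z a b ^ 2) * gamG h r r z) := by
  have hr1 := hr0 z hz
  have e1 := hR.fderiv_eq hz a b b
  have e2 := hR.fderiv_eq hz b a a
  have e3 := hR.fderiv_eq hz a a b
  have e4 := hR.fderiv_eq hz b a b
  have e5 := hR.chris_symm hz b a
  have g1 : ∀ w, h z (gradG h r z) w = fderiv ℝ r z w := fun w => grad_spec hR hz r w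
  have g2 : ∀ w, h z w (gradG h r z) = fderiv ℝ r z w := fun w => by rw [hR.symm z hz, g1]
  have g3 : fderiv ℝ r z (gradG h r z) = gamG h r r z := rfl
  simp only [secG, fderiv2_cf hR hr hr0 hz, chris_cf hR hr hr0 hz, cf_apply, hess_apply,
    e1, e2, e3, e4, e5]
  simp only [map_add, map_smul, map_sub, _root_.add_apply, _root_.smul_apply, _root_.sub_apply,
    smul_eq_mul, g1, g2, g3, hR.symm z hz b a, hR.symm z hz b (chris h z a b),
    hR.symm z hz a (chris h z a b), hR.symm z hz a (chris h z b b),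
    hR.symm z hz b (chris h z a a), hR.symm z hz b (chris h z b b),
    hR.symm z hz a (chris h z a a)]
  field_simp
  ring

end Vale.Agent.P210.R2.H265
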