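import Vale.Agent.P210.R2.H265.TwC

/-!
# Block metrics on a product
-/

open scoped ContDiff Topology
open Set Metric Filter

set_option maxSynthPendingDepth 3
set_option linter.all false

noncomputable section

namespace Vale.Agent.P210.R2.H265

open Vale.Agent.P210.R2.H53 Vale.Agent.P210.R2.H973

section pull

variable {X Y F : Type} [NormedAddCommGroup X] [NormedSpace ℝ X] [NormedAddCommGroup Y]
    [NormedSpace ℝ Y] [NormedAddCommGroup F] [NormedSpace ℝ F] [FiniteDimensional ℝ F]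
    {κ : X → F →L[ℝ] F →L[ℝ] ℝ} {Ω : Set X} {Ω' : Set Y} {j : Y → X} {J : Y →L[ℝ] X}

theorem LocFam.pull1 (h : LocFam κ Ω) (hj : ∀ y, HasFDerivAt j J y)
    (hk : LocFam (fun y => κ (j y)) Ω') {y : Y} (hy : y ∈ Ω') (hy' : j y ∈ Ω) (e : Y) (v w : F) :
    fderiv ℝ (fun y => κ (j y)) y e v w = fderiv ℝ κ (j y) (J e) v w := by
  have h1 := hk.hasF hy v w
  have h2 := (h.hasF hy' v w).comp y (hj y)
  have h3 := congrArg (fun T => T e) (h1.unique h2)
  simpa using h3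

theorem LocFam.pull2 (h : LocFam κ Ω) (hj : ∀ y, HasFDerivAt j J y)
    (hk : LocFam (fun y => κ (j y)) Ω') (hΩ : ∀ y ∈ Ω', j y ∈ Ω) {y : Y} (hy : y ∈ Ω')
    (e e' : Y) (v w : F) :
    fderiv ℝ (fderiv ℝ (fun y => κ (j y))) y e e' v w =
      fderiv ℝ (fderiv ℝ κ) (j y) (J e) (J e') v w := by
  have h1 := hk.hasF2 hy e' v w
  have h2 := (h.hasF2 (hΩ y hy) (J e') v w).comp y (hj y)
  have h3 : (fun y => fderiv ℝ (fun y => κ (j y)) y e' v w) =ᶠ[𝓝 y]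
      ((fun x => fderiv ℝ κ x (J e') v w) ∘ j) := by
    filter_upwards [hk.isOpen.mem_nhds hy] with t ht using h.pull1 hj hk ht (hΩ t ht) e' v w
  have h4 := congrArg (fun T => T e) (h1.unique (h2.congr_of_eventuallyEq h3))
  simpa using h4

end pull

variable {E V : Type} [NormedAddCommGroup E] [NormedSpace ℝ E] [FiniteDimensional ℝ E]
  [NormedAddCommGroup V] [NormedSpace ℝ V] [FiniteDimensional ℝ V] {U : Set E} {W : Set V}
  {H : E → E →L[ℝ] E →L[ℝ] ℝ} {κ : E × V → V →L[ℝ] V →L[ℝ] ℝ}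
  {G : E × V → E × V →L[ℝ] E × V →L[ℝ] ℝ}

/-- block metric -/
structure Blk (U : Set E) (W : Set V) (H : E → E →L[ℝ] E →L[ℝ] ℝ)
    (κ : E × V → V →L[ℝ] V →L[ℝ] ℝ) (G : E × V → E × V →L[ℝ] E × V →L[ℝ] ℝ) : Prop where
  hW : IsOpen W
  hH : LocalRiem H U
  hκ : ∀ z ∈ U, LocalRiem (fun v => κ (z, v)) W
  hs : ContDiffOn ℝ ∞ κ (U ×ˢ W)
  hG : ∀ z ∈ U ×ˢ W, ∀ v v', G z v v' = H z.1 v.1 v'.1 + κ z v.2 v'.2

namespace Blk

theorem fam (h : Blk U W H κ G) : LocFam κ (U ×ˢ W) where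
  isOpen := h.hH.isOpen.prod h.hW
  smooth := h.hs
  symm z hz v w := (h.hκ z.1 hz.1).symm z.2 hz.2 v w
  pos z hz v hv := (h.hκ z.1 hz.1).pos z.2 hz.2 v hv

theorem riem (h : Blk U W H κ G) : LocalRiem G (U ×ˢ W) where
  isOpen := h.hH.isOpen.prod h.hW
  smooth := by
    rw [contDiffOn_clm_apply]
    intro v
    rw [contDiffOn_clm_apply]
    intro w
    have h1 : ContDiffOn ℝ ∞ (fun z : E × V => H z.1 v.1 w.1) (U ×ˢ W) :=
      ((h.hH.smooth.comp contDiffOn_fst (fun z hz => hz.1)).clm_apply contDiffOn_const).clm_apply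
        contDiffOn_const
    have h2 : ContDiffOn ℝ ∞ (fun z : E × V => κ z v.2 w.2) (U ×ˢ W) :=
      (h.hs.clm_apply contDiffOn_const).clm_apply contDiffOn_const
    exact (h1.add h2).congr fun z hz => h.hG z hz v w
  symm z hz v w := by
    rw [h.hG z hz, h.hG z hz, h.hH.symm z.1 hz.1, h.fam.symm z hz]
  pos z hz v hv := by
    rw [h.hG z hz]
    by_cases h1 : v.1 = 0
    · have h2 : v.2 ≠ 0 := fun h2 => hv (Prod.ext h1 h2)
      rw [h1]
      simpa using h.fam.pos z hz _ h2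
    · have h3 := h.hH.pos z.1 hz.1 _ h1
      by_cases h2 : v.2 = 0
      · rw [h2]; simpa using h3
      · exact add_pos h3 (h.fam.pos z hz _ h2)

variable {z : E × V}

theorem fderivG (h : Blk U W H κ G) (hz : z ∈ U ×ˢ W) (u v w : E × V) :
    fderiv ℝ G z u v w = fderiv ℝ H z.1 u.1 v.1 w.1 + fderiv ℝ κ z u v.2 w.2 := by
  have h1 := h.riem.hasFDerivAt_apply hz v w
  have h2 := ((h.hH.hasFDerivAt_apply hz.1 v.1 w.1).comp z hasFDerivAt_fst).add
    (h.fam.hasF hz v.2 w.2)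
  have h3 : (fun y => G y v w) =ᶠ[𝓝 z]
      fun y => ((fun y => H y v.1 w.1) ∘ Prod.fst) y + κ y v.2 w.2 := by
    filter_upwards [h.riem.isOpen.mem_nhds hz] with t ht using h.hG t ht v w
  have h4 := congrArg (fun T => T u) (h1.unique (h2.congr_of_eventuallyEq h3))
  simpa using h4

theorem fderiv2G (h : Blk U W H κ G) (hz : z ∈ U ×ˢ W) (t u v w : E × V) :
    fderiv ℝ (fderiv ℝ G) z t u v w = fderiv ℝ (fderiv ℝ H) z.1 t.1 u.1 v.1 w.1 +
      fderiv ℝ (fderiv ℝ κ) z t u v.2 w.2 := by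
  have h1 := h.riem.hasFDerivAt_fderiv_apply hz u v w
  have h2 := ((h.hH.hasFDerivAt_fderiv_apply hz.1 u.1 v.1 w.1).comp z hasFDerivAt_fst).add
    (h.fam.hasF2 hz u v.2 w.2)
  have h3 : (fun y => fderiv ℝ G y u v w) =ᶠ[𝓝 z]
      fun y => ((fun y => fderiv ℝ H y u.1 v.1 w.1) ∘ Prod.fst) y + fderiv ℝ κ y u v.2 w.2 := by
    filter_upwards [h.riem.isOpen.mem_nhds hz] with t ht using h.fderivG ht u v w
  have h4 := congrArg (fun T => T t) (h1.unique (h2.congr_of_eventuallyEq h3))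
  simpa using h4

variable {x : E} {y : V}

/-- derivative of the family in the fibre directions -/
theorem fib1 (h : Blk U W H κ G) (hx : x ∈ U) (hy : y ∈ W) (e v w : V) :
    fderiv ℝ (fun v => κ (x, v)) y e v w = fderiv ℝ κ (x, y) (0, e) v w := by
  have hk : LocFam (fun v => κ (x, v)) W := ⟨h.hW, (h.hκ x hx).smooth, (h.hκ x hx).symm,
    (h.hκ x hx).pos⟩
  exact h.fam.pull1 (fun y => hasFDerivAt_prodMk_right x y) hk hy ⟨hx, hy⟩ e v w

theorem fib2 (h : Blk U W H κ G) (hx : x ∈ U) (hy : y ∈ W) (e e' v w : V) :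
    fderiv ℝ (fderiv ℝ (fun v => κ (x, v))) y e e' v w =
      fderiv ℝ (fderiv ℝ κ) (x, y) (0, e) (0, e') v w := by
  have hk : LocFam (fun v => κ (x, v)) W := ⟨h.hW, (h.hκ x hx).smooth, (h.hκ x hx).symm,
    (h.hκ x hx).pos⟩
  exact h.fam.pull2 (fun y => hasFDerivAt_prodMk_right x y) hk (fun t ht => ⟨hx, ht⟩) hy e e' v w

/-- the family over the base -/
theorem baseFam (h : Blk U W H κ G) (hy : y ∈ W) : LocFam (fun z => κ (z, y)) U :=
  ⟨h.hH.isOpen, h.hs.comp (contDiffOn_id.prodMk contDiffOn_const) fun z hz => ⟨hz, hy⟩,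
    fun z hz v w => (h.hκ z hz).symm y hy v w, fun z hz v hv => (h.hκ z hz).pos y hy v hv⟩

theorem bas1 (h : Blk U W H κ G) (hx : x ∈ U) (hy : y ∈ W) (e : E) (v w : V) :
    fderiv ℝ (fun z => κ (z, y)) x e v w = fderiv ℝ κ (x, y) (e, 0) v w :=
  h.fam.pull1 (fun x => hasFDerivAt_prodMk_left x y) (h.baseFam hy) hx ⟨hx, hy⟩ e v w

theorem bas2 (h : Blk U W H κ G) (hx : x ∈ U) (hy : y ∈ W) (e e' : E) (v w : V) :
    fderiv ℝ (fderiv ℝ (fun z => κ (z, y))) x e e' v w =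
      fderiv ℝ (fderiv ℝ κ) (x, y) (e, 0) (e', 0) v w :=
  h.fam.pull2 (fun x => hasFDerivAt_prodMk_left x y) (h.baseFam hy) (fun t ht => ⟨ht, hy⟩) hx
    e e' v w

/-- Christoffel symbols in base directions -/
theorem chris_bb (h : Blk U W H κ G) (hx : x ∈ U) (hy : y ∈ W) (e e' : E) :
    chris G (x, y) (e, 0) (e', 0) = (chris H x e e', 0) := by
  symm
  refine eq_chris_of_pos (h.riem.pos (x, y) ⟨hx, hy⟩) _ _ _ fun w => ?_
  have h1 := h.hH.chris_spec hx e e' w.1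
  rw [koszul] at h1
  rw [koszul, h.hG _ ⟨hx, hy⟩, h.fderivG ⟨hx, hy⟩, h.fderivG ⟨hx, hy⟩, h.fderivG ⟨hx, hy⟩]
  simp only [map_zero, _root_.zero_apply]
  linarith

/-- the shape vector of the fibres -/
theorem exists_A (h : Blk U W H κ G) (hx : x ∈ U) (f f' : V) :
    ∃ A : E, ∀ w, 2 * H x A w = -fderiv ℝ κ (x, y) (w, 0) f f' := by
  refine ⟨(-(1 / 2) : ℝ) • ContinuousLinearMap.inverse (H x)
    ((((fderiv ℝ κ (x, y)).flip f).flip f').comp (ContinuousLinearMap.inl ℝ E V)), fun w => ?_⟩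
  rw [map_smul, _root_.smul_apply, inv_spec h.hH hx]
  simp

theorem exists_B (h : Blk U W H κ G) (hx : x ∈ U) (hy : y ∈ W) (e : E) (f : V) :
    ∃ B : V, ∀ w, 2 * κ (x, y) B w = fderiv ℝ κ (x, y) (e, 0) f w := by
  refine ⟨((1 / 2) : ℝ) • ContinuousLinearMap.inverse (κ (x, y)) (fderiv ℝ κ (x, y) (e, 0) f),
    fun w => ?_⟩
  have := inv_spec (h.hκ x hx) hy (fderiv ℝ κ (x, y) (e, 0) f) w
  rw [map_smul, _root_.smul_apply, this]
  simp

theorem chris_ff (h : Blk U W H κ G) (hx : x ∈ U) (hy : y ∈ W) {f f' : V} {A : E}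
    (hA : ∀ w, 2 * H x A w = -fderiv ℝ κ (x, y) (w, 0) f f') :
    chris G (x, y) (0, f) (0, f') = (A, chris (fun v => κ (x, v)) y f f') := by
  symm
  refine eq_chris_of_pos (h.riem.pos (x, y) ⟨hx, hy⟩) _ _ _ fun w => ?_
  have h1 := (h.hκ x hx).chris_spec hy f f' w.2
  rw [koszul, h.fib1 hx hy, h.fib1 hx hy, h.fib1 hx hy] at h1
  rw [koszul, h.hG _ ⟨hx, hy⟩, h.fderivG ⟨hx, hy⟩, h.fderivG ⟨hx, hy⟩, h.fderivG ⟨hx, hy⟩]
  simp only [map_zero, _root_.zero_apply]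
  have h2 := hA w.1
  have h3 : fderiv ℝ κ (x, y) w = fderiv ℝ κ (x, y) (w.1, 0) + fderiv ℝ κ (x, y) (0, w.2) := by
    rw [← map_add]
    simp
  rw [h3]
  simp only [_root_.add_apply]
  linarith

theorem chris_bf (h : Blk U W H κ G) (hx : x ∈ U) (hy : y ∈ W) {e : E} {f B : V}
    (hB : ∀ w, 2 * κ (x, y) B w = fderiv ℝ κ (x, y) (e, 0) f w) :
    chris G (x, y) (e, 0) (0, f) = (0, B) := by
  symm
  refine eq_chris_of_pos (h.riem.pos (x, y) ⟨hx, hy⟩) _ _ _ fun w => ?_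
  rw [koszul, h.hG _ ⟨hx, hy⟩, h.fderivG ⟨hx, hy⟩, h.fderivG ⟨hx, hy⟩, h.fderivG ⟨hx, hy⟩]
  simp only [map_zero, _root_.zero_apply]
  have h2 := hB w.2
  linarith

theorem sec_bb (h : Blk U W H κ G) (hx : x ∈ U) (hy : y ∈ W) (e e' : E) :
    secG G (x, y) (e, 0) (e', 0) = secG H x e e' := by
  simp only [secG, h.fderiv2G (z := (x, y)) ⟨hx, hy⟩, h.chris_bb hx hy,
    h.hG (x, y) ⟨hx, hy⟩, map_zero, _root_.zero_apply, add_zero]

theorem sec_ff (h : Blk U W H κ G) (hx : x ∈ U) (hy : y ∈ W) {A : V → V → E}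
    (hA : ∀ f f' w, 2 * H x (A f f') w = -fderiv ℝ κ (x, y) (w, 0) f f') (f f' : V) :
    secG G (x, y) (0, f) (0, f') = secG (fun v => κ (x, v)) y f f' +
      (H x (A f f') (A f f') - H x (A f f) (A f' f')) := by
  have hc : ∀ f f', chris G (x, y) (0, f) (0, f') =
    (A f f', chris (fun v => κ (x, v)) y f f') := fun f f' => h.chris_ff hx hy (hA f f')
  simp only [secG, h.fderiv2G (z := (x, y)) ⟨hx, hy⟩, hc, h.fib2 hx hy,
    h.hG (x, y) ⟨hx, hy⟩, map_zero, _root_.zero_apply, zero_add]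
  ring

theorem sec_bf (h : Blk U W H κ G) (hx : x ∈ U) (hy : y ∈ W) {A : V → V → E}
    (hA : ∀ f f' w, 2 * H x (A f f') w = -fderiv ℝ κ (x, y) (w, 0) f f') {B : E → V → V}
    (hB : ∀ e f w, 2 * κ (x, y) (B e f) w = fderiv ℝ κ (x, y) (e, 0) f w) (e : E) (f : V) :
    secG G (x, y) (e, 0) (0, f) = -(fderiv ℝ (fderiv ℝ κ) (x, y) (e, 0) (e, 0) f f) / 2 +
      κ (x, y) (B e f) (B e f) + fderiv ℝ κ (x, y) (chris H x e e, 0) f f / 2 := by
  have h1 := hA f f (chris H x e e)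
  have h2 := h.hH.symm x hx (chris H x e e) (A f f)
  rw [secG, h.chris_bb hx hy, h.chris_bf hx hy (hB e f), h.chris_ff hx hy (hA f f)]
  simp only [h.fderiv2G (z := (x, y)) ⟨hx, hy⟩, h.hG (x, y) ⟨hx, hy⟩, map_zero,
    _root_.zero_apply, zero_add, add_zero, h2]
  linarith

end Blk

end Vale.Agent.P210.R2.H265
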