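import Vale.Agent.P210.R2.H265.TwD
import Vale.Agent.P210.R2.H53.TSpec

/-!
# Row TWA: the scalar curvature of a block metric
-/

open scoped ContDiff Topology
open Set Metric Filter

set_option maxSynthPendingDepth 3
set_option linter.all false

noncomputable section

namespace Vale.Agent.P210.R2.H265

open Vale.Agent.P210.R2.H53 Vale.Agent.P210.R2.H973

variable {E V : Type} [NormedAddCommGroup E] [NormedSpace ℝ E] [FiniteDimensional ℝ E]
  [NormedAddCommGroup V] [NormedSpace ℝ V] [FiniteDimensional ℝ V] {U : Set E} {W : Set V}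
  {H : E → E →L[ℝ] E →L[ℝ] ℝ} {κ : E × V → V →L[ℝ] V →L[ℝ] ℝ}
  {G : E × V → E × V →L[ℝ] E × V →L[ℝ] ℝ}

/-- the index equivalence -/
def ixe (E V : Type) [NormedAddCommGroup E] [NormedSpace ℝ E] [FiniteDimensional ℝ E]
    [NormedAddCommGroup V] [NormedSpace ℝ V] [FiniteDimensional ℝ V] :
    Fin (Module.finrank ℝ E) ⊕ Fin (Module.finrank ℝ V) ≃ Fin (Module.finrank ℝ (E × V)) :=
  finSumFinEquiv.trans (finCongr (Module.finrank_prod (R := ℝ) (M := E) (M' := V)).symm)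

/-- combined basis -/
def cob (bE : Module.Basis (Fin (Module.finrank ℝ E)) ℝ E)
    (bV : Module.Basis (Fin (Module.finrank ℝ V)) ℝ V) :
    Module.Basis (Fin (Module.finrank ℝ (E × V))) ℝ (E × V) :=
  (bE.prod bV).reindex (ixe E V)

/-- vectors of the combined basis -/
def cov (bE : Fin (Module.finrank ℝ E) → E) (bV : Fin (Module.finrank ℝ V) → V) :
    Fin (Module.finrank ℝ E) ⊕ Fin (Module.finrank ℝ V) → E × V :=
  Sum.elim (fun a => (bE a, 0)) (fun b => (0, bV b))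

theorem cob_apply (bE : Module.Basis (Fin (Module.finrank ℝ E)) ℝ E)
    (bV : Module.Basis (Fin (Module.finrank ℝ V)) ℝ V) (s) :
    cob bE bV (ixe E V s) = cov bE bV s := by
  rw [cob, Module.Basis.reindex_apply, Equiv.symm_apply_apply]
  rcases s with a | b
  · ext <;> simp [cov]
  · ext <;> simp [cov]

theorem cob_sum (bE : Module.Basis (Fin (Module.finrank ℝ E)) ℝ E)
    (bV : Module.Basis (Fin (Module.finrank ℝ V)) ℝ V) (f : E × V → E × V → ℝ) :
    ∑ i, ∑ j, f (cob bE bV i) (cob bE bV j) =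
      (∑ i, ∑ j, f (bE i, 0) (bE j, 0) + ∑ i, ∑ b, f (bE i, 0) (0, bV b)) +
      (∑ a, ∑ j, f (0, bV a) (bE j, 0) + ∑ a, ∑ b, f (0, bV a) (0, bV b)) := by
  rw [← (ixe E V).sum_comp]
  have h1 : ∀ s, ∑ j, f (cob bE bV (ixe E V s)) (cob bE bV j) =
      ∑ t, f (cov bE bV s) (cov bE bV t) := by
    intro s
    rw [← (ixe E V).sum_comp, cob_apply]
    exact Finset.sum_congr rfl fun t _ => by rw [cob_apply]
  rw [Finset.sum_congr rfl fun s _ => h1 s, Fintype.sum_sum_type]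
  simp only [Fintype.sum_sum_type, Finset.sum_add_distrib]
  rfl

theorem cob_onb (h : Blk U W H κ G) {x : E} {y : V} (hx : x ∈ U) (hy : y ∈ W)
    {bE : Module.Basis (Fin (Module.finrank ℝ E)) ℝ E}
    {bV : Module.Basis (Fin (Module.finrank ℝ V)) ℝ V} (hE : ONB (H x) bE)
    (hV : ONB (κ (x, y)) bV) : ONB (G (x, y)) (cob bE bV) := by
  intro i j
  obtain ⟨s, rfl⟩ := (ixe E V).surjective i
  obtain ⟨t, rfl⟩ := (ixe E V).surjective j
  rw [cob_apply, cob_apply, h.hG _ ⟨hx, hy⟩]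
  simp only [EmbeddingLike.apply_eq_iff_eq]
  rcases s with a | b <;> rcases t with c | d
  · simp only [cov, Sum.elim_inl, map_zero, _root_.zero_apply, add_zero, Sum.inl.injEq]
    exact hE a c
  · simp [cov]
  · simp [cov]
  · simp only [cov, Sum.elim_inr, map_zero, _root_.zero_apply, zero_add, Sum.inr.injEq]
    exact hV b d

/-- Row TWA, with the exact remainder. -/
theorem twa_eq (h : Blk U W H κ G) {x : E} {y : V} (hx : x ∈ U) (hy : y ∈ W)
    {bE : Module.Basis (Fin (Module.finrank ℝ E)) ℝ E}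
    {bV : Module.Basis (Fin (Module.finrank ℝ V)) ℝ V} (hE : ONB (H x) bE)
    (hV : ONB (κ (x, y)) bV) {b : Module.Basis (Fin (Module.finrank ℝ (E × V))) ℝ (E × V)}
    (hb : ONB (G (x, y)) b) :
    ∑ i, ∑ j, secG G (x, y) (b i) (b j) =
      ∑ i, ∑ j, secG (fun z => κ (x, z)) y (bV i) (bV j) +
      (∑ i, ∑ j, secG H x (bE i) (bE j) - 2 * lapG H (logd bV (fun z => κ (z, y))) x -
        gamG H (logd bV (fun z => κ (z, y))) (logd bV (fun z => κ (z, y))) x) -
      1 / 4 * ∑ i, ∑ c, ∑ d, fderiv ℝ κ (x, y) (bE i, 0) (bV c) (bV d) ^ 2 := by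
  set L := logd bV (fun z => κ (z, y)) with hL
  have hx' : (x, y) ∈ U ×ˢ W := ⟨hx, hy⟩
  have hfam := h.baseFam hy
  choose A hA using fun f f' => h.exists_A (y := y) hx f f'
  choose B hB using fun e f => h.exists_B hx hy e f
  -- derivatives of `L`
  have hV' : ∀ i j, (fun z => κ (z, y)) x (bV i) (bV j) = if i = j then 1 else 0 := hV
  have d1 : ∀ e, fderiv ℝ L x e = 1 / 2 * ∑ c, fderiv ℝ κ (x, y) (e, 0) (bV c) (bV c) := by
    intro e
    rw [hL, fderiv_logd hfam bV bV hx hV']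
    simp only [h.bas1 hx hy]
  have d2 : ∀ e, fderiv ℝ (fderiv ℝ L) x e e =
      1 / 2 * ∑ c, fderiv ℝ (fderiv ℝ κ) (x, y) (e, 0) (e, 0) (bV c) (bV c) -
      1 / 2 * ∑ c, ∑ d, fderiv ℝ κ (x, y) (e, 0) (bV c) (bV d) ^ 2 := by
    intro e
    rw [hL, fderiv2_logd hfam bV bV hx hV']
    simp only [h.bas1 hx hy, h.bas2 hx hy, sq]
  -- the mixed part
  have hmix : ∀ e, ∑ c, secG G (x, y) (e, 0) (0, bV c) = -hessG H L x e e -
      1 / 4 * ∑ c, ∑ d, fderiv ℝ κ (x, y) (e, 0) (bV c) (bV d) ^ 2 := by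
    intro e
    have hBB : ∀ c, κ (x, y) (B e (bV c)) (B e (bV c)) =
        1 / 4 * ∑ d, fderiv ℝ κ (x, y) (e, 0) (bV c) (bV d) ^ 2 := by
      intro c
      rw [onb_inner hV, Finset.mul_sum]
      refine Finset.sum_congr rfl fun d _ => ?_
      rw [(h.hκ x hx).symm y hy (bV d) (B e (bV c)), ← hB e (bV c) (bV d)]
      ring
    simp only [h.sec_bf hx hy hA hB, hBB]
    rw [hess_apply, d2, d1]
    simp only [Finset.sum_add_distrib, ← Finset.mul_sum, ← Finset.sum_div,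
      Finset.sum_neg_distrib]
    ring
  -- the vertical part
  have hAA : ∀ c d c' d', H x (A (bV c) (bV d)) (A (bV c') (bV d')) =
      1 / 4 * ∑ i, fderiv ℝ κ (x, y) (bE i, 0) (bV c) (bV d) *
        fderiv ℝ κ (x, y) (bE i, 0) (bV c') (bV d') := by
    intro c d c' d'
    rw [onb_inner hE, Finset.mul_sum]
    refine Finset.sum_congr rfl fun i _ => ?_
    rw [h.hH.symm x hx (bE i), h.hH.symm x hx (bE i)]
    have k1 := hA (bV c) (bV d) (bE i)
    have k2 := hA (bV c') (bV d') (bE i)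
    have k3 : H x (A (bV c) (bV d)) (bE i) = -fderiv ℝ κ (x, y) (bE i, 0) (bV c) (bV d) / 2 := by
      linarith
    have k4 : H x (A (bV c') (bV d')) (bE i) =
      -fderiv ℝ κ (x, y) (bE i, 0) (bV c') (bV d') / 2 := by linarith
    rw [k3, k4]
    ring
  have hver : ∑ c, ∑ d, secG G (x, y) (0, bV c) (0, bV d) =
      ∑ c, ∑ d, secG (fun z => κ (x, z)) y (bV c) (bV d) +
      (1 / 4 * ∑ i, ∑ c, ∑ d, fderiv ℝ κ (x, y) (bE i, 0) (bV c) (bV d) ^ 2 - gamG H L L x) := by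
    have e1 : ∑ c, ∑ d, ∑ i, fderiv ℝ κ (x, y) (bE i, 0) (bV c) (bV d) ^ 2 =
        ∑ i, ∑ c, ∑ d, fderiv ℝ κ (x, y) (bE i, 0) (bV c) (bV d) ^ 2 := by
      rw [Finset.sum_comm]
      have : ∀ d, ∑ c, ∑ i, fderiv ℝ κ (x, y) (bE i, 0) (bV c) (bV d) ^ 2 =
        ∑ i, ∑ c, fderiv ℝ κ (x, y) (bE i, 0) (bV c) (bV d) ^ 2 := fun d => Finset.sum_comm
      rw [Finset.sum_congr rfl fun d _ => this d, Finset.sum_comm]
      exact Finset.sum_congr rfl fun i _ => Finset.sum_comm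
    have e2 : gamG H L L x = 1 / 4 * ∑ c, ∑ d, ∑ i, fderiv ℝ κ (x, y) (bE i, 0) (bV c) (bV c) *
        fderiv ℝ κ (x, y) (bE i, 0) (bV d) (bV d) := by
      rw [gam_onb h.hH hx hE]
      simp only [d1]
      have e3 : ∀ i, (1 / 2 * ∑ c, fderiv ℝ κ (x, y) (bE i, 0) (bV c) (bV c)) *
          (1 / 2 * ∑ c, fderiv ℝ κ (x, y) (bE i, 0) (bV c) (bV c)) =
          1 / 4 * ∑ c, ∑ d, fderiv ℝ κ (x, y) (bE i, 0) (bV c) (bV c) *
            fderiv ℝ κ (x, y) (bE i, 0) (bV d) (bV d) := by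
        intro i
        rw [← Finset.sum_mul_sum]
        ring
      rw [Finset.sum_congr rfl fun i _ => e3 i, ← Finset.mul_sum, Finset.sum_comm]
      congr 1
      exact Finset.sum_congr rfl fun c _ => Finset.sum_comm
    simp only [h.sec_ff hx hy hA, hAA]
    simp only [Finset.sum_add_distrib, Finset.sum_sub_distrib, ← Finset.mul_sum]
    rw [← e1, e2]
    simp only [sq]
  have hsym : ∑ a, ∑ j, secG G (x, y) (0, bV a) (bE j, 0) =
      ∑ i, ∑ b, secG G (x, y) (bE i, 0) (0, bV b) := by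
    rw [Finset.sum_comm]
    exact Finset.sum_congr rfl fun i _ => Finset.sum_congr rfl fun c _ =>
      H329.secG_symm h.riem hx' _ _
  rw [scal_indep h.riem hx' hb (cob_onb h hx hy hE hV), cob_sum bE bV (secG G (x, y)), hsym,
    hver, lap_onb h.hH hx hE]
  simp only [h.sec_bb hx hy, hmix, Finset.sum_sub_distrib, Finset.sum_neg_distrib,
    ← Finset.mul_sum]
  ring

/-- Row TWA. -/
theorem twa : Stmt.TWA := by
  intro E _ _ _ V _ _ _ U W H φ κ G x y bE bV b hW hx hy hH hκ hs hφ hG hE hV hb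
  have h : Blk U W H κ G := ⟨hW, hH, hκ, hs, hG⟩
  rw [twa_eq h hx hy hE hV hb]
  have h1 : φ =ᶠ[𝓝 x] logd bV (fun z => κ (z, y)) := by
    filter_upwards [hH.isOpen.mem_nhds hx] with z hz
    rw [hφ z hz, logd, gramc]
    ring
  have h2 : fderiv ℝ φ x = fderiv ℝ (logd bV (fun z => κ (z, y))) x := h1.fderiv_eq
  have h3 : fderiv ℝ (fderiv ℝ φ) x = fderiv ℝ (fderiv ℝ (logd bV (fun z => κ (z, y)))) x :=
    h1.fderiv.fderiv_eq
  have h4 : lapG H φ x = lapG H (logd bV (fun z => κ (z, y))) x := by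
    rw [lapG, lapG, opG, opG, hessG, hessG, h2, h3]
  have h5 : gamG H φ φ x = gamG H (logd bV (fun z => κ (z, y)))
      (logd bV (fun z => κ (z, y))) x := by
    rw [gamG, gamG, gradG, gradG, h2]
  rw [h4, h5]
  have h6 : 0 ≤ ∑ i, ∑ c, ∑ d, fderiv ℝ κ (x, y) (bE i, 0) (bV c) (bV d) ^ 2 :=
    Finset.sum_nonneg fun i _ => Finset.sum_nonneg fun c _ => Finset.sum_nonneg fun d _ =>
      sq_nonneg _
  linarith

end Vale.Agent.P210.R2.H265
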