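import Vale.Agent.P210.R2.H265.TwC
import Vale.Agent.P210.R2.H53.TSpec

/-!
# Rows TWB and TWFLAT
-/

open scoped ContDiff Topology
open Set Metric Filter

set_option maxSynthPendingDepth 3
set_option linter.all false

noncomputable section

namespace Vale.Agent.P210.R2.H265

open Vale.Agent.P210.R2.H53 Vale.Agent.P210.R2.H973

variable {E : Type} [NormedAddCommGroup E] [NormedSpace ℝ E] [FiniteDimensional ℝ E]
  {h : E → E →L[ℝ] E →L[ℝ] ℝ} {U : Set E} {z : E} {r a : E → ℝ}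

/-- the scaled basis -/
def scb (b : Module.Basis (Fin (Module.finrank ℝ E)) ℝ E) {t : ℝ} (ht : t ≠ 0) :
    Module.Basis (Fin (Module.finrank ℝ E)) ℝ E := b.isUnitSMul (w := fun _ => t) fun _ => ht.isUnit

theorem scb_apply (b : Module.Basis (Fin (Module.finrank ℝ E)) ℝ E) {t : ℝ} (ht : t ≠ 0)
    (i : Fin (Module.finrank ℝ E)) : scb b ht i = t • b i := by
  rw [scb, Module.Basis.isUnitSMul_apply]

theorem onb_scb {b : Module.Basis (Fin (Module.finrank ℝ E)) ℝ E} (hb : ONB (h z) b)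
    (hr : 0 < r z) : ONB (cf r h z) (scb b (t := (√(r z))⁻¹)
      (inv_ne_zero (Real.sqrt_pos.2 hr).ne')) := by
  intro i j
  rw [scb_apply, scb_apply, cf_apply]
  simp only [map_smul, _root_.smul_apply, smul_eq_mul, hb i j]
  have h1 := Real.mul_self_sqrt hr.le
  have h2 := (Real.sqrt_pos.2 hr).ne'
  split_ifs
  · field_simp
    rw [sq]; exact h1.symm
  · simp

theorem secG_smul2 (G : E → E →L[ℝ] E →L[ℝ] ℝ) (z a b : E) (s : ℝ) :
    secG G z (s • a) (s • b) = s ^ 4 * secG G z a b := by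
  simp only [secG, map_smul, _root_.smul_apply, smul_eq_mul]
  ring

theorem hessG_smul2 (G : E → E →L[ℝ] E →L[ℝ] ℝ) (φ : E → ℝ) (z a b : E) (s : ℝ) :
    hessG G φ z (s • a) (s • b) = s ^ 2 * hessG G φ z a b := by
  simp only [map_smul, _root_.smul_apply, smul_eq_mul]
  ring

theorem fderiv_a (hR : LocalRiem h U) (hr : ContDiffOn ℝ ∞ r U) (hr0 : ∀ z ∈ U, 0 < r z)
    (ha : ∀ z ∈ U, a z = Real.log (r z) / 2) (hz : z ∈ U) (u : E) :
    fderiv ℝ a z u = (2 * r z)⁻¹ * fderiv ℝ r z u := by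
  have h1 : a =ᶠ[𝓝 z] fun y => Real.log (r y) / 2 := by
    filter_upwards [hR.isOpen.mem_nhds hz] with y hy using ha y hy
  have h2 := (((fd_diff hR hr hz).log (hr0 z hz).ne').mul_const (2⁻¹ : ℝ))
  have h3 : HasFDerivAt a ((2⁻¹ : ℝ) • ((r z)⁻¹ • fderiv ℝ r z)) z := by
    refine (h2.congr_of_eventuallyEq ?_)
    filter_upwards [h1] with y hy
    rw [hy]; ring
  rw [h3.fderiv]
  simp only [_root_.smul_apply, smul_eq_mul]
  rw [mul_inv]; ring

theorem contDiffOn_a (hr : ContDiffOn ℝ ∞ r U) (hr0 : ∀ z ∈ U, 0 < r z)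
    (ha : ∀ z ∈ U, a z = Real.log (r z) / 2) : ContDiffOn ℝ ∞ a U :=
  ((hr.log fun x hx => (hr0 x hx).ne').div_const 2).congr ha

theorem fderiv2_a (hR : LocalRiem h U) (hr : ContDiffOn ℝ ∞ r U) (hr0 : ∀ z ∈ U, 0 < r z)
    (ha : ∀ z ∈ U, a z = Real.log (r z) / 2) (hz : z ∈ U) (u v : E) :
    fderiv ℝ (fderiv ℝ a) z u v = (2 * r z)⁻¹ * fderiv ℝ (fderiv ℝ r) z u v -
      (2 * r z ^ 2)⁻¹ * (fderiv ℝ r z u * fderiv ℝ r z v) := by
  have h0 : ∀ f : E → ℝ, ContDiffOn ℝ ∞ f U →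
      HasFDerivAt (fun y => fderiv ℝ f y v) ((fderiv ℝ (fderiv ℝ f) z).flip v) z := by
    intro f hf
    have := (fd_diff hR (fd_contDiffOn hR hf) hz).clm_apply (hasFDerivAt_const v z)
    convert! this using 1
    ext t
    simp
  have h1 := h0 a (contDiffOn_a hr hr0 ha)
  have h2 : (fun y => fderiv ℝ a y v) =ᶠ[𝓝 z] fun y => (2 * r y)⁻¹ * fderiv ℝ r y v := by
    filter_upwards [hR.isOpen.mem_nhds hz] with y hy using fderiv_a hR hr hr0 ha hy v
  have hr1 := hr0 z hz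
  have h3 : HasFDerivAt (fun y => (2 * r y)⁻¹)
      (-((2 * r z) ^ 2)⁻¹ • ((2 : ℝ) • fderiv ℝ r z)) z := by
    have h4 := (fd_diff hR hr hz).const_mul (2 : ℝ)
    exact (hasDerivAt_inv (x := 2 * r z) (by positivity)).comp_hasFDerivAt z h4
  have h5 := (h3.mul (h0 r hr)).congr_of_eventuallyEq h2
  have h6 := congrArg (fun T => T u) (h5.unique h1)
  simp only [ContinuousLinearMap.flip_apply, _root_.add_apply, _root_.smul_apply,
    smul_eq_mul] at h6
  rw [← h6]
  field_simp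
  ring

theorem hess_a (hR : LocalRiem h U) (hr : ContDiffOn ℝ ∞ r U) (hr0 : ∀ z ∈ U, 0 < r z)
    (ha : ∀ z ∈ U, a z = Real.log (r z) / 2) (hz : z ∈ U) (u v : E) :
    hessG h a z u v = (2 * r z)⁻¹ * hessG h r z u v -
      (2 * r z ^ 2)⁻¹ * (fderiv ℝ r z u * fderiv ℝ r z v) := by
  rw [hess_apply, hess_apply, fderiv2_a hR hr hr0 ha hz, fderiv_a hR hr hr0 ha hz]
  ring

theorem hess_cf (hR : LocalRiem h U) (hr : ContDiffOn ℝ ∞ r U) (hr0 : ∀ z ∈ U, 0 < r z)
    (hz : z ∈ U) (φ : E → ℝ) (u v : E) :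
    hessG (cf r h) φ z u v = hessG h φ z u v - (2 * r z)⁻¹ * (fderiv ℝ r z u * fderiv ℝ φ z v +
      fderiv ℝ r z v * fderiv ℝ φ z u - h z u v * gamG h φ r z) := by
  rw [hess_apply, hess_apply, chris_cf hR hr hr0 hz]
  simp only [map_add, map_smul, map_sub, smul_eq_mul]
  have : fderiv ℝ φ z (gradG h r z) = gamG h φ r z := rfl
  rw [this]
  ring

/-- Row TWB. -/
theorem twb : Stmt.TWB := by
  intro E _ _ _ U h r a x n bE bH hn hx hR hr hr0 ha hbE hbH
  have hK := localRiem_cf hR hr hr0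
  have hrx := hr0 x hx
  have hE : ONB (h x) bE := hbE
  have hH : ONB (cf r h x) bH := hbH
  have hS := onb_scb hE hrx
  have hcf : (fun z => r z • h z) = cf r h := rfl
  have hsq : (√(r x))⁻¹ ^ 2 = (r x)⁻¹ := by
    rw [inv_pow, Real.sq_sqrt hrx.le]
  have hsq4 : (√(r x))⁻¹ ^ 4 = (r x)⁻¹ ^ 2 := by
    rw [show (4 : ℕ) = 2 * 2 from rfl, pow_mul, hsq]
  have hcard : (Finset.univ : Finset (Fin (Module.finrank ℝ E))).card = Module.finrank ℝ E := by
    simp
  refine ⟨?_, ?_, ?_⟩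
  · rw [hcf, scal_indep hK hx hH hS]
    have h1 : ∀ i j, secG (cf r h) x (scb bE (inv_ne_zero (Real.sqrt_pos.2 hrx).ne') i)
        (scb bE (inv_ne_zero (Real.sqrt_pos.2 hrx).ne') j) =
        (r x)⁻¹ ^ 2 * (r x * secG h x (bE i) (bE j) - hessG h r x (bE i) (bE i) / 2 -
          hessG h r x (bE j) (bE j) / 2 +
          (if i = j then hessG h r x (bE i) (bE i) - 6 * (4 * r x)⁻¹ * fderiv ℝ r x (bE i) ^ 2 +
            (4 * r x)⁻¹ * gamG h r r x else 0) +
          (4 * r x)⁻¹ * (3 * fderiv ℝ r x (bE i) ^ 2 + 3 * fderiv ℝ r x (bE j) ^ 2 -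
            gamG h r r x)) := by
      intro i j
      rw [scb_apply, scb_apply, secG_smul2, hsq4, secG_cf hR hr hr0 hx, hE i i, hE j j, hE i j,
        if_pos rfl, if_pos rfl]
      split_ifs with hij
      · subst hij
        ring
      · ring
    simp only [h1]
    simp only [← Finset.mul_sum, Finset.sum_add_distrib, Finset.sum_sub_distrib,
      Finset.sum_const, Finset.card_univ, Fintype.card_fin, nsmul_eq_mul, Finset.sum_ite_eq,
      Finset.mem_univ, if_true, ← Finset.sum_div]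
    rw [lap_onb hR hx hE a, gam_onb hR hx hE a a]
    simp only [hess_a hR hr hr0 ha hx, fderiv_a hR hr hr0 ha hx]
    rw [gam_onb hR hx hE r r, hn]
    simp only [← Finset.mul_sum, Finset.sum_add_distrib, Finset.sum_sub_distrib]
    have h2 : ∑ i, fderiv ℝ r x (bE i) * fderiv ℝ r x (bE i) =
      ∑ i, fderiv ℝ r x (bE i) ^ 2 := Finset.sum_congr rfl fun i _ => (sq _).symm
    have h3 : ∑ i, (2 * r x)⁻¹ * fderiv ℝ r x (bE i) * ((2 * r x)⁻¹ * fderiv ℝ r x (bE i)) =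
      (4 * r x ^ 2)⁻¹ * ∑ i, fderiv ℝ r x (bE i) ^ 2 := by
      rw [Finset.mul_sum]
      refine Finset.sum_congr rfl fun i _ => ?_
      field_simp
      ring
    rw [h2, h3]
    field_simp
    ring
  · intro φ hφ
    rw [hcf, lap_onb hK hx hS φ]
    have h1 : ∀ i, hessG (cf r h) φ x (scb bE (inv_ne_zero (Real.sqrt_pos.2 hrx).ne') i)
        (scb bE (inv_ne_zero (Real.sqrt_pos.2 hrx).ne') i) = (r x)⁻¹ *
        (hessG h φ x (bE i) (bE i) - (2 * r x)⁻¹ * (2 * (fderiv ℝ φ x (bE i) *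
          fderiv ℝ r x (bE i)) - gamG h φ r x)) := by
      intro i
      rw [scb_apply, hessG_smul2, hsq, hess_cf hR hr hr0 hx, hE i i, if_pos rfl]
      ring
    simp only [h1]
    rw [← Finset.mul_sum, Finset.sum_sub_distrib, ← Finset.mul_sum, Finset.sum_sub_distrib,
      ← Finset.mul_sum, ← gam_onb hR hx hE φ r, ← lap_onb hR hx hE φ, gam_comm hR hx a φ]
    have h2 : gamG h φ a x = (2 * r x)⁻¹ * gamG h φ r x := by
      rw [gam_onb hR hx hE, gam_onb hR hx hE, Finset.mul_sum]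
      refine Finset.sum_congr rfl fun i _ => ?_
      rw [fderiv_a hR hr hr0 ha hx]
      ring
    rw [h2, hn]
    simp only [Finset.sum_const, Finset.card_univ, Fintype.card_fin, nsmul_eq_mul]
    field_simp
    ring
  · intro φ ψ
    rw [hcf, gam_onb hK hx hS, gam_onb hR hx hE, Finset.mul_sum]
    refine Finset.sum_congr rfl fun i _ => ?_
    rw [scb_apply]
    simp only [map_smul, smul_eq_mul]
    rw [← hsq]
    ring

/-- Row TWFLAT. -/
theorem twflat_of (hA : Stmt.TWA) : Stmt.TWFLAT := by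
  intro E _ _ _ V _ _ _ U W h r a φ κ G x y n bE bV b hn1 hn hW hx hy hR hr hr0 ha hκ hκs hφ hG
    hbE hbV hb
  have hK := localRiem_cf hR hr hr0
  have hrx := hr0 x hx
  have hE : ONB (h x) bE := hbE
  have hS := onb_scb hE hrx
  have hT := twb E U h r a x n bE _ hn hx hR hr hr0 ha hbE hS
  have hcf : (fun z => r z • h z) = cf r h := rfl
  rw [hcf] at hT
  obtain ⟨t1, t2, t3⟩ := hT
  have hF : LocFam (fun z => κ (z, y)) U := by
    refine ⟨hR.isOpen, ?_, fun z hz v w => (hκ z hz).symm y hy v w,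
      fun z hz v hv => (hκ z hz).pos y hy v hv⟩
    exact hκs.comp (contDiffOn_id.prodMk contDiffOn_const) fun z hz => ⟨hz, hy⟩
  have hφs : ContDiffOn ℝ ∞ φ U := by
    refine (contDiffOn_logd hF bV).congr fun z hz => ?_
    rw [hφ z hz, logd, gramc]
    ring
  have has := contDiffOn_a hr hr0 ha
  have h1 := hA E V U W (cf r h) φ κ G x y _ bV b hW hx hy hK hκ hκs hφ
    (fun z hz v v' => by rw [hG z hz, cf_apply]) hS hbV hb
  refine h1.trans (le_of_eq ?_)
  rw [t1, t2 φ hφs, t3 φ φ]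
  have h0 : ∀ f : E → ℝ, ContDiffOn ℝ ∞ f U → ∀ z ∈ U, HasFDerivAt f (fderiv ℝ f z) z :=
    fun f hf z hz => fd_diff hR hf hz
  have hsum : ∀ z ∈ U, fderiv ℝ (fun z => (n - 1) * a z + φ z) z =
      (n - 1) • fderiv ℝ a z + fderiv ℝ φ z := fun z hz =>
    (((h0 a has z hz).const_mul (n - 1)).add (h0 φ hφs z hz)).fderiv
  have hsum2 : fderiv ℝ (fderiv ℝ (fun z => (n - 1) * a z + φ z)) x =
      (n - 1) • fderiv ℝ (fderiv ℝ a) x + fderiv ℝ (fderiv ℝ φ) x := by
    have k1 : fderiv ℝ (fun z => (n - 1) * a z + φ z) =ᶠ[𝓝 x]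
        fun z => (n - 1) • fderiv ℝ a z + fderiv ℝ φ z := by
      filter_upwards [hR.isOpen.mem_nhds hx] with z hz using hsum z hz
    have k2 := ((fd_diff hR (fd_contDiffOn hR has) hx).const_smul (n - 1)).add
      (fd_diff hR (fd_contDiffOn hR hφs) hx)
    exact (k2.congr_of_eventuallyEq k1).fderiv
  have hlap : lapG h (fun z => (n - 1) * a z + φ z) x = (n - 1) * lapG h a x + lapG h φ x := by
    rw [lap_onb hR hx hE, lap_onb hR hx hE, lap_onb hR hx hE, Finset.mul_sum,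
      ← Finset.sum_add_distrib]
    refine Finset.sum_congr rfl fun i _ => ?_
    rw [hess_apply, hess_apply, hess_apply, hsum x hx, hsum2]
    simp only [_root_.add_apply, _root_.smul_apply, smul_eq_mul]
    ring
  rw [hlap]
  ring

end Vale.Agent.P210.R2.H265
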