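import Vale.Agent.P210.R2.H265.Twa
import Vale.Agent.P210.R2.H265.Twb

set_option maxSynthPendingDepth 3

noncomputable section

namespace Vale.Agent.P210.R2.H265

open Vale.Agent.P210.R2.H53

/-- Row TWFLAT. -/
theorem twflat : Stmt.TWFLAT := twflat_of twa

end Vale.Agent.P210.R2.H265
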