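import Vale.Agent.P210.R2.H265.TwsB

/-!
# Row TWIST: the scalar curvature of twisted products
-/

open scoped Manifold ContDiff Topology Bundle ENNReal NNReal
open Set Metric Filter Bundle IsManifold MeasureTheory Manifold Asymptotics

set_option maxSynthPendingDepth 3
set_option linter.all false

noncomputable section

namespace Vale.Agent.P210.R2.H265

open Vale.Agent.P210.R2.H53 Vale.Agent.P210.R2.H973

section flat

variable {E : Type} [NormedAddCommGroup E] [NormedSpace ℝ E] {f g : E → ℝ} {c : ℝ} {U : Set E}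

theorem fd_shift (hU : IsOpen U) (hfg : ∀ z ∈ U, f z = g z + c) {z : E} (hz : z ∈ U) :
    fderiv ℝ f z = fderiv ℝ g z := by
  have h1 : f =ᶠ[𝓝 z] fun z => g z + c := by
    filter_upwards [hU.mem_nhds hz] with x hx using hfg x hx
  rw [h1.fderiv_eq]
  exact fderiv_add_const c

theorem fd_shift2 (hU : IsOpen U) (hfg : ∀ z ∈ U, f z = g z + c) {z : E} (hz : z ∈ U) :
    fderiv ℝ (fderiv ℝ f) z = fderiv ℝ (fderiv ℝ g) z := by
  have h1 : fderiv ℝ f =ᶠ[𝓝 z] fderiv ℝ g := by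
    filter_upwards [hU.mem_nhds hz] with x hx using fd_shift hU hfg hx
  exact h1.fderiv_eq

theorem lap_shift (h : E → E →L[ℝ] E →L[ℝ] ℝ) (hU : IsOpen U) (hfg : ∀ z ∈ U, f z = g z + c)
    {z : E} (hz : z ∈ U) : lapG h f z = lapG h g z := by
  rw [lapG, lapG, opG, opG, hessG, hessG, fd_shift hU hfg hz, fd_shift2 hU hfg hz]

theorem gam_shift (h : E → E →L[ℝ] E →L[ℝ] ℝ) (hU : IsOpen U) (hfg : ∀ z ∈ U, f z = g z + c)
    (a : E → ℝ) {z : E} (hz : z ∈ U) : gamG h a f z = gamG h a g z := by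
  rw [gamG, gamG, gradG, gradG, fd_shift hU hfg hz]

theorem gam_shift2 (h : E → E →L[ℝ] E →L[ℝ] ℝ) (hU : IsOpen U) (hfg : ∀ z ∈ U, f z = g z + c)
    {z : E} (hz : z ∈ U) : gamG h f f z = gamG h g g z := by
  rw [gamG, gamG, gradG, gradG, fd_shift hU hfg hz]

end flat

section Tw

variable {E : Type} [NormedAddCommGroup E] [NormedSpace ℝ E]
  {V : Type} [NormedAddCommGroup V] [NormedSpace ℝ V]
  {N : Type} [MetricSpace N] [ChartedSpace E N]
  [RiemannianBundle (fun x : N => TangentSpace 𝓘(ℝ, E) x)]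
  {F : Type} [TopologicalSpace F] [ChartedSpace V F]
  {M : Type} [MetricSpace M] [ChartedSpace (E × V) M]
  [RiemannianBundle (fun x : M => TangentSpace 𝓘(ℝ, E × V) x)]

/-- the logarithm of the density of the fibres along a point of `F` -/
def phT (Φ : Diffeomorph 𝓘(ℝ, E × V) (𝓘(ℝ, E).prod 𝓘(ℝ, V)) M (N × F) ∞)
    (f : OpenPartialHomeomorph F V) (y : V) (β : Module.Basis (Fin (Module.finrank ℝ V)) ℝ V)
    (x : N) : ℝ :=
  1 / 2 * Real.log (Matrix.det (Matrix.of fun i j => fibreMetric Φ x f y (β i) (β j)))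

variable {Φ : Diffeomorph 𝓘(ℝ, E × V) (𝓘(ℝ, E).prod 𝓘(ℝ, V)) M (N × F) ∞}
  {e : OpenPartialHomeomorph N E} {f : OpenPartialHomeomorph F V}
  {β : Module.Basis (Fin (Module.finrank ℝ V)) ℝ V}

theorem phT_chart [IsManifold 𝓘(ℝ, E) ∞ N] [IsManifold 𝓘(ℝ, V) ∞ F]
    [IsManifold 𝓘(ℝ, E × V) ∞ M] (he : e ∈ maximalAtlas 𝓘(ℝ, E) ∞ N)
    (hf : f ∈ maximalAtlas 𝓘(ℝ, V) ∞ F) {z : E} (hz : z ∈ e.target) {y : V}
    (hy : y ∈ f.target) :
    phT Φ f y β (e.symm z) = logd β (fun z => kap Φ e f (z, y)) z := by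
  rw [phT, logd, gramc]
  congr 3
  ext i j
  rw [Matrix.of_apply, Matrix.of_apply, fibreMetric_eq he hf hz hy]

variable [FiniteDimensional ℝ E] [FiniteDimensional ℝ V]
    [IsManifold 𝓘(ℝ, E) ∞ N] [IsManifold 𝓘(ℝ, V) ∞ F]
    [IsManifold 𝓘(ℝ, E × V) ∞ M]
    [IsContMDiffRiemannianBundle 𝓘(ℝ, E × V) ∞ (E × V)
      (fun x : M => TangentSpace 𝓘(ℝ, E × V) x)]

theorem contMDiff_phT (hf : f ∈ maximalAtlas 𝓘(ℝ, V) ∞ F) {y : V} (hy : y ∈ f.target) :
    ContMDiff 𝓘(ℝ, E) 𝓘(ℝ, ℝ) ∞ (phT Φ f y β) := by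
  refine H755.contMDiff_of_charts fun e he =>
    ⟨logd β (fun z => kap Φ e f (z, y)), contDiffOn_logd (locFam_kap he hf hy) β, fun p hp => ?_⟩
  rw [← phT_chart he hf (e.map_source hp) hy, e.left_inv hp]

end Tw

theorem isChristoffel_chris {E : Type} [NormedAddCommGroup E] [NormedSpace ℝ E]
    [FiniteDimensional ℝ E] {M : Type} [MetricSpace M] [ChartedSpace E M]
    [RiemannianBundle (fun x : M => TangentSpace 𝓘(ℝ, E) x)] [IsManifold 𝓘(ℝ, E) ∞ M]
    [IsContMDiffRiemannianBundle 𝓘(ℝ, E) ∞ E (fun x : M => TangentSpace 𝓘(ℝ, E) x)]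
    {e : OpenPartialHomeomorph M E} (he : e ∈ maximalAtlas 𝓘(ℝ, E) ∞ M) {z : E}
    (hz : z ∈ e.target) : IsChristoffel e z (fun u v => chris (chartG e) z u v) := by
  intro u v w
  rw [fderiv_chartMetric he hz, fderiv_chartMetric he hz, fderiv_chartMetric he hz]
  exact chris_spec_of_pos (fun v hv => chartG_pos he hz v hv) u v w

theorem twist : Stmt.TWIST := by
  intro E _ _ _ V _ _ _ N _ _ _ _ _ _ F _ _ _ M _ _ _ _ _ _ w Φ hw hw0 hT hn hS y0 hfib
  set f : OpenPartialHomeomorph F V := chartAt V y0 with hfd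
  have hf : f ∈ maximalAtlas 𝓘(ℝ, V) ∞ F := chart_mem_maximalAtlas y0
  set y : V := chartAt V y0 y0 with hyd
  have hy : y ∈ f.target := mem_chart_target V y0
  set β := Module.finBasis ℝ V with hβ
  have hφ : ContMDiff 𝓘(ℝ, E) 𝓘(ℝ, ℝ) ∞ (phT Φ f y β) := contMDiff_phT hf hy
  refine ⟨phT Φ f y β, hφ, ?_⟩
  intro e he z hz
  have hΓ := isChristoffel_chris he hz
  refine ⟨fun u v => chris (chartG e) z u v, hΓ, fun b hb => ?_⟩
  simp only [sectNum_eq he hz hΓ]
  have hR : LocalRiem (chartG e) e.target := ⟨e.open_target, contDiffOn_chartG he,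
    fun z _ v w => chartG_symm e z v w, fun z hz v hv => chartG_pos he hz v hv⟩
  have hzy : ((z, y) : E × V) ∈ e.target ×ˢ f.target := ⟨hz, hy⟩
  have hp : e.symm z ∈ e.source := e.map_target hz
  have hez : e (e.symm z) = z := e.right_inv hz
  -- the smooth functions
  have ha : ContMDiff 𝓘(ℝ, E) 𝓘(ℝ, ℝ) ∞ (fun q : N => Real.log (w q) / 2) := by
    refine H755.contMDiff_of_charts fun e' he' =>
      ⟨fun z => Real.log ((w ∘ e'.symm) z) / 2, ?_, fun p hp => ?_⟩
    · exact ((H755.contDiffOn_chart he' hw).log fun z _ => (hw0 _).ne').div_const 2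
    · simp [e'.left_inv hp]
  have hr : ContDiffOn ℝ ∞ (w ∘ e.symm) e.target := H755.contDiffOn_chart he hw
  -- bases
  have hκ := localRiem_kap (Φ := Φ) he hf hz
  have hκF := locFam_kap (Φ := Φ) he hf hy
  have hpc := pch_mem (Φ := Φ) he hf
  have hzy' : ((z, y) : E × V) ∈ (pch Φ e f).target := by rw [pch_target]; exact hzy
  obtain ⟨bV, hbV⟩ := exists_onb (kap Φ e f (z, y)) (hκ.symm y hy) (hκ.pos y hy)
  obtain ⟨bb, hbb⟩ := exists_onb (chartG (pch Φ e f) (z, y)) (fun v v' => cgs _ _ _ _)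
    (fun v hv => chartG_pos hpc hzy' v hv)
  -- the curvature of the fibre
  have hfibre : ∑ i, ∑ j, secG (fun v => kap Φ e f (z, v)) y (bV i) (bV j) ≤ 1 / 2 := by
    rcases hfib with h1 | h1
    · have : Subsingleton (Fin (Module.finrank ℝ V)) := Fin.subsingleton_iff_le_one.2 h1
      have h2 : ∑ i, ∑ j, secG (fun v => kap Φ e f (z, v)) y (bV i) (bV j) = 0 :=
        Finset.sum_eq_zero fun i _ => Finset.sum_eq_zero fun j _ => by
          rw [Subsingleton.elim j i, H329.secG_self]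
      rw [h2]
      norm_num
    · exact scalLE_of hκ (fun y' hy' v v' => fibreMetric_eq he hf hz hy' v v') hy
        (h1 (e.symm z)) hbV
  -- the scalar curvature of the product
  have hscal : 1 ≤ ∑ i, ∑ j, secG (chartG (pch Φ e f)) (z, y) (bb i) (bb j) := by
    obtain ⟨Γ', hΓ', h1⟩ := hS (pch Φ e f) hpc (z, y) hzy'
    refine (h1 bb hbb).trans (le_of_eq ?_)
    exact Finset.sum_congr rfl fun i _ => Finset.sum_congr rfl fun j _ =>
      sectNum_eq hpc hzy' hΓ' _ _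
  -- the flat inequality
  set n : ℝ := (Module.finrank ℝ E : ℝ) with hnd
  set a : E → ℝ := (fun q : N => Real.log (w q) / 2) ∘ e.symm with had
  set φ : E → ℝ := logd bV (fun z => kap Φ e f (z, y)) with hφd
  have hflat := twflat E V e.target f.target (chartG e) (w ∘ e.symm) a φ (kap Φ e f)
    (chartG (pch Φ e f)) z y n b bV bb hn rfl f.open_target hz hy hR hr (fun z _ => hw0 _)
    (fun z _ => rfl) (fun z hz => localRiem_kap he hf hz) (contDiffOn_kap he hf)
    (fun z' hz' => by rw [hφd, logd, gramc]; ring)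
    (fun z' hz' v v' => chartG_block hT he hf hz' v v') hb hbV hbb
  -- the constant
  have hshift : ∀ z' ∈ e.target, φ z' = (phT Φ f y β ∘ e.symm) z' +
      Real.log |(β.toMatrix bV).det| := by
    intro z' hz'
    rw [hφd, logd_change hκF β bV hz', Function.comp, phT_chart he hf hz' hy]
  have hshift2 : ∀ z' ∈ e.target, (n - 1) * a z' + φ z' =
      ((fun q => (n - 1) * (Real.log (w q) / 2) + phT Φ f y β q) ∘ e.symm) z' +
      Real.log |(β.toMatrix bV).det| := by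
    intro z' hz'
    rw [hshift z' hz']
    simp only [had, Function.comp]
    ring
  rw [lap_shift _ e.open_target hshift2 hz, gam_shift _ e.open_target hshift a hz,
    gam_shift2 _ e.open_target hshift hz] at hflat
  have hsm : ContMDiff 𝓘(ℝ, E) 𝓘(ℝ, ℝ) ∞
      (fun q => (n - 1) * (Real.log (w q) / 2) + phT Φ f y β q) := by
    have h1 : ContMDiff 𝓘(ℝ, E) 𝓘(ℝ, ℝ) ∞ (fun _ : N => n - 1) := contMDiff_const
    exact (h1.mul ha).add hφ
  rw [TwS, H755.Lap_chart hsm he hp, H755.Gam_chart ha ha he hp, H755.Gam_chart ha hφ he hp,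
    H755.Gam_chart hφ hφ he hp, hez]
  have hw' : 0 < w (e.symm z) := hw0 _
  have hwz : (w ∘ e.symm) z = w (e.symm z) := rfl
  rw [hwz] at hflat
  have h3 : 1 / 2 ≤ (w (e.symm z))⁻¹ * (∑ i, ∑ j, secG (chartG e) z (b i) (b j) -
      2 * lapG (chartG e) ((fun q => (n - 1) * (Real.log (w q) / 2) + phT Φ f y β q) ∘ e.symm) z
      - (n - 1) * (n - 2) * gamG (chartG e) a a z
      - 2 * (n - 2) * gamG (chartG e) a (phT Φ f y β ∘ e.symm) z
      - gamG (chartG e) (phT Φ f y β ∘ e.symm) (phT Φ f y β ∘ e.symm) z) := by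
    linarith only [hflat, hfibre, hscal]
  have h4 := mul_le_mul_of_nonneg_left h3 hw'.le
  rw [← mul_assoc, mul_inv_cancel₀ hw'.ne', one_mul] at h4
  linarith only [h4]

end Vale.Agent.P210.R2.H265
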