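import Vale.Agent.P210.R2.H265.Slc

/-!
# TWIST, part A: product charts
-/

open scoped Manifold ContDiff Topology Bundle ENNReal NNReal
open Set Metric Filter Bundle IsManifold MeasureTheory Manifold Asymptotics

set_option maxSynthPendingDepth 3
set_option linter.all false

noncomputable section

namespace Vale.Agent.P210.R2.H265

open Vale.Agent.P210.R2.H53

variable {E : Type} [NormedAddCommGroup E] [NormedSpace ℝ E]
  {V : Type} [NormedAddCommGroup V] [NormedSpace ℝ V]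
  {N : Type} [MetricSpace N] [ChartedSpace E N]
  [RiemannianBundle (fun x : N => TangentSpace 𝓘(ℝ, E) x)]
  {F : Type} [TopologicalSpace F] [ChartedSpace V F]
  {M : Type} [MetricSpace M] [ChartedSpace (E × V) M]
  [RiemannianBundle (fun x : M => TangentSpace 𝓘(ℝ, E × V) x)]

/-- product chart -/
def pch (Φ : Diffeomorph 𝓘(ℝ, E × V) (𝓘(ℝ, E).prod 𝓘(ℝ, V)) M (N × F) ∞)
    (e : OpenPartialHomeomorph N E) (f : OpenPartialHomeomorph F V) :
    OpenPartialHomeomorph M (E × V) :=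
  Φ.toHomeomorph.toOpenPartialHomeomorph.trans (e.prod f)

variable {Φ : Diffeomorph 𝓘(ℝ, E × V) (𝓘(ℝ, E).prod 𝓘(ℝ, V)) M (N × F) ∞}
  {e : OpenPartialHomeomorph N E} {f : OpenPartialHomeomorph F V}

omit [RiemannianBundle (fun x : N => TangentSpace 𝓘(ℝ, E) x)]
  [RiemannianBundle (fun x : M => TangentSpace 𝓘(ℝ, E × V) x)] in
theorem pch_symm (z : E × V) : (pch Φ e f).symm z = Φ.symm (e.symm z.1, f.symm z.2) := rfl

theorem pch_apply (p : M) : pch Φ e f p = (e (Φ p).1, f (Φ p).2) := rfl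

theorem pch_target : (pch Φ e f).target = e.target ×ˢ f.target := by
  rw [pch, OpenPartialHomeomorph.trans_target]
  simp

theorem pch_source : (pch Φ e f).source = {p | (Φ p).1 ∈ e.source ∧ (Φ p).2 ∈ f.source} := by
  rw [pch, OpenPartialHomeomorph.trans_source]
  ext p
  simp

theorem pch_mem [IsManifold 𝓘(ℝ, E) ∞ N] [IsManifold 𝓘(ℝ, V) ∞ F]
    [IsManifold 𝓘(ℝ, E × V) ∞ M] (he : e ∈ maximalAtlas 𝓘(ℝ, E) ∞ N)
    (hf : f ∈ maximalAtlas 𝓘(ℝ, V) ∞ F) : pch Φ e f ∈ maximalAtlas 𝓘(ℝ, E × V) ∞ M := by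
  refine OpenPartialHomeomorph.mem_maximalAtlas_of_contMDiffOn _ ?_ ?_
  · have h1 : ContMDiffOn 𝓘(ℝ, E × V) 𝓘(ℝ, E) ∞ (fun p : M => e (Φ p).1) (pch Φ e f).source :=
      (contMDiffOn_of_mem_maximalAtlas he).comp (Φ.contMDiff.fst.contMDiffOn)
        (fun p hp => by rw [pch_source] at hp; exact hp.1)
    have h2 : ContMDiffOn 𝓘(ℝ, E × V) 𝓘(ℝ, V) ∞ (fun p : M => f (Φ p).2) (pch Φ e f).source :=
      (contMDiffOn_of_mem_maximalAtlas hf).comp (Φ.contMDiff.snd.contMDiffOn)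
        (fun p hp => by rw [pch_source] at hp; exact hp.2)
    exact h1.prodMk_space h2
  · rw [pch_target]
    have h1 : ContMDiffOn 𝓘(ℝ, E × V) 𝓘(ℝ, E) ∞ (fun z : E × V => e.symm z.1)
        (e.target ×ˢ f.target) :=
      (contMDiffOn_symm_of_mem_maximalAtlas he).comp contDiff_fst.contMDiff.contMDiffOn
        (fun z hz => hz.1)
    have h2 : ContMDiffOn 𝓘(ℝ, E × V) 𝓘(ℝ, V) ∞ (fun z : E × V => f.symm z.2)
        (e.target ×ˢ f.target) :=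
      (contMDiffOn_symm_of_mem_maximalAtlas hf).comp contDiff_snd.contMDiff.contMDiffOn
        (fun z hz => hz.2)
    exact Φ.symm.contMDiff.comp_contMDiffOn (h1.prodMk h2)

theorem pch_d1 [IsManifold 𝓘(ℝ, E) ∞ N] [IsManifold 𝓘(ℝ, V) ∞ F]
    [IsManifold 𝓘(ℝ, E × V) ∞ M] (he : e ∈ maximalAtlas 𝓘(ℝ, E) ∞ N)
    (hf : f ∈ maximalAtlas 𝓘(ℝ, V) ∞ F) {z : E × V} (hz : z ∈ e.target ×ˢ f.target) (v : E × V) :
    (mfderiv 𝓘(ℝ, E × V) 𝓘(ℝ, E) (fun q => (Φ q).1) ((pch Φ e f).symm z)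
      (mfderiv 𝓘(ℝ, E × V) 𝓘(ℝ, E × V) (pch Φ e f).symm z v) : E) =
      mfderiv 𝓘(ℝ, E) 𝓘(ℝ, E) e.symm z.1 v.1 := by
  have hz' : z ∈ (pch Φ e f).target := by rw [pch_target]; exact hz
  have hD : MDifferentiableAt 𝓘(ℝ, E × V) 𝓘(ℝ, E × V) (pch Φ e f).symm z :=
    ((contMDiffOn_symm_of_mem_maximalAtlas (pch_mem (Φ := Φ) he hf)).contMDiffAt
      ((pch Φ e f).open_target.mem_nhds hz')).mdifferentiableAt (by simp)
  have hΦ1 : MDifferentiableAt 𝓘(ℝ, E × V) 𝓘(ℝ, E) (fun q => (Φ q).1) ((pch Φ e f).symm z) :=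
    ((Φ.contMDiff.fst) _).mdifferentiableAt (by simp)
  have k := mfderiv_comp z hΦ1 hD
  have hfst : MDifferentiableAt 𝓘(ℝ, E × V) 𝓘(ℝ, E) (Prod.fst : E × V → E) z :=
    differentiableAt_fst.mdifferentiableAt
  have hes : MDifferentiableAt 𝓘(ℝ, E) 𝓘(ℝ, E) e.symm z.1 :=
    ((contMDiffOn_symm_of_mem_maximalAtlas he).contMDiffAt
      (e.open_target.mem_nhds hz.1)).mdifferentiableAt (by simp)
  have k2 := mfderiv_comp z hes hfst
  have k3 : ((fun q => (Φ q).1) ∘ (pch Φ e f).symm) = (e.symm ∘ Prod.fst) := by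
    funext y
    simp [pch_symm]
  have k4 := congrArg (fun T => T v) k
  have k5 := congrArg (fun T => T v) k2
  refine Eq.trans k4.symm ?_
  rw [k3]
  refine Eq.trans k5 ?_
  rw [mfderiv_eq_fderiv (f := (Prod.fst : E × V → E))]
  rw [fderiv_fst]
  rfl

theorem pch_d2 [IsManifold 𝓘(ℝ, E) ∞ N] [IsManifold 𝓘(ℝ, V) ∞ F]
    [IsManifold 𝓘(ℝ, E × V) ∞ M] (he : e ∈ maximalAtlas 𝓘(ℝ, E) ∞ N)
    (hf : f ∈ maximalAtlas 𝓘(ℝ, V) ∞ F) {z : E × V} (hz : z ∈ e.target ×ˢ f.target) (a : E) :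
    mfderiv 𝓘(ℝ, E × V) 𝓘(ℝ, V) (fun q => (Φ q).2) ((pch Φ e f).symm z)
      (mfderiv 𝓘(ℝ, E × V) 𝓘(ℝ, E × V) (pch Φ e f).symm z (a, 0)) = 0 := by
  have hz' : z ∈ (pch Φ e f).target := by rw [pch_target]; exact hz
  have hD : MDifferentiableAt 𝓘(ℝ, E × V) 𝓘(ℝ, E × V) (pch Φ e f).symm z :=
    ((contMDiffOn_symm_of_mem_maximalAtlas (pch_mem (Φ := Φ) he hf)).contMDiffAt
      ((pch Φ e f).open_target.mem_nhds hz')).mdifferentiableAt (by simp)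
  have hΦ2 : MDifferentiableAt 𝓘(ℝ, E × V) 𝓘(ℝ, V) (fun q => (Φ q).2) ((pch Φ e f).symm z) :=
    ((Φ.contMDiff.snd) _).mdifferentiableAt (by simp)
  have k := mfderiv_comp z hΦ2 hD
  have hsnd : MDifferentiableAt 𝓘(ℝ, E × V) 𝓘(ℝ, V) (Prod.snd : E × V → V) z :=
    differentiableAt_snd.mdifferentiableAt
  have hfs : MDifferentiableAt 𝓘(ℝ, V) 𝓘(ℝ, V) f.symm z.2 :=
    ((contMDiffOn_symm_of_mem_maximalAtlas hf).contMDiffAt
      (f.open_target.mem_nhds hz.2)).mdifferentiableAt (by simp)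
  have k2 := mfderiv_comp z hfs hsnd
  have k3 : ((fun q => (Φ q).2) ∘ (pch Φ e f).symm) = (f.symm ∘ Prod.snd) := by
    funext y
    simp [pch_symm]
  have k4 := congrArg (fun T => T ((a, 0) : E × V)) k
  have k5 := congrArg (fun T => T ((a, 0) : E × V)) k2
  refine Eq.trans k4.symm ?_
  rw [k3]
  refine Eq.trans k5 ?_
  rw [mfderiv_eq_fderiv (f := (Prod.snd : E × V → V))]
  rw [fderiv_snd]
  exact map_zero (mfderiv 𝓘(ℝ, V) 𝓘(ℝ, V) f.symm z.2)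

/-- the metric of `N` at a point, on the model space; the first components -/
theorem twisted_inner {w : N → ℝ} (h : IsTwisted w Φ) {p : M} {x : N} (hx : (Φ p).1 = x)
    (v v' : E × V) (a a' : E)
    (h2 : mfderiv 𝓘(ℝ, E × V) 𝓘(ℝ, V) (fun q => (Φ q).2) p v = 0)
    (h1 : (mfderiv 𝓘(ℝ, E × V) 𝓘(ℝ, E) (fun q => (Φ q).1) p v : E) = a)
    (h1' : (mfderiv 𝓘(ℝ, E × V) 𝓘(ℝ, E) (fun q => (Φ q).1) p v' : E) = a') :
    innerAt (E := E × V) p v v' = w x * innerAt (E := E) x a a' := by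
  subst hx
  subst h1
  subst h1'
  exact h p v v' h2

/-- the metric in a product chart, one base vector -/
theorem chartG_pch [IsManifold 𝓘(ℝ, E) ∞ N] [IsManifold 𝓘(ℝ, V) ∞ F]
    [IsManifold 𝓘(ℝ, E × V) ∞ M] {w : N → ℝ} (h : IsTwisted w Φ)
    (he : e ∈ maximalAtlas 𝓘(ℝ, E) ∞ N)
    (hf : f ∈ maximalAtlas 𝓘(ℝ, V) ∞ F) {z : E × V} (hz : z ∈ e.target ×ˢ f.target)
    (a : E) (v : E × V) :
    chartG (pch Φ e f) z (a, 0) v = w (e.symm z.1) * chartG e z.1 a v.1 := by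
  have h2 : (Φ ((pch Φ e f).symm z)).1 = e.symm z.1 := by
    rw [pch_symm]; simp
  exact twisted_inner h h2 _ _ _ _ (pch_d2 he hf hz a) (pch_d1 he hf hz (a, 0))
    (pch_d1 he hf hz v)

end Vale.Agent.P210.R2.H265
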