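import Vale.Agent.P210.R2.H265.TwsA
import Vale.Agent.P210.R2.H265.Twf
import Vale.Agent.P210.R2.H755.Mfd

/-!
# TWIST, part B: the block form of the metric and the fibres
-/

open scoped Manifold ContDiff Topology Bundle ENNReal NNReal
open Set Metric Filter Bundle IsManifold MeasureTheory Manifold Asymptotics

set_option maxSynthPendingDepth 3
set_option linter.all false

noncomputable section

namespace Vale.Agent.P210.R2.H265

open Vale.Agent.P210.R2.H53 Vale.Agent.P210.R2.H973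

section flat

variable {V : Type} [NormedAddCommGroup V] [NormedSpace ℝ V] {G : V → V →L[ℝ] V →L[ℝ] ℝ}
  {W : Set V} {g : V → V → V → ℝ}

theorem fdg1 (hR : LocalRiem G W) (hg : ∀ y ∈ W, ∀ v v', g y v v' = G y v v') {y : V}
    (hy : y ∈ W) (u v v' : V) : fderiv ℝ (fun y => g y v v') y u = fderiv ℝ G y u v v' := by
  have h1 : (fun y => g y v v') =ᶠ[𝓝 y] fun y => G y v v' := by
    filter_upwards [hR.isOpen.mem_nhds hy] with x hx using hg x hx v v'
  rw [h1.fderiv_eq, (hR.hasFDerivAt_apply hy v v').fderiv]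
  simp

theorem fdg2 (hR : LocalRiem G W) (hg : ∀ y ∈ W, ∀ v v', g y v v' = G y v v') {y : V}
    (hy : y ∈ W) (u v a b : V) :
    fderiv ℝ (fun y => fderiv ℝ (fun x => g x a b) y v) y u =
      fderiv ℝ (fderiv ℝ G) y u v a b := by
  have h1 : (fun y => fderiv ℝ (fun x => g x a b) y v) =ᶠ[𝓝 y] fun y => fderiv ℝ G y v a b := by
    filter_upwards [hR.isOpen.mem_nhds hy] with x hx using fdg1 hR hg hx v a b
  rw [h1.fderiv_eq, (hR.hasFDerivAt_fderiv_apply hy v a b).fderiv]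
  simp

theorem scalLE_of [FiniteDimensional ℝ V] (hR : LocalRiem G W)
    (hg : ∀ y ∈ W, ∀ v v', g y v v' = G y v v') {y : V}
    (hy : y ∈ W) {σ : ℝ} (h : ScalLEAt g y σ)
    {b : Module.Basis (Fin (Module.finrank ℝ V)) ℝ V} (hb : ONB (G y) b) :
    ∑ i, ∑ j, secG G y (b i) (b j) ≤ σ := by
  obtain ⟨Γ, c, hΓ, hc, hs⟩ := h
  have hc' : ONB (G y) c := fun i j => by rw [← hg y hy]; exact hc i j
  rw [scal_indep hR hy hb hc']
  have hch : ∀ u v, Γ u v = chris G y u v := by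
    intro u v
    refine eq_chris_of_pos (hR.pos y hy) u v _ fun w => ?_
    have h1 := hΓ u v w
    rw [fdg1 hR hg hy, fdg1 hR hg hy, fdg1 hR hg hy, hg y hy] at h1
    exact h1
  refine le_trans (le_of_eq ?_) hs
  refine Finset.sum_congr rfl fun i _ => Finset.sum_congr rfl fun j _ => ?_
  rw [fdg2 hR hg hy, fdg2 hR hg hy, fdg2 hR hg hy, hch, hch, hch, hg y hy, hg y hy]
  rfl

end flat

variable {E : Type} [NormedAddCommGroup E] [NormedSpace ℝ E]
  {V : Type} [NormedAddCommGroup V] [NormedSpace ℝ V]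
  {N : Type} [MetricSpace N] [ChartedSpace E N]
  [RiemannianBundle (fun x : N => TangentSpace 𝓘(ℝ, E) x)]
  {F : Type} [TopologicalSpace F] [ChartedSpace V F]
  {M : Type} [MetricSpace M] [ChartedSpace (E × V) M]
  [RiemannianBundle (fun x : M => TangentSpace 𝓘(ℝ, E × V) x)]

/-- the metrics of the fibres -/
def kap (Φ : Diffeomorph 𝓘(ℝ, E × V) (𝓘(ℝ, E).prod 𝓘(ℝ, V)) M (N × F) ∞)
    (e : OpenPartialHomeomorph N E) (f : OpenPartialHomeomorph F V) (z : E × V) :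
    V →L[ℝ] V →L[ℝ] ℝ :=
  ContinuousLinearMap.bilinearComp (chartG (pch Φ e f) z) (ContinuousLinearMap.inr ℝ E V)
    (ContinuousLinearMap.inr ℝ E V)

variable {Φ : Diffeomorph 𝓘(ℝ, E × V) (𝓘(ℝ, E).prod 𝓘(ℝ, V)) M (N × F) ∞}
  {e : OpenPartialHomeomorph N E} {f : OpenPartialHomeomorph F V}

theorem kap_apply (z : E × V) (b b' : V) :
    kap Φ e f z b b' = chartG (pch Φ e f) z (0, b) (0, b') := rfl

theorem cgs {E' M' : Type} [NormedAddCommGroup E'] [NormedSpace ℝ E'] [MetricSpace M']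
    [ChartedSpace E' M'] [RiemannianBundle (fun x : M' => TangentSpace 𝓘(ℝ, E') x)]
    (c : OpenPartialHomeomorph M' E') (z v w : E') : chartG c z v w = chartG c z w v := by
  rw [chartG_apply, chartG_apply, chartMetric, chartMetric]
  exact real_inner_comm _ _

theorem kap_symm (z : E × V) (b b' : V) : kap Φ e f z b b' = kap Φ e f z b' b := by
  rw [kap_apply, kap_apply]
  exact cgs _ _ _ _

theorem chartG_block [IsManifold 𝓘(ℝ, E) ∞ N] [IsManifold 𝓘(ℝ, V) ∞ F]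
    [IsManifold 𝓘(ℝ, E × V) ∞ M] {w : N → ℝ} (h : IsTwisted w Φ)
    (he : e ∈ maximalAtlas 𝓘(ℝ, E) ∞ N)
    (hf : f ∈ maximalAtlas 𝓘(ℝ, V) ∞ F) {z : E × V} (hz : z ∈ e.target ×ˢ f.target)
    (v v' : E × V) :
    chartG (pch Φ e f) z v v' = w (e.symm z.1) * chartG e z.1 v.1 v'.1 +
      kap Φ e f z v.2 v'.2 := by
  have h1 : v = (v.1, 0) + (0, v.2) := by ext <;> simp
  have h1' : v' = (v'.1, 0) + (0, v'.2) := by ext <;> simp
  have h2 : chartG (pch Φ e f) z v v' =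
      chartG (pch Φ e f) z (v.1, 0) v' + chartG (pch Φ e f) z (0, v.2) v' := by
    conv_lhs => rw [h1]
    rw [map_add, _root_.add_apply]
  have h3 : chartG (pch Φ e f) z (0, v.2) v' = kap Φ e f z v.2 v'.2 := by
    conv_lhs => rw [h1']
    rw [map_add, kap_apply, cgs _ _ (0, v.2) (v'.1, 0), chartG_pch h he hf hz]
    simp
  rw [h2, h3, chartG_pch h he hf hz]

section smooth

variable [FiniteDimensional ℝ E] [FiniteDimensional ℝ V]
    [IsManifold 𝓘(ℝ, E) ∞ N] [IsManifold 𝓘(ℝ, V) ∞ F]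
    [IsManifold 𝓘(ℝ, E × V) ∞ M]
    [IsContMDiffRiemannianBundle 𝓘(ℝ, E × V) ∞ (E × V)
      (fun x : M => TangentSpace 𝓘(ℝ, E × V) x)]

theorem contDiffOn_kap (he : e ∈ maximalAtlas 𝓘(ℝ, E) ∞ N)
    (hf : f ∈ maximalAtlas 𝓘(ℝ, V) ∞ F) :
    ContDiffOn ℝ ∞ (kap Φ e f) (e.target ×ˢ f.target) := by
  rw [contDiffOn_clm_apply]
  intro b
  rw [contDiffOn_clm_apply]
  intro b'
  have h := contDiffOn_chartMetric (pch_mem (Φ := Φ) he hf) (0, b) (0, b')
  rw [pch_target] at h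
  exact h

theorem kap_pos (he : e ∈ maximalAtlas 𝓘(ℝ, E) ∞ N)
    (hf : f ∈ maximalAtlas 𝓘(ℝ, V) ∞ F) {z : E × V} (hz : z ∈ e.target ×ˢ f.target) (v : V)
    (hv : v ≠ 0) : 0 < kap Φ e f z v v := by
  rw [kap_apply]
  refine chartG_pos (pch_mem (Φ := Φ) he hf) (by rw [pch_target]; exact hz) (0, v) ?_
  intro h
  exact hv (congrArg Prod.snd h)

theorem localRiem_kap (he : e ∈ maximalAtlas 𝓘(ℝ, E) ∞ N)
    (hf : f ∈ maximalAtlas 𝓘(ℝ, V) ∞ F) {z : E}
    (hz : z ∈ e.target) : LocalRiem (fun v => kap Φ e f (z, v)) f.target := by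
  have h1 : ContDiffOn ℝ ∞ (fun v : V => (z, v)) f.target :=
    (contDiff_prodMk_right z).contDiffOn
  have h2 : ContDiffOn ℝ ∞ (fun v => kap Φ e f (z, v)) f.target :=
    (contDiffOn_kap he hf).comp h1 (fun v hv => ⟨hz, hv⟩)
  exact ⟨f.open_target, h2, fun y hy v v' => kap_symm _ _ _,
    fun y hy v hv => kap_pos he hf ⟨hz, hy⟩ v hv⟩

theorem locFam_kap (he : e ∈ maximalAtlas 𝓘(ℝ, E) ∞ N)
    (hf : f ∈ maximalAtlas 𝓘(ℝ, V) ∞ F) {y : V}
    (hy : y ∈ f.target) : LocFam (fun z => kap Φ e f (z, y)) e.target := by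
  have h1 : ContDiffOn ℝ ∞ (fun z : E => (z, y)) e.target :=
    (contDiff_prodMk_left y).contDiffOn
  have h2 : ContDiffOn ℝ ∞ (fun z => kap Φ e f (z, y)) e.target :=
    (contDiffOn_kap he hf).comp h1 (fun z hz => ⟨hz, hy⟩)
  exact ⟨e.open_target, h2, fun z hz v v' => kap_symm _ _ _,
    fun z hz v hv => kap_pos he hf ⟨hz, hy⟩ v hv⟩

end smooth

/-- the metrics of the fibres in product charts -/
theorem fibreMetric_eq [IsManifold 𝓘(ℝ, E) ∞ N] [IsManifold 𝓘(ℝ, V) ∞ F]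
    [IsManifold 𝓘(ℝ, E × V) ∞ M] (he : e ∈ maximalAtlas 𝓘(ℝ, E) ∞ N)
    (hf : f ∈ maximalAtlas 𝓘(ℝ, V) ∞ F) {z : E} (hz : z ∈ e.target) {y : V}
    (hy : y ∈ f.target) (b b' : V) :
    fibreMetric Φ (e.symm z) f y b b' = kap Φ e f (z, y) b b' := by
  have hD : MDifferentiableAt 𝓘(ℝ, E × V) 𝓘(ℝ, E × V) (pch Φ e f).symm (z, y) :=
    ((contMDiffOn_symm_of_mem_maximalAtlas (pch_mem (Φ := Φ) he hf)).contMDiffAt
      ((pch Φ e f).open_target.mem_nhds (by rw [pch_target]; exact ⟨hz, hy⟩))).mdifferentiableAt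
      (by simp)
  have hι : MDifferentiableAt 𝓘(ℝ, V) 𝓘(ℝ, E × V) (fun t : V => (z, t)) y :=
    (hasFDerivAt_prodMk_right z y).differentiableAt.mdifferentiableAt
  have k := mfderiv_comp y hD hι
  have k2 : ∀ v : V, (mfderiv 𝓘(ℝ, V) 𝓘(ℝ, E × V) (fun t => Φ.symm (e.symm z, f.symm t)) y v :
      E × V) = mfderiv 𝓘(ℝ, E × V) 𝓘(ℝ, E × V) (pch Φ e f).symm (z, y) ((0, v) : E × V) := by
    intro v
    have k3 := congrArg (fun T => T v) k
    refine Eq.trans k3 ?_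
    rw [mfderiv_eq_fderiv (f := (fun t : V => (z, t)))]
    have k4 : fderiv ℝ (fun t : V => (z, t)) y = ContinuousLinearMap.inr ℝ E V :=
      (hasFDerivAt_prodMk_right z y).fderiv
    rw [k4]
    rfl
  have k5 : fibreMetric Φ (e.symm z) f y b b' =
      innerAt (E := E × V) (Φ.symm (e.symm z, f.symm y))
      (mfderiv 𝓘(ℝ, V) 𝓘(ℝ, E × V) (fun t => Φ.symm (e.symm z, f.symm t)) y b)
      (mfderiv 𝓘(ℝ, V) 𝓘(ℝ, E × V) (fun t => Φ.symm (e.symm z, f.symm t)) y b') := rfl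
  rw [k5, k2, k2]
  rfl

end Vale.Agent.P210.R2.H265
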