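import Vale.Agent.P210.R2.H265.LapD
import Vale.Agent.P210.R2.H265.Jet
import Vale.Agent.P210.R2.H53.RSpec
import Vale.Agent.P210.R2.H53.Step
import Vale.Agent.P210.R2.H196.Geo

/-!
# WLCP: pointwise second order upper bounds for the squared distance in charts
-/

open scoped Manifold ContDiff Topology Bundle NNReal
open Set Metric Filter Bundle IsManifold MeasureTheory Manifold Asymptotics

set_option maxSynthPendingDepth 3
set_option linter.all false

noncomputable section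

namespace Vale.Agent.P210.R2.H265

open Vale.Agent.P210.R2.H53 Vale.Agent.P210.H204

section

variable {E : Type} [NormedAddCommGroup E] [NormedSpace ℝ E] [FiniteDimensional ℝ E]
variable {M : Type} [MetricSpace M] [ChartedSpace E M]
  [RiemannianBundle (fun x : M => TangentSpace 𝓘(ℝ, E) x)]
  [IsManifold 𝓘(ℝ, E) ∞ M]
  [IsContMDiffRiemannianBundle 𝓘(ℝ, E) ∞ E (fun x : M => TangentSpace 𝓘(ℝ, E) x)]
  [IsRiemannianManifold 𝓘(ℝ, E) M]

theorem ricHyp_of [ProperSpace M] (hGEO : Stmt.GEO) {K : ℝ} (h : RicGE E M (-K)) :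
    RicHyp E M K := by
  refine ⟨inferInstance, fun x => ?_, ?_⟩
  · have : Nonempty M := ⟨x⟩
    have hpc : PathConnectedSpace M := ⟨this, fun x y =>
      H973.pathConnected_of_riemannian (E := E) x y⟩
    exact ((hGEO E M).1 inferInstance inferInstance).2 x
  · intro e he z hz v hv
    obtain ⟨Γ, hΓ, h1⟩ := h e he z hz
    obtain ⟨b, hb⟩ := H973.exists_onb (chartG e z) (chartG_symm e z) (chartG_pos he hz)
    have h2 := h1 b hb v
    simp only [sectNum_eq he hz hΓ] at h2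
    rw [H973.ric_eq hb, ← chartG_apply, hv, mul_one] at h2
    exact h2

/-- the bilinear form of an orthonormal basis -/
theorem onb_sum {g : E →L[ℝ] E →L[ℝ] ℝ} (hsymm : ∀ u v, g u v = g v u)
    {b : Module.Basis (Fin (Module.finrank ℝ E)) ℝ E}
    (hb : ∀ i j, g (b i) (b j) = if i = j then 1 else 0) (u v : E) :
    ∑ i, (1 : ℝ) * (g (b i) u * g (b i) v) = g u v := by
  have h1 : ∀ i, g (b i) u = b.repr u i := by
    intro i
    conv_lhs => rw [← b.sum_repr u]
    rw [map_sum]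
    simp only [map_smul, hb i _, smul_eq_mul, mul_ite, mul_one, mul_zero, Finset.sum_ite_eq,
      Finset.mem_univ, if_true]
  have h2 : g u v = g (∑ i, b.repr u i • b i) v := by rw [b.sum_repr u]
  rw [h2, map_sum, ContinuousLinearMap.sum_apply]
  refine Finset.sum_congr rfl fun i _ => ?_
  rw [map_smul, _root_.smul_apply, smul_eq_mul, ← h1 i, one_mul]

/-- WLCP, without excluding the point `x` itself. -/
theorem wlcp_strong [ProperSpace M] {K : ℝ} (hK : 0 < K) (hR : RicGE E M (-K)) (x : M)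
    {e : OpenPartialHomeomorph M E} (he : e ∈ maximalAtlas 𝓘(ℝ, E) ∞ M) {z₀ : E}
    (hz₀ : z₀ ∈ e.target) : ∃ r > 0, ∃ C : ℝ, ball z₀ (2 * r) ⊆ e.target ∧
    (∀ z v : E, ‖z - z₀‖ < r → ‖v‖ < r → dist x (e.symm (z + v)) ^ 2 / 2 +
      dist x (e.symm (z - v)) ^ 2 / 2 ≤ 2 * (dist x (e.symm z) ^ 2 / 2) + C * ‖v‖ ^ 2) ∧
    ∀ z : E, ‖z - z₀‖ < r → DifferentiableAt ℝ (fun w => dist x (e.symm w) ^ 2 / 2) z →
      ∃ B : E →L[ℝ] E →L[ℝ] ℝ, (∀ v w, B v w = B w v) ∧
      (∀ v : E, ∀ ε > 0, ∀ᶠ h in 𝓝[>] (0 : ℝ), dist x (e.symm (z + h • v)) ^ 2 / 2 +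
        dist x (e.symm (z - h • v)) ^ 2 / 2 ≤
          2 * (dist x (e.symm z) ^ 2 / 2) + h ^ 2 * (B v v + ε)) ∧
      ∀ b : Module.Basis (Fin (Module.finrank ℝ E)) ℝ E,
        (∀ i j, chartG e z (b i) (b j) = if i = j then 1 else 0) →
        ∑ i, (B (b i) (b i) - fderiv ℝ (fun w => dist x (e.symm w) ^ 2 / 2) z
          (chris (chartG e) z (b i) (b i))) ≤
          Module.finrank ℝ E + K * dist x (e.symm z) ^ 2 := by
  have hJET := jet_holds
  have hGEO := H196.geo
  have hSTEP := step_holds hJET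
  have hRH : RicHyp E M K := ricHyp_of hGEO hR
  obtain ⟨C, hC, ρ, hρ, hsub, hS, -⟩ := semiconcave_loc hJET hGEO hSTEP hK.le hRH x he hz₀
  have hb : ∀ z v : E, ‖z - z₀‖ < ρ / 2 → ‖v‖ < ρ / 2 → z + v ∈ ball z₀ ρ := by
    intro z v h1 h2
    rw [mem_ball, dist_eq_norm]
    have : z + v - z₀ = (z - z₀) + v := by abel
    rw [this]
    linarith [norm_add_le (z - z₀) v]
  refine ⟨ρ / 2, by positivity, C, ?_, ?_, ?_⟩
  · rw [mul_div_cancel₀ _ (two_ne_zero)]; exact hsub
  · intro z v h1 h2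
    have h3 := hS z v 1 1 one_pos one_pos (by
      rw [one_smul, sub_eq_add_neg]; exact hb z (-v) h1 (by rwa [norm_neg]))
      (by rw [one_smul]; exact hb z v h1 h2)
    simp only [one_smul, one_mul, hsq] at h3
    linarith
  · intro z h1 hd
    have hz : z ∈ ball z₀ ρ := by
      have := hb z 0 h1 (by simpa using by positivity)
      rwa [add_zero] at this
    obtain ⟨B, hB0, hB1, hB2⟩ := line_pt hJET hGEO hSTEP hK.le hRH x he hC hsub hS hz hd
    refine ⟨B, hB0, fun v ε hε => ?_, fun b hb' => ?_⟩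
    · filter_upwards [hB1 v ε hε] with h hh
      simp only [hsq] at hh
      linarith
    · have h3 := hB2 (Fin (Module.finrank ℝ E)) (fun i => b i) (fun _ => 1)
        (onb_sum (chartG_symm e z) hb')
      simp only [one_mul] at h3
      exact h3

end

theorem wlcp : Stmt.WLCP := by
  intro E _ _ _ _ _ M _ _ _ _ _ _ _ _ _ hn K hK hR x e he z₀ hz₀ _
  exact wlcp_strong hK hR x he hz₀

end Vale.Agent.P210.R2.H265
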