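import Vale.Agent.P210.R2.H265.LapI
import Vale.Agent.P210.R2.H265.Wlcp

/-!
# The local weak Laplacian comparison
-/

open scoped Manifold ContDiff Topology Bundle NNReal
open Set Metric Filter Bundle IsManifold MeasureTheory Manifold Asymptotics

set_option maxSynthPendingDepth 3
set_option linter.all false

noncomputable section

namespace Vale.Agent.P210.R2.H265

open Vale.Agent.P210.R2.H53 Vale.Agent.P210.H204

variable {E : Type} [NormedAddCommGroup E] [NormedSpace ℝ E] [FiniteDimensional ℝ E]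
  [MeasurableSpace E] [BorelSpace E]
variable {M : Type} [MetricSpace M] [ChartedSpace E M]
  [RiemannianBundle (fun x : M => TangentSpace 𝓘(ℝ, E) x)]
  [IsManifold 𝓘(ℝ, E) ∞ M]
  [IsContMDiffRiemannianBundle 𝓘(ℝ, E) ∞ E (fun x : M => TangentSpace 𝓘(ℝ, E) x)]
  [IsRiemannianManifold 𝓘(ℝ, E) M] [ProperSpace M]

/-- Local weak Laplacian comparison, for functions with small support in a chart. -/
theorem wlc_loc (hn : 1 ≤ Module.finrank ℝ E) {K : ℝ} (hK : 0 < K) (hR : RicGE E M (-K))
    (x : M) {e : OpenPartialHomeomorph M E} (he : e ∈ maximalAtlas 𝓘(ℝ, E) ∞ M) {z₀ : E}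
    (hz₀ : z₀ ∈ e.target) : ∃ ρ > 0, ball z₀ ρ ⊆ e.target ∧
    ∀ (Z : E → ℝ) (D : ℝ≥0), LipschitzWith D Z → tsupport Z ⊆ ball z₀ ρ → (∀ z, 0 ≤ Z z) →
      -∫ z, gamG (chartG e) (fun z => dist x (e.symm z) ^ 2 / 2) Z z * dens (chartG e) z
          ∂(Module.finBasis ℝ E).addHaar ≤
        ∫ z, (Module.finrank ℝ E + K * dist x (e.symm z) ^ 2) * Z z * dens (chartG e) z
          ∂(Module.finBasis ℝ E).addHaar := by
  have hJET := jet_holds
  have hGEO := H196.geo
  have hSTEP := step_holds hJET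
  have hRH : RicHyp E M K := ricHyp_of hGEO hR
  obtain ⟨C, hC, ρ₁, hρ₁, hsub, hS, L, hL, -⟩ :=
    semiconcave_loc hJET hGEO hSTEP hK.le hRH x he hz₀
  obtain ⟨ρ, hρ, hρρ, h⟩ := wlc_flat (μ := (Module.finBasis ℝ E).addHaar)
    (H204.localRiem_chartG he) hn hz₀ (f := hsq x e)
    (q := fun z => Module.finrank ℝ E + K * dist x (e.symm z) ^ 2) hρ₁ hsub hC hS hL
    (by
      intro z hz
      have h1 : ContinuousAt e.symm z := e.continuousAt_symm (hsub hz)
      exact (continuousAt_const.add (continuousAt_const.mul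
        ((continuousAt_const.dist h1).pow 2))).continuousWithinAt)
    (by
      intro z hz hd w k hk hkG η hη
      exact line_est hJET hGEO hSTEP hK.le hRH x he hC hsub hS hz hd w k hk hkG hη)
  exact ⟨ρ, hρ, (ball_subset_ball hρρ).trans hsub, h⟩

end Vale.Agent.P210.R2.H265
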